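import Vale.Agent.P064.PartC

namespace Vale.Agent.P064

open Finset
open scoped Pointwise

set_option linter.unusedSectionVars false

section

variable {V : Type} {n : ℕ}

lemma orbit_ge {H : SimpleGraph V} {ι : V ↪ Fin n} [Finite V] {p : ℝ} (hp0 : 0 ≤ p) (hp1 : p ≤ 1)
    (hp : ∀ F : H.Subgraph, 1 / 2 ≤ gnpE n p (fun G => (copies G F.coe : ℝ)))
    (K : Finset (EE n)) (hK : K ⊆ eK H ι) :
    (1 : ℝ) / 2 ≤ ((univ.image (fun g : Equiv.Perm (Fin n) => K.image (fun e => g • e))).card : ℝ)
      * p ^ K.card :=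
  (hp (fK H ι K hK)).trans (gnpE_copies_le hK hp0 hp1)

lemma spread_of {K0 : Finset (EE n)} {κ : ℝ} (hκ : 0 ≤ κ)
    (hF : ∀ F : Finset (EE n), F ⊆ K0 →
      ((univ.filter (fun g : Equiv.Perm (Fin n) => F.image (fun x => g • x) ⊆ K0)).card : ℝ)
        ≤ κ ^ F.card * (Fintype.card (Equiv.Perm (Fin n)) : ℝ)) (S : Finset (EE n)) :
    ((univ.filter (fun g : Equiv.Perm (Fin n) => S ⊆ K0.image (fun e => g • e))).card : ℝ)
      ≤ κ ^ S.card * (Fintype.card (Equiv.Perm (Fin n)) : ℝ) := by
  classical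
  by_cases hex : ∃ g₀ : Equiv.Perm (Fin n), S ⊆ K0.image (fun e => g₀ • e)
  · obtain ⟨g₀, hg₀⟩ := hex
    have hg₀' : S ⊆ g₀ • K0 := hg₀
    set F : Finset (EE n) := g₀⁻¹ • S with hFdef
    have hFK : F ⊆ K0 := by
      rw [hFdef, Finset.smul_finset_subset_iff, inv_inv]
      exact hg₀'
    have hcard : F.card = S.card := by rw [hFdef, Finset.card_smul_finset]
    have h := hF F hFK
    rw [hcard] at h
    refine le_trans (le_of_eq ?_) h
    congr 1
    refine Finset.card_bij' (fun g _ => g⁻¹ * g₀) (fun g _ => g₀ * g⁻¹) ?_ ?_ ?_ ?_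
    · intro g hg
      simp only [Finset.mem_filter, Finset.mem_univ, true_and] at hg ⊢
      have hg' : S ⊆ g • K0 := hg
      show (g⁻¹ * g₀) • F ⊆ K0
      rw [hFdef, smul_smul, mul_assoc, mul_inv_cancel, mul_one, Finset.smul_finset_subset_iff,
        inv_inv]
      exact hg'
    · intro g hg
      simp only [Finset.mem_filter, Finset.mem_univ, true_and] at hg ⊢
      have hg' : g • F ⊆ K0 := hg
      show S ⊆ (g₀ * g⁻¹) • K0
      rw [hFdef, smul_smul, Finset.smul_finset_subset_iff] at hg'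
      rw [mul_inv_rev, inv_inv] at hg'
      exact hg'
    · intro g _
      simp
    · intro g _
      simp
  · push Not at hex
    have : univ.filter (fun g : Equiv.Perm (Fin n) => S ⊆ K0.image (fun e => g • e)) = ∅ := by
      rw [Finset.filter_eq_empty_iff]
      intro g _
      exact hex g
    rw [this]
    simp only [Finset.card_empty, Nat.cast_zero]
    positivity

lemma log_bound {n h : ℕ} (hn : 2 ≤ n) (h0 : h ≠ 0) (hh : h ≤ n ^ 2) :
    ((Nat.log 2 h + 1 : ℕ) : ℝ) ≤ 5 * Real.log n := by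
  have h1 : (2 : ℕ) ^ (Nat.log 2 h) ≤ n ^ 2 := (Nat.pow_log_le_self 2 h0).trans hh
  have h2 : (2 : ℝ) ^ (Nat.log 2 h) ≤ (n : ℝ) ^ 2 := by exact_mod_cast h1
  have h3 := Real.log_le_log (by positivity) h2
  rw [Real.log_pow, Real.log_pow] at h3
  have h4 : Real.log 2 ≤ Real.log n := Real.log_le_log (by norm_num) (by exact_mod_cast hn)
  have h5 := Real.log_two_gt_d9
  have h6 : ((Nat.log 2 h : ℕ) : ℝ) * Real.log 2 + Real.log 2 ≤ 3 * Real.log n := by
    push_cast at h3
    linarith
  push_cast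
  have h7 : ((Nat.log 2 h : ℝ) + 1) * Real.log 2 ≤ (5 * Real.log n) * Real.log 2 := by
    have h8 : 0 ≤ Real.log n := by linarith
    nlinarith
  exact le_of_mul_le_mul_right h7 (by linarith)

end

theorem partC (hA : PartA) (hB : PartB) : FinalStatement := by
  classical
  obtain ⟨L, hL, hA⟩ := hA
  refine ⟨320 * L, by positivity, ?_⟩
  intro n hn V _ H hH hV
  obtain ⟨ι⟩ : Nonempty (V ↪ Fin n) :=
    Function.Embedding.nonempty_of_card_le (by simpa using hV)
  have hlogn : 0 < Real.log n := Real.log_pos (by exact_mod_cast hn)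
  set K0 := eK H ι with hK0
  have hK0n : K0.Nonempty := by
    have : ∃ a b, H.Adj a b := by
      by_contra hcon
      push Not at hcon
      apply hH
      ext a b
      simp [hcon a b]
    obtain ⟨a, b, hab⟩ := this
    have hd : ¬ (s(ι a, ι b) : Sym2 (Fin n)).IsDiag := by
      rw [Sym2.mk_isDiag_iff]
      exact fun h => hab.ne (ι.injective h)
    exact ⟨⟨s(ι a, ι b), hd⟩, mem_eK.mpr ⟨a, b, hab, rfl⟩⟩
  -- the set defining `pc`
  set Sc : Set ℝ := {p : ℝ | 0 ≤ p ∧ p ≤ 1 ∧
    1 / 2 ≤ gnpE n p (fun G => if 0 < copies G H then 1 else 0)} with hSc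
  have hpc : pc n H = sInf Sc := rfl
  have hbdd : BddBelow Sc := ⟨0, fun p hp => hp.1⟩
  have h1Sc : (1 : ℝ) ∈ Sc := by
    refine ⟨zero_le_one, le_rfl, ?_⟩
    rw [gnpE_one, if_pos (copies_top_pos H ι)]
    norm_num
  have key : ∀ p : ℝ, 0 ≤ p → p ≤ 1 →
      (∀ F : H.Subgraph, 1 / 2 ≤ gnpE n p (fun G => (copies G F.coe : ℝ))) →
      pc n H ≤ 320 * L * Real.log n * p := by
    intro p hp0 hp1 hpF
    have horb := fun K hK => orbit_ge (ι := ι) hp0 hp1 hpF K hK
    have hp : 0 < p := by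
      rcases hp0.lt_or_eq with h | h
      · exact h
      · exfalso
        have := horb K0 (Finset.Subset.refl _)
        rw [← h, zero_pow (Finset.card_pos.mpr hK0n).ne', mul_zero] at this
        norm_num at this
    have hFc := hA (Equiv.Perm (Fin n)) (EE n) K0 p hp hp1 (fun K hK _ => horb K hK)
    have hκ : 0 < L * p := by positivity
    have hspread := spread_of hκ.le hFc
    set r := Nat.log 2 K0.card + 1 with hr
    have hrlog : ((r : ℕ) : ℝ) ≤ 5 * Real.log n := by
      refine log_bound hn (Finset.card_pos.mpr hK0n).ne' ?_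
      have h1 : K0.card ≤ n.choose 2 := by
        rw [← card_EE n]; exact Finset.card_le_univ _
      have h2 : n.choose 2 ≤ n ^ 2 := Nat.choose_le_pow n 2
      omega
    set p' : ℝ := (r : ℝ) * (64 * (L * p)) with hp'
    have hp'0 : 0 ≤ p' := by positivity
    have hp'b : p' ≤ 320 * L * Real.log n * p := by
      have h1 := mul_le_mul_of_nonneg_right hrlog (show (0:ℝ) ≤ 64 * (L * p) by positivity)
      rw [hp']
      refine h1.trans (le_of_eq (by ring))
    rcases le_or_gt p' 1 with hle | hgt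
    · refine le_trans ?_ hp'b
      rw [hpc]
      refine csInf_le hbdd ⟨hp'0, hle, ?_⟩
      have hb := hB (EE n) (Equiv.Perm (Fin n)) (fun g => K0.image (fun e => g • e)) (L * p) r p'
        hκ (fun g => by
          rw [Finset.card_image_of_injective _ (MulAction.injective g), hr]
          exact Nat.lt_pow_succ_log_self (by norm_num) _) hspread le_rfl hle
      refine hb.trans ?_
      rw [gnpE_eq]
      refine Finset.sum_le_sum (fun W _ => ?_)
      have hw : 0 ≤ p' ^ W.card * (1 - p') ^ (Fintype.card (EE n) - W.card) := by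
        have : 0 ≤ 1 - p' := by linarith
        positivity
      by_cases hex : ∃ g : Equiv.Perm (Fin n), K0.image (fun e => g • e) ⊆ W
      · rw [if_pos hex]
        obtain ⟨g, hg⟩ := hex
        rw [if_pos (copies_pos hg), mul_one]
      · rw [if_neg hex]
        refine mul_nonneg hw ?_
        split_ifs
        exacts [zero_le_one, le_rfl]
    · have h1 : pc n H ≤ 1 := by
        rw [hpc]; exact csInf_le hbdd h1Sc
      linarith
  -- pass to the infimum
  set Se : Set ℝ := {p : ℝ | 0 ≤ p ∧ p ≤ 1 ∧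
    ∀ F : H.Subgraph, 1 / 2 ≤ gnpE n p (fun G => (copies G F.coe : ℝ))} with hSe
  have hpe : pE n H = sInf Se := rfl
  have h1Se : (1 : ℝ) ∈ Se := by
    refine ⟨zero_le_one, le_rfl, fun F => ?_⟩
    rw [gnpE_one]
    have h1 : 0 < copies (⊤ : SimpleGraph (Fin n)) F.coe :=
      copies_top_pos F.coe ((Function.Embedding.subtype _).trans ι)
    have h2 : (1 : ℝ) ≤ (copies (⊤ : SimpleGraph (Fin n)) F.coe : ℝ) := by exact_mod_cast h1
    linarith
  have hc : 0 < 320 * L * Real.log n := by positivity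
  have h3 : pc n H / (320 * L * Real.log n) ≤ sInf Se := by
    refine le_csInf ⟨1, h1Se⟩ ?_
    intro p hp
    rw [div_le_iff₀ hc, mul_comm]
    exact key p hp.1 hp.2.1 hp.2.2
  rw [div_le_iff₀ hc] at h3
  rw [hpe]
  refine h3.trans (le_of_eq (by ring))

end Vale.Agent.P064
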