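import Vale.Agent.P064.Growth

namespace Vale.Agent.P064

open Finset Real
open scoped Pointwise

set_option linter.unusedSectionVars false

section Prod

variable {α β : Type*} [Fintype α] [DecidableEq α] [Fintype β] [DecidableEq β]

lemma Hf_prod {p : α → ℝ} {q : β → ℝ} (hp : ∑ x, p x = 1) (hq : ∑ y, q y = 1) :
    Hf (fun x : α × β => p x.1 * q x.2) = Hf p + Hf q := by
  unfold Hf
  rw [Fintype.sum_prod_type]
  simp only [Real.negMulLog_mul]
  have h1 : ∀ x : α, ∑ y : β, (q y * negMulLog (p x) + p x * negMulLog (q y))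
      = negMulLog (p x) + p x * ∑ y, negMulLog (q y) := by
    intro x
    rw [Finset.sum_add_distrib, ← Finset.sum_mul, hq, one_mul, ← Finset.mul_sum]
  simp_rw [h1]
  rw [Finset.sum_add_distrib, ← Finset.sum_mul, hp, one_mul]

lemma mass_fst_prod {p : α → ℝ} {q : β → ℝ} (hq : ∑ y, q y = 1) :
    mass (fun x : α × β => p x.1 * q x.2) Prod.fst = p := by
  funext a
  rw [mass_fst]
  simp only
  rw [← Finset.mul_sum, hq, mul_one]

lemma mass_snd_prod {p : α → ℝ} {q : β → ℝ} (hp : ∑ x, p x = 1) :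
    mass (fun x : α × β => p x.1 * q x.2) Prod.snd = q := by
  funext b
  rw [mass_snd]
  simp only
  rw [← Finset.sum_mul, hp, one_mul]

end Prod

section Core

variable (G : Type*) [Group G] [Fintype G] {X : Type*} [Fintype X] [DecidableEq X]
  [MulAction G X]

/-- A law with zero deficit supported on copies of an extremal set. -/
lemma exists_zero_law {H F : Finset X} {l : ℝ} (hF : F ⊆ H)
    (hext : exp (-(l * (F.card : ℝ))) * (Fintype.card G : ℝ)
      ≤ ((univ.filter (fun g : G => g • F ⊆ H)).card : ℝ)) :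
    ∃ p : Finset X → ℝ, (∀ z, 0 ≤ p z) ∧ ∑ z, p z = 1 ∧ (∀ z, p z ≠ 0 → z ⊆ H) ∧
      Dd G l p ≤ 0 ∧ 0 < p F := by
  classical
  set M : ℝ := ((univ.filter (fun g : G => g • F ⊆ H)).card : ℝ) with hM
  have hG := cardG_pos G
  have hMp : 0 < M := lt_of_lt_of_le (by positivity) hext
  set w : G → ℝ := fun g => if g • F ⊆ H then 1 / M else 0 with hw
  have hw0 : ∀ g, 0 ≤ w g := by
    intro g; simp only [hw]; split_ifs <;> positivity
  have hws : ∑ g, w g = 1 := by
    simp only [hw]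
    rw [← Finset.sum_filter, Finset.sum_const, nsmul_eq_mul, ← hM]
    field_simp
  set p : Finset X → ℝ := mass w (fun g => g • F) with hp
  have hp0 : ∀ z, 0 ≤ p z := mass_nonneg hw0 _
  have hps : ∑ z, p z = 1 := by rw [hp, sum_mass, hws]
  have hsup : ∀ z, p z ≠ 0 → ∃ g : G, g • F = z ∧ g • F ⊆ H := by
    intro z hz
    by_contra hcon
    push Not at hcon
    apply hz
    simp only [hp]
    unfold mass
    refine Finset.sum_eq_zero (fun g _ => ?_)
    by_cases hg : g • F = z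
    · rw [if_pos hg]
      simp only [hw]
      rw [if_neg (hcon g hg)]
    · rw [if_neg hg]
  have hpin : ∀ z, z ⊆ H → p z = ∑ g : G, if g • F = z then 1 / M else 0 := by
    intro z hz
    simp only [hp]
    unfold mass
    refine Finset.sum_congr rfl (fun g _ => ?_)
    by_cases hg : g • F = z
    · rw [if_pos hg, if_pos hg]
      simp only [hw]
      rw [if_pos (hg ▸ hz)]
    · rw [if_neg hg, if_neg hg]
  have hinv : ∀ (h : G) z, z ⊆ H → h • z ⊆ H → p (h • z) = p z := by
    intro h z hz hhz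
    rw [hpin z hz, hpin _ hhz, ← Equiv.sum_comp (Equiv.mulLeft h)]
    refine Finset.sum_congr rfl (fun g _ => ?_)
    have : (Equiv.mulLeft h) g • F = h • z ↔ g • F = z := by
      simp only [Equiv.coe_mulLeft, mul_smul]
      exact smul_left_cancel_iff h
    simp only [this]
  have hcount : ∀ g₀ : G, ((univ.filter (fun h : G => h • (g₀ • F) ⊆ H)).card : ℝ) = M := by
    intro g₀
    rw [hM]
    congr 1
    refine Finset.card_bij' (fun h _ => h * g₀) (fun h _ => h * g₀⁻¹) ?_ ?_ ?_ ?_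
    · intro h hh
      simp only [Finset.mem_filter, Finset.mem_univ, true_and] at hh ⊢
      rwa [mul_smul]
    · intro h hh
      simp only [Finset.mem_filter, Finset.mem_univ, true_and] at hh ⊢
      rw [mul_smul, inv_smul_smul]
      exact hh
    · intro h _; simp
    · intro h _; simp
  have havg : ∀ z, p z ≠ 0 → avg G p z = M / (Fintype.card G : ℝ) * p z := by
    intro z hz
    obtain ⟨g₀, hg₀, hg₀H⟩ := hsup z hz
    have hzH : z ⊆ H := hg₀ ▸ hg₀H
    unfold avg
    have e : ∑ g : G, p (g • z) = M * p z := by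
      have e1 : ∀ g : G, p (g • z) = if g • z ⊆ H then p z else 0 := by
        intro g
        by_cases hg : g • z ⊆ H
        · rw [if_pos hg, hinv g z hzH hg]
        · rw [if_neg hg]
          by_contra h
          obtain ⟨g', hg', hg'H⟩ := hsup _ h
          exact hg (hg' ▸ hg'H)
      simp_rw [e1]
      rw [← Finset.sum_filter, Finset.sum_const, nsmul_eq_mul]
      congr 1
      rw [← hg₀]
      exact hcount g₀
    rw [e]
    ring
  refine ⟨p, hp0, hps, ?_, ?_, ?_⟩
  · intro z hz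
    obtain ⟨g, hg, hgH⟩ := hsup z hz
    exact hg ▸ hgH
  · unfold Dd
    rw [Hf_avg]
    unfold Hf negMulLog
    rw [Finset.mul_sum, ← Finset.sum_neg_distrib, ← Finset.sum_sub_distrib,
      ← Finset.sum_sub_distrib]
    refine Finset.sum_nonpos (fun z _ => ?_)
    by_cases h0 : p z = 0
    · simp [h0]
    have hpz : 0 < p z := lt_of_le_of_ne (hp0 z) (Ne.symm h0)
    rw [havg z h0, Real.log_mul (by positivity) hpz.ne', Real.log_div hMp.ne' hG.ne']
    obtain ⟨g₀, hg₀, hg₀H⟩ := hsup z h0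
    have hcard : z.card = F.card := by rw [← hg₀, Finset.card_smul_finset]
    rw [hcard]
    have hlog := Real.log_le_log (by positivity) hext
    rw [Real.log_mul (by positivity) hG.ne', Real.log_exp] at hlog
    have := mul_le_mul_of_nonneg_left hlog hpz.le
    nlinarith
  · rw [hpin F hF]
    refine lt_of_lt_of_le (show (0:ℝ) < 1 / M by positivity) ?_
    have := Finset.single_le_sum (s := univ) (f := fun g : G => if g • F = F then 1 / M else 0)
      (fun g _ => by
        show (0:ℝ) ≤ if g • F = F then 1 / M else 0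
        split_ifs <;> positivity) (Finset.mem_univ (1 : G))
    simpa using this

/-- the set of admissible laws -/
def laws (H : Finset X) : Set (Finset X × Finset X → ℝ) :=
  {P | (∀ x, 0 ≤ P x) ∧ ∑ x, P x = 1 ∧ ∀ x, P x ≠ 0 → x.1 ⊆ H ∧ x.2 ⊆ H}

/-- the functional -/
noncomputable def phi (l A B : ℝ) (P : Finset X × Finset X → ℝ) : ℝ :=
  ∑ x, P x * ((iP x).card : ℝ) - A * mi P
    - B * (Dd G l (mass P Prod.fst) + Dd G l (mass P Prod.snd))

lemma marg_supp {H : Finset X} {P : Finset X × Finset X → ℝ}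
    (hs : ∀ x, P x ≠ 0 → x.1 ⊆ H ∧ x.2 ⊆ H) :
    (∀ z, mass P Prod.fst z ≠ 0 → z ⊆ H) ∧ (∀ z, mass P Prod.snd z ≠ 0 → z ⊆ H) := by
  constructor
  · intro z hz
    by_contra hcon
    apply hz
    rw [mass_fst]
    refine Finset.sum_eq_zero (fun s _ => ?_)
    by_contra h
    exact hcon (hs _ h).1
  · intro z hz
    by_contra hcon
    apply hz
    rw [mass_snd]
    refine Finset.sum_eq_zero (fun s _ => ?_)
    by_contra h
    exact hcon (hs _ h).2

/-- Existence of an almost extremal law. -/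
theorem exists_extremal {H F : Finset X} {l A B : ℝ} (hmax : MaxHyp G H l) (hA : 0 ≤ A)
    (hB : 0 ≤ B) (hF : F ⊆ H) (hFn : F.Nonempty)
    (hext : exp (-(l * (F.card : ℝ))) * (Fintype.card G : ℝ)
      ≤ ((univ.filter (fun g : G => g • F ⊆ H)).card : ℝ)) :
    ∃ (Φ : ℝ) (P : Finset X × Finset X → ℝ), 0 < Φ ∧ PairB G H l A B Φ ∧
      (∀ x, 0 ≤ P x) ∧ ∑ x, P x = 1 ∧ (∀ x, P x ≠ 0 → x.1 ⊆ H ∧ x.2 ⊆ H) ∧
      Φ / 2 ≤ phi G l A B P := by
  classical
  have hDn : ∀ P ∈ laws H, 0 ≤ Dd G l (mass P Prod.fst) ∧ 0 ≤ Dd G l (mass P Prod.snd) := by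
    intro P hP
    obtain ⟨h0, h1, hs⟩ := hP
    exact ⟨Dd_nonneg G hmax (mass_nonneg h0 _) (by rw [sum_mass, h1]) (marg_supp hs).1,
      Dd_nonneg G hmax (mass_nonneg h0 _) (by rw [sum_mass, h1]) (marg_supp hs).2⟩
  set S : Set ℝ := phi G l A B '' laws H with hS
  have hbdd : BddAbove S := by
    refine ⟨(Fintype.card X : ℝ), ?_⟩
    rintro _ ⟨P, hP, rfl⟩
    have hD := hDn P hP
    obtain ⟨h0, h1, hs⟩ := hP
    have hmi := mi_nonneg h0 h1
    have h2 : ∑ x, P x * ((iP x).card : ℝ) ≤ ∑ x, P x * (Fintype.card X : ℝ) :=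
      Finset.sum_le_sum (fun x _ => mul_le_mul_of_nonneg_left
        (by exact_mod_cast Finset.card_le_univ _) (h0 x))
    rw [← Finset.sum_mul, h1, one_mul] at h2
    unfold phi
    have h3 : 0 ≤ A * mi P := mul_nonneg hA hmi
    have h4 : 0 ≤ B * (Dd G l (mass P Prod.fst) + Dd G l (mass P Prod.snd)) :=
      mul_nonneg hB (add_nonneg hD.1 hD.2)
    linarith
  -- positivity
  obtain ⟨p, hp0, hp1, hps, hpD, hpF⟩ := exists_zero_law G hF hext
  set P0 : Finset X × Finset X → ℝ := fun x => p x.1 * p x.2 with hP0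
  have hP00 : ∀ x, 0 ≤ P0 x := fun x => mul_nonneg (hp0 _) (hp0 _)
  have hP01 : ∑ x, P0 x = 1 := by
    rw [← sum_mass P0 Prod.fst, hP0, mass_fst_prod hp1, hp1]
  have hP0m : P0 ∈ laws H := by
    refine ⟨hP00, hP01, fun x hx => ?_⟩
    have h1 : p x.1 ≠ 0 := fun h => hx (by simp [hP0, h])
    have h2 : p x.2 ≠ 0 := fun h => hx (by simp [hP0, h])
    exact ⟨hps _ h1, hps _ h2⟩
  have hmi0 : mi P0 = 0 := by
    unfold mi
    rw [hP0, mass_fst_prod hp1, mass_snd_prod hp1, Hf_prod hp1 hp1]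
    ring
  have hphi0 : 0 < phi G l A B P0 := by
    unfold phi
    rw [hmi0, hP0, mass_fst_prod hp1, mass_snd_prod hp1]
    have h1 : 0 < ∑ x : Finset X × Finset X, p x.1 * p x.2 * ((iP x).card : ℝ) := by
      refine lt_of_lt_of_le ?_ (Finset.single_le_sum (s := univ)
        (f := fun x : Finset X × Finset X => p x.1 * p x.2 * ((iP x).card : ℝ))
        (fun x _ => mul_nonneg (mul_nonneg (hp0 _) (hp0 _)) (Nat.cast_nonneg _))
        (Finset.mem_univ (F, F)))
      have h2 : 0 < ((iP (F, F)).card : ℝ) := by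
        unfold iP
        rw [Finset.inter_self]
        exact_mod_cast hFn.card_pos
      show 0 < p F * p F * ((iP (F, F)).card : ℝ)
      positivity
    have h2 : B * (Dd G l p + Dd G l p) ≤ 0 := mul_nonpos_of_nonneg_of_nonpos hB (by linarith)
    linarith
  have hne : S.Nonempty := ⟨_, P0, hP0m, rfl⟩
  have hΦ : 0 < sSup S := lt_of_lt_of_le hphi0 (le_csSup hbdd ⟨P0, hP0m, rfl⟩)
  obtain ⟨_, ⟨P, hP, rfl⟩, hlt⟩ := exists_lt_of_lt_csSup hne
    (show sSup S / 2 < sSup S by linarith)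
  refine ⟨sSup S, P, hΦ, ?_, hP.1, hP.2.1, hP.2.2, hlt.le⟩
  intro Q hQ0 hQ1 hQs
  have h := le_csSup hbdd ⟨Q, ⟨hQ0, hQ1, hQs⟩, rfl⟩
  unfold phi at h
  linarith

/-- bound for one of the two conditional entropies -/
lemma side_bound {H : Finset X} {l A B Φ : ℝ} (hmax : MaxHyp G H l) (hA : 1 ≤ A) (hB : 0 ≤ B)
    (hΦ : 0 ≤ Φ) (hη : B * (log A + 1 / A) ≤ 1 / 10)
    (hpair : PairB G H l A B Φ) {P : Finset X × Finset X → ℝ} (hP : ∀ x, 0 ≤ P x)
    (h1 : ∑ x, P x = 1) (_hs : ∀ x, P x ≠ 0 → x.1 ⊆ H ∧ x.2 ⊆ H)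
    (f : Finset X × Finset X → Finset X) (hf : ∀ (g : G) x, f (g • x) = g • f x)
    (hfi : ∀ x, iP x ⊆ f x) (hfs : ∀ x, P x ≠ 0 → f x ⊆ H) {j ℓ : ℝ}
    (hj : j = ∑ x, P x * ((iP x).card : ℝ)) (hj0 : 0 < j)
    (hℓ : ℓ = ent (avg G P) iP - l * j) (hℓ0 : 0 ≤ ℓ)
    (hΦj : Φ ≤ 2 * j) (hD : B * Dd G l (mass P f) ≤ j) :
    ent (avg G P) (fun x => (f x, iP x)) - ent (avg G P) f
      ≤ (6 / 5) * (j * (1 + log (75 * (4 + A * (ℓ / j))))) + (2 / 5) * ℓ := by
  classical
  set P' : Finset X × Finset X → ℝ := mass P (fun x => (f x, iP x)) with hP'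
  have hP'0 : ∀ x, 0 ≤ P' x := mass_nonneg hP _
  have hP'1 : ∑ x, P' x = 1 := by rw [hP', sum_mass, h1]
  have hP's : ∀ x, P' x ≠ 0 → x.2 ⊆ x.1 ∧ x.1 ⊆ H := by
    intro x hx
    by_contra hcon
    apply hx
    simp only [hP']
    unfold mass
    refine Finset.sum_eq_zero (fun y _ => ?_)
    by_cases hy : (f y, iP y) = x
    · rw [if_pos hy]
      by_contra h
      apply hcon
      rw [← hy]
      exact ⟨hfi y, hfs y h⟩
    · rw [if_neg hy]
  obtain ⟨r, hr0, hr1, hr2, hr3, hr4, hr5, hr6⟩ := resampleJ G hmax P' hP'0 hP'1 hP's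
  have e1 : mass P' Prod.fst = mass P f := by
    funext a; rw [hP', mass_comp]
  have e2 : mass P' Prod.snd = mass P iP := by
    funext a; rw [hP', mass_comp]
  have e3 : Hf (avg G P') = ent (avg G P) (fun x => (f x, iP x)) := by
    rw [hP', ← mass_avg_fun G P (fun x => (f x, iP x)) (fun g z => by
      rw [hf, iP_smul]; rfl)]
    rfl
  have e4 : Hf (avg G (mass P' Prod.fst)) = ent (avg G P) f := by
    rw [e1, ← mass_avg_fun G P f hf]; rfl
  have e5 : Hf (avg G (mass P' Prod.snd)) = ent (avg G P) iP := by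
    rw [e2, ← mass_avg_fun G P iP (iP_smul G)]; rfl
  have e6 : ∑ x, P' x * (x.2.card : ℝ) = j := by
    rw [hj, hP', sum_mass_mul P (fun x => (f x, iP x)) (fun y => (y.2.card : ℝ))]
  rw [e3, e4] at hr4
  rw [e6] at hr5 hr6
  rw [e5] at hr6
  set h := ent (avg G P) (fun x => (f x, iP x)) - ent (avg G P) f with hh
  have hmi : mi r ≤ ℓ - h := by
    unfold mi
    linarith
  have hh0 : 0 ≤ h := by
    have := cent_nonneg (avg_nonneg G hP) iP f
    unfold cent at this
    have e : ent (avg G P) (fun ω => (iP ω, f ω)) = ent (avg G P) (fun x => (f x, iP x)) := by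
      refine ent_congr (fun a b => ?_)
      simp only [Prod.mk.injEq]
      exact and_comm
    rw [e] at this
    exact this
  have hA0 : 0 < A := by linarith
  set T := 75 * (4 + A * (ℓ / j)) with hT
  have hξ : 0 ≤ A * (ℓ / j) := by positivity
  have hT1 : 1 ≤ T := by simp only [hT]; linarith
  have hT0 : 0 < T := by linarith
  have hg := growth G hmax hA hB hΦ hη hpair hr0 hr1 hr3 (α := 1 / T) (by positivity)
    (by rw [div_le_one hT0]; exact hT1)
  rw [hr5, hr4, hr2, e1] at hg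
  have hW : 75 * (Φ + A * mi r + 2 * B * Dd G l (mass P f)) ≤ T * j := by
    have h3 : A * mi r ≤ A * ℓ := mul_le_mul_of_nonneg_left (by linarith) hA0.le
    have h4 : T * j = 75 * (4 * j + A * ℓ) := by
      simp only [hT]
      field_simp
    rw [h4]
    have h5 : 2 * B * Dd G l (mass P f) = 2 * (B * Dd G l (mass P f)) := by ring
    rw [h5]
    linarith
  have hW2 : 1 / T * (75 * (Φ + A * mi r + 2 * B * Dd G l (mass P f))) ≤ j := by
    rw [one_div, inv_mul_le_iff₀ hT0]
    exact hW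
  have e7 : (1 : ℝ) / (1 / T) = T := by field_simp
  rw [e7] at hg
  nlinarith [hg, hW2, hmi]

/-- The core theorem. -/
theorem core {H F : Finset X} {l a : ℝ} (hmax : MaxHyp G H l) (horb : OrbHyp G H a)
    (hF : F ⊆ H) (hFn : F.Nonempty)
    (hext : exp (-(l * (F.card : ℝ))) * (Fintype.card G : ℝ)
      ≤ ((univ.filter (fun g : G => g • F ⊆ H)).card : ℝ)) :
    a - l ≤ 4 * (68 + 12 * log 75 + 12 * log 48) := by
  classical
  have hl75 : 0 ≤ log 75 := Real.log_nonneg (by norm_num)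
  have hl48 : 0 ≤ log 48 := Real.log_nonneg (by norm_num)
  by_cases hneg : a - l ≤ 0
  · linarith
  push Not at hneg
  set lam := a - l with hlam
  set L := lam / 124 with hL
  have hL0 : 0 < L := by positivity
  set A := exp L with hA
  have hA1 : 1 ≤ A := by rw [hA]; exact Real.one_le_exp hL0.le
  have hA0 : 0 < A := by linarith
  have hlogA : log A = L := by rw [hA, Real.log_exp]
  set B := 1 / (10 * (L + 1)) with hB
  have hB0 : 0 < B := by positivity
  have hBinv : 1 / B = 10 * (L + 1) := by rw [hB]; field_simp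
  have hη : B * (log A + 1 / A) ≤ 1 / 10 := by
    rw [hlogA]
    have h1 : 1 / A ≤ 1 := by rw [div_le_one hA0]; exact hA1
    have h2 : B * (L + 1 / A) ≤ B * (L + 1) := mul_le_mul_of_nonneg_left (by linarith) hB0.le
    refine h2.trans (le_of_eq ?_)
    rw [hB]; field_simp
  obtain ⟨Φ, P, hΦ, hpair, hP0, hP1, hPs, hPphi⟩ :=
    exists_extremal G hmax hA0.le hB0.le hF hFn hext
  have hD1 := Dd_nonneg G hmax (mass_nonneg hP0 Prod.fst) (by rw [sum_mass, hP1]) (marg_supp hPs).1
  have hD2 := Dd_nonneg G hmax (mass_nonneg hP0 Prod.snd) (by rw [sum_mass, hP1]) (marg_supp hPs).2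
  have hmi := mi_nonneg hP0 hP1
  unfold phi at hPphi
  set j := ∑ x, P x * ((iP x).card : ℝ) with hj
  have hAm : 0 ≤ A * mi P := by positivity
  have hBD1 : 0 ≤ B * Dd G l (mass P Prod.fst) := by positivity
  have hBD2 : 0 ≤ B * Dd G l (mass P Prod.snd) := by positivity
  have hj0 : 0 < j := by linarith
  have hΦj : Φ ≤ 2 * j := by linarith
  set ℓ := ent (avg G P) iP - l * j with hℓ
  have hℓlam : lam * j ≤ ℓ := by
    have h1 := Hf_avg_ge G horb (p := mass P iP) (mass_nonneg hP0 _) (by rw [sum_mass, hP1]) (by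
      intro z hz
      by_contra hcon
      apply hz
      unfold mass
      refine Finset.sum_eq_zero (fun y _ => ?_)
      by_cases hy : iP y = z
      · rw [if_pos hy]
        by_contra h
        apply hcon
        rw [← hy]
        exact Finset.inter_subset_left.trans (hPs y h).1
      · rw [if_neg hy])
    rw [sum_mass_mul P iP (fun z => (z.card : ℝ)), ← mass_avg_fun G P iP (iP_smul G)] at h1
    have h2 : Hf (mass (avg G P) iP) = ent (avg G P) iP := rfl
    rw [h2, ← hj] at h1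
    rw [hℓ, hlam]
    linarith
  have hℓ0 : 0 < ℓ := lt_of_lt_of_le (by positivity) hℓlam
  have hs1 := side_bound G hmax hA1 hB0.le hΦ.le hη hpair hP0 hP1 hPs Prod.fst (fun g x => rfl)
    (fun x => Finset.inter_subset_left) (fun x hx => (hPs x hx).1) hj hj0 hℓ hℓ0.le hΦj
    (by linarith)
  have hs2 := side_bound G hmax hA1 hB0.le hΦ.le hη hpair hP0 hP1 hPs Prod.snd (fun g x => rfl)
    (fun x => Finset.inter_subset_right) (fun x hx => (hPs x hx).2) hj hj0 hℓ hℓ0.le hΦj
    (by linarith)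
  have hnode := node G (l := l) hP0
  have hDu : 0 ≤ Dd G l (mass P uP) := by
    refine Dd_nonneg G hmax (mass_nonneg hP0 _) (by rw [sum_mass, hP1]) ?_
    intro z hz
    by_contra hcon
    apply hz
    unfold mass
    refine Finset.sum_eq_zero (fun y _ => ?_)
    by_cases hy : uP y = z
    · rw [if_pos hy]
      by_contra h
      apply hcon
      rw [← hy]
      exact Finset.union_subset (hPs y h).1 (hPs y h).2
    · rw [if_neg hy]
  rw [← hj, ← hℓ] at hnode
  -- D1 + D2 ≤ j / B, mi ≤ j / A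
  have hDB : Dd G l (mass P Prod.fst) + Dd G l (mass P Prod.snd) ≤ j * (1 / B) := by
    rw [mul_one_div, le_div_iff₀ hB0]
    linarith
  have hmA : mi P ≤ j * (1 / A) := by
    rw [mul_one_div, le_div_iff₀ hA0]
    linarith
  have hA1' : 1 / A ≤ 1 := by rw [div_le_one hA0]; exact hA1
  have hmA' : mi P ≤ j := by
    refine hmA.trans ?_
    have := mul_le_mul_of_nonneg_left hA1' hj0.le
    linarith
  rw [hBinv] at hDB
  set ξ := ℓ / j with hξ
  have hℓξ : ℓ = j * ξ := by rw [hξ]; field_simp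
  have hξ0 : 0 < ξ := by positivity
  have hξlam : lam ≤ ξ := by rw [hξ, le_div_iff₀ hj0]; exact hℓlam
  have hlog1 : log (75 * (4 + A * ξ)) ≤ log 75 + L + log (4 + ξ) := by
    rw [Real.log_mul (by norm_num) (by positivity)]
    have h1 : 4 + A * ξ ≤ A * (4 + ξ) := by nlinarith
    have h2 := Real.log_le_log (by positivity) h1
    rw [Real.log_mul hA0.ne' (by positivity), hlogA] at h2
    linarith
  have hlog2 : log (4 + ξ) ≤ (4 + ξ) / 48 - 1 + log 48 := by
    have h1 := Real.log_le_sub_one_of_pos (show 0 < (4 + ξ) / 48 by positivity)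
    rw [Real.log_div (by positivity) (by norm_num)] at h1
    linarith
  have hmain : j * ξ ≤ j * (10 * (L + 1)) + j + 2 * ((6 / 5) * (j * (1 + (log 75 + L +
      ((4 + ξ) / 48 - 1 + log 48)))) + (2 / 5) * (j * ξ)) := by
    have h1 : j * (1 + log (75 * (4 + A * ξ))) ≤ j * (1 + (log 75 + L +
      ((4 + ξ) / 48 - 1 + log 48))) := mul_le_mul_of_nonneg_left (by linarith) hj0.le
    rw [← hℓξ]
    linarith
  have hmain2 : ξ ≤ (10 * (L + 1)) + 1 + 2 * ((6 / 5) * ((1 + (log 75 + L +
      ((4 + ξ) / 48 - 1 + log 48)))) + (2 / 5) * ξ) := by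
    have : j * ξ ≤ j * ((10 * (L + 1)) + 1 + 2 * ((6 / 5) * ((1 + (log 75 + L +
      ((4 + ξ) / 48 - 1 + log 48)))) + (2 / 5) * ξ)) := by
      refine hmain.trans (le_of_eq (by ring))
    exact le_of_mul_le_mul_left this hj0
  have hLξ : L ≤ ξ / 124 := by rw [hL]; linarith
  linarith

end Core

end Vale.Agent.P064
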