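import Vale.Agent.P064.Net

namespace Vale.Agent.P064

open Finset Real
open scoped Pointwise

set_option linter.unusedSectionVars false

section Next

variable {σ : Type*} [Fintype σ] [DecidableEq σ] {X : Type*} [Fintype X] [DecidableEq X]

/-- law of (hidden variable, union of two conditionally independent copies) -/
noncomputable def nxt (u : σ × Finset X → ℝ) : σ × Finset X → ℝ :=
  mass (dbl u) (fun x => (x.1, x.2.1 ∪ x.2.2))

lemma nxt_nonneg {u : σ × Finset X → ℝ} (hu : ∀ x, 0 ≤ u x) (x) : 0 ≤ nxt u x :=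
  mass_nonneg (dbl_nonneg hu) _ _

lemma sum_nxt_mul {u : σ × Finset X → ℝ} (F : σ × Finset X → ℝ) :
    ∑ x, nxt u x * F x = ∑ x, dbl u x * F (x.1, x.2.1 ∪ x.2.2) :=
  sum_mass_mul (dbl u) (fun x => (x.1, x.2.1 ∪ x.2.2)) F

lemma sum_nxt {u : σ × Finset X → ℝ} (hu : ∀ x, 0 ≤ u x) : ∑ x, nxt u x = ∑ x, u x := by
  have := sum_nxt_mul (u := u) (fun _ => 1)
  simp only [mul_one] at this
  rw [this, sum_dbl hu]

lemma nxt_fst {u : σ × Finset X → ℝ} (hu : ∀ x, 0 ≤ u x) :
    mass (nxt u) Prod.fst = mass u Prod.fst := by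
  funext s
  unfold nxt
  rw [mass_comp]
  exact mass_dbl_left hu Prod.fst s

lemma nxt_supp {H : Finset X} {u : σ × Finset X → ℝ} (hs : ∀ x, u x ≠ 0 → x.2 ⊆ H) :
    ∀ x, nxt u x ≠ 0 → x.2 ⊆ H := by
  intro x hx
  by_contra hcon
  apply hx
  unfold nxt mass
  refine Finset.sum_eq_zero (fun y _ => ?_)
  by_cases hy : (y.1, y.2.1 ∪ y.2.2) = x
  · rw [if_pos hy]
    by_contra h
    apply hcon
    rw [← hy]
    have ha : u (y.1, y.2.1) ≠ 0 := fun h' => h (by simp [dbl, h'])
    have hb : u (y.1, y.2.2) ≠ 0 := fun h' => h (by simp [dbl, h'])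
    exact Finset.union_subset (hs _ ha) (hs _ hb)
  · rw [if_neg hy]

/-- law of the pair of conditionally independent copies -/
noncomputable def prl (u : σ × Finset X → ℝ) : Finset X × Finset X → ℝ :=
  mass (dbl u) (fun x => (x.2.1, x.2.2))

lemma prl_nonneg {u : σ × Finset X → ℝ} (hu : ∀ x, 0 ≤ u x) (x) : 0 ≤ prl u x :=
  mass_nonneg (dbl_nonneg hu) _ _

lemma sum_prl {u : σ × Finset X → ℝ} (hu : ∀ x, 0 ≤ u x) : ∑ x, prl u x = ∑ x, u x := by
  unfold prl
  rw [sum_mass, sum_dbl hu]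

lemma prl_supp {H : Finset X} {u : σ × Finset X → ℝ} (hs : ∀ x, u x ≠ 0 → x.2 ⊆ H) :
    ∀ x, prl u x ≠ 0 → x.1 ⊆ H ∧ x.2 ⊆ H := by
  intro x hx
  by_contra hcon
  apply hx
  unfold prl mass
  refine Finset.sum_eq_zero (fun y _ => ?_)
  by_cases hy : (y.2.1, y.2.2) = x
  · rw [if_pos hy]
    by_contra h
    apply hcon
    rw [← hy]
    have ha : u (y.1, y.2.1) ≠ 0 := fun h' => h (by simp [dbl, h'])
    have hb : u (y.1, y.2.2) ≠ 0 := fun h' => h (by simp [dbl, h'])
    exact ⟨hs _ ha, hs _ hb⟩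
  · rw [if_neg hy]

lemma prl_sym (u : σ × Finset X → ℝ) (a b : Finset X) : prl u (a, b) = prl u (b, a) := by
  have h1 : ∀ c : Finset X × Finset X, prl u c
      = ∑ x, dbl u x * (if (x.2.1, x.2.2) = c then 1 else 0) := by
    intro c
    unfold prl mass
    exact Finset.sum_congr rfl (fun x _ => by split_ifs <;> simp)
  rw [h1, h1, sum_dbl_swap u]
  refine Finset.sum_congr rfl (fun x _ => ?_)
  congr 1
  simp only [Prod.mk.injEq]
  by_cases h : x.2.2 = a ∧ x.2.1 = b
  · rw [if_pos h, if_pos ⟨h.2, h.1⟩]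
  · rw [if_neg h, if_neg (fun h' => h ⟨h'.2, h'.1⟩)]

lemma prl_fst {u : σ × Finset X → ℝ} (hu : ∀ x, 0 ≤ u x) :
    mass (prl u) Prod.fst = mass u Prod.snd := by
  funext a
  unfold prl
  rw [mass_comp]
  exact mass_dbl_left hu Prod.snd a

lemma prl_snd {u : σ × Finset X → ℝ} (hu : ∀ x, 0 ≤ u x) :
    mass (prl u) Prod.snd = mass u Prod.snd := by
  funext a
  unfold prl
  rw [mass_comp]
  exact mass_dbl_right hu Prod.snd a

lemma prl_union {u : σ × Finset X → ℝ} :
    mass (prl u) uP = mass (nxt u) Prod.snd := by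
  funext a
  unfold prl nxt
  rw [mass_comp, mass_comp]
  rfl

/-- `I(A;B) ≤ I(S;A)` -/
lemma mi_prl_le {u : σ × Finset X → ℝ} (hu : ∀ x, 0 ≤ u x) : mi (prl u) ≤ mi u := by
  have hq := dbl_nonneg hu
  have h := cent_anti hq (fun x => x.2.1) (fun x => (x.2.2, x.1)) Prod.fst
  unfold cent at h
  have e1 : ent (dbl u) (fun x => (x.2.1, x.2.2, x.1)) = Hf (dbl u) := by
    rw [Hf_eq_ent]
    refine ent_congr (fun a b => ?_)
    constructor
    · intro h
      simp only [Prod.mk.injEq] at h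
      exact Prod.ext h.2.2 (Prod.ext h.1 h.2.1)
    · intro h
      rw [h]
  have e2 : ent (dbl u) (fun x => (x.2.2, x.1)) = Hf u := by
    have : mass (dbl u) (fun x => (x.2.2, x.1)) = mass u (fun y => (y.2, y.1)) := by
      funext c
      exact mass_dbl_right hu (fun y => (y.2, y.1)) c
    rw [ent_eq_Hf, this, ← ent_eq_Hf, Hf_eq_ent]
    refine ent_congr (fun a b => ?_)
    constructor
    · intro h
      simp only [Prod.mk.injEq] at h
      exact Prod.ext h.2 h.1
    · intro h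
      rw [h]
  have e3 : ent (dbl u) (fun x => x.2.2) = Hf (mass u Prod.snd) := by
    have : mass (dbl u) (fun x => x.2.2) = mass u Prod.snd := by
      funext c
      exact mass_dbl_right hu Prod.snd c
    rw [ent_eq_Hf, this]
  have e4 : ent (dbl u) (fun x => (x.2.1, x.2.2)) = Hf (prl u) := rfl
  rw [e1, e2, Hf_dbl hu] at h
  simp only at h
  rw [e3, e4] at h
  unfold mi
  rw [prl_fst hu, prl_snd hu]
  linarith

lemma mi_nxt_le {u : σ × Finset X → ℝ} (hu : ∀ x, 0 ≤ u x) (h1 : ∑ x, u x = 1) :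
    mi (nxt u) ≤ 2 * mi u := by
  have hq := dbl_nonneg hu
  have h := cent_anti hq (fun x => x.1) (fun x => (x.2.1, x.2.2)) uP
  unfold cent at h
  have e1 : ent (dbl u) (fun x => (x.1, x.2.1, x.2.2)) = Hf (dbl u) := by
    rw [Hf_eq_ent]
  have e2 : ent (dbl u) (fun x => (x.2.1, x.2.2)) = Hf (prl u) := rfl
  have e3 : ent (dbl u) (fun x => (x.1, uP (x.2.1, x.2.2))) = Hf (nxt u) := rfl
  have e4 : ent (dbl u) (fun x => uP (x.2.1, x.2.2)) = Hf (mass (nxt u) Prod.snd) := by
    rw [← prl_union, ent_eq_Hf]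
    congr 1
    funext a
    unfold prl
    rw [mass_comp]
  rw [e1, e2, e3, e4, Hf_dbl hu] at h
  have h2 := mi_nonneg (prl_nonneg hu) (by rw [sum_prl hu, h1])
  unfold mi at h2
  rw [prl_fst hu, prl_snd hu] at h2
  unfold mi
  rw [nxt_fst hu]
  linarith

/-- probability mass of `e` in the set, jointly with the hidden value -/
noncomputable def pin (u : σ × Finset X → ℝ) (s : σ) (e : X) : ℝ :=
  ∑ z, if e ∈ z then u (s, z) else 0

/-- probability mass of `e` not in the set, jointly with the hidden value -/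
noncomputable def pout (u : σ × Finset X → ℝ) (s : σ) (e : X) : ℝ :=
  ∑ z, if e ∈ z then 0 else u (s, z)

lemma pin_add_pout (u : σ × Finset X → ℝ) (s : σ) (e : X) :
    pin u s e + pout u s e = mass u Prod.fst s := by
  rw [mass_fst]
  unfold pin pout
  rw [← Finset.sum_add_distrib]
  exact Finset.sum_congr rfl (fun z _ => by split_ifs <;> simp)

lemma pin_nonneg {u : σ × Finset X → ℝ} (hu : ∀ x, 0 ≤ u x) (s : σ) (e : X) : 0 ≤ pin u s e :=
  Finset.sum_nonneg (fun z _ => by split_ifs; exacts [hu _, le_rfl])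

lemma pout_nonneg {u : σ × Finset X → ℝ} (hu : ∀ x, 0 ≤ u x) (s : σ) (e : X) : 0 ≤ pout u s e :=
  Finset.sum_nonneg (fun z _ => by split_ifs; exacts [le_rfl, hu _])

lemma pout_nxt (u : σ × Finset X → ℝ) (s : σ) (e : X) :
    pout (nxt u) s e = (pout u s e) ^ 2 / mass u Prod.fst s := by
  have h1 : pout (nxt u) s e
      = ∑ x : σ × Finset X, nxt u x * (if x.1 = s ∧ e ∉ x.2 then 1 else 0) := by
    rw [Fintype.sum_prod_type, Finset.sum_eq_single s]
    · unfold pout
      refine Finset.sum_congr rfl (fun z _ => ?_)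
      by_cases h : e ∈ z <;> simp [h]
    · intro s' _ hs'
      refine Finset.sum_eq_zero (fun z _ => ?_)
      simp [hs']
    · intro h; exact absurd (Finset.mem_univ _) h
  rw [h1, sum_nxt_mul, Fintype.sum_prod_type, Finset.sum_eq_single s]
  · rw [Fintype.sum_prod_type]
    unfold pout dbl
    simp only
    rw [pow_two, Finset.sum_mul_sum, Finset.sum_div]
    refine Finset.sum_congr rfl (fun a _ => ?_)
    rw [Finset.sum_div]
    refine Finset.sum_congr rfl (fun b _ => ?_)
    by_cases ha : e ∈ a <;> by_cases hb : e ∈ b <;> simp [ha, hb]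
  · intro s' _ hs'
    refine Finset.sum_eq_zero (fun z _ => ?_)
    simp [hs']
  · intro h; exact absurd (Finset.mem_univ _) h

lemma sum_prl_inter (u : σ × Finset X → ℝ) :
    ∑ x, prl u x * ((iP x).card : ℝ)
      = ∑ s, ∑ e, (pin u s e) ^ 2 / mass u Prod.fst s := by
  have h1 : ∑ x, prl u x * ((iP x).card : ℝ)
      = ∑ x : σ × Finset X × Finset X, dbl u x * (∑ e : X, if e ∈ x.2.1 ∧ e ∈ x.2.2 then 1 else 0) := by
    unfold prl
    rw [sum_mass_mul (dbl u) (fun x => (x.2.1, x.2.2)) (fun y => ((iP y).card : ℝ))]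
    refine Finset.sum_congr rfl (fun x _ => ?_)
    congr 1
    unfold iP
    rw [Finset.card_eq_sum_ones, Nat.cast_sum]
    rw [← Finset.sum_filter]
    have : (x.2.1 ∩ x.2.2) = univ.filter (fun e => e ∈ x.2.1 ∧ e ∈ x.2.2) := by
      ext e; simp
    rw [this]
    simp
  rw [h1, Fintype.sum_prod_type]
  refine Finset.sum_congr rfl (fun s _ => ?_)
  simp_rw [Finset.mul_sum]
  rw [Finset.sum_comm]
  refine Finset.sum_congr rfl (fun e _ => ?_)
  rw [Fintype.sum_prod_type]
  unfold pin dbl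
  simp only
  rw [pow_two, Finset.sum_mul_sum, Finset.sum_div]
  refine Finset.sum_congr rfl (fun a _ => ?_)
  rw [Finset.sum_div]
  refine Finset.sum_congr rfl (fun b _ => ?_)
  by_cases ha : e ∈ a <;> by_cases hb : e ∈ b <;> simp [ha, hb]

/-- iterated doubling -/
noncomputable def itn (u : σ × Finset X → ℝ) : ℕ → (σ × Finset X → ℝ)
  | 0 => u
  | t + 1 => nxt (itn u t)

lemma itn_nonneg {u : σ × Finset X → ℝ} (hu : ∀ x, 0 ≤ u x) (t : ℕ) : ∀ x, 0 ≤ itn u t x := by
  induction t with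
  | zero => exact hu
  | succ t ih => exact nxt_nonneg ih

lemma itn_sum {u : σ × Finset X → ℝ} (hu : ∀ x, 0 ≤ u x) (t : ℕ) :
    ∑ x, itn u t x = ∑ x, u x := by
  induction t with
  | zero => rfl
  | succ t ih => exact (sum_nxt (itn_nonneg hu t)).trans ih

lemma itn_fst {u : σ × Finset X → ℝ} (hu : ∀ x, 0 ≤ u x) (t : ℕ) :
    mass (itn u t) Prod.fst = mass u Prod.fst := by
  induction t with
  | zero => rfl
  | succ t ih => exact (nxt_fst (itn_nonneg hu t)).trans ih

lemma itn_supp {H : Finset X} {u : σ × Finset X → ℝ} (hs : ∀ x, u x ≠ 0 → x.2 ⊆ H) (t : ℕ) :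
    ∀ x, itn u t x ≠ 0 → x.2 ⊆ H := by
  induction t with
  | zero => exact hs
  | succ t ih => exact nxt_supp ih

lemma itn_mi {u : σ × Finset X → ℝ} (hu : ∀ x, 0 ≤ u x) (h1 : ∑ x, u x = 1) (t : ℕ) :
    mi (itn u t) ≤ 2 ^ t * mi u := by
  induction t with
  | zero => simp [itn]
  | succ t ih =>
    have := mi_nxt_le (itn_nonneg hu t) (by rw [itn_sum hu, h1])
    show mi (nxt (itn u t)) ≤ _
    rw [pow_succ]
    linarith

lemma itn_pout {u : σ × Finset X → ℝ} (hu : ∀ x, 0 ≤ u x) (t : ℕ) (s : σ) (e : X) :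
    pout (itn u t) s e = mass u Prod.fst s * (pout u s e / mass u Prod.fst s) ^ (2 ^ t) := by
  by_cases h0 : mass u Prod.fst s = 0
  · rw [h0, zero_mul]
    have h2 := pin_add_pout (itn u t) s e
    rw [itn_fst hu, h0] at h2
    have := pin_nonneg (itn_nonneg hu t) s e
    have := pout_nonneg (itn_nonneg hu t) s e
    linarith
  induction t with
  | zero =>
    simp only [itn, pow_zero, pow_one]
    rw [mul_div_cancel₀ _ h0]
  | succ t ih =>
    show pout (nxt (itn u t)) s e = _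
    rw [pout_nxt, ih, itn_fst hu, mul_pow, ← pow_mul, pow_succ 2 t]
    field_simp

lemma itn_pin {u : σ × Finset X → ℝ} (hu : ∀ x, 0 ≤ u x) (t : ℕ) (s : σ) (e : X) :
    (pin (itn u t) s e) ^ 2 / mass (itn u t) Prod.fst s
      = mass u Prod.fst s * (1 - (pout u s e / mass u Prod.fst s) ^ (2 ^ t)) ^ 2 := by
  have h2 := pin_add_pout (itn u t) s e
  rw [itn_fst hu, itn_pout hu] at h2
  rw [itn_fst hu]
  have : pin (itn u t) s e
      = mass u Prod.fst s * (1 - (pout u s e / mass u Prod.fst s) ^ (2 ^ t)) := by linarith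
  rw [this]
  by_cases h0 : mass u Prod.fst s = 0
  · simp [h0]
  · field_simp

end Next

section NoGrowth

variable (G : Type*) [Group G] [Fintype G] {X : Type*} [Fintype X] [DecidableEq X]
  [MulAction G X] {σ : Type*} [Fintype σ] [DecidableEq σ]

lemma mass_snd_supp {H : Finset X} {u : σ × Finset X → ℝ} (hs : ∀ x, u x ≠ 0 → x.2 ⊆ H) :
    ∀ z, mass u Prod.snd z ≠ 0 → z ⊆ H := by
  intro z hz
  by_contra hcon
  apply hz
  rw [mass_snd]
  refine Finset.sum_eq_zero (fun s _ => ?_)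
  by_contra h
  exact hcon (hs _ h)

theorem nogrowth {H : Finset X} {l A B Φ η : ℝ} (hmax : MaxHyp G H l) (hA : 1 ≤ A) (hB : 0 ≤ B)
    (hΦ : 0 ≤ Φ) (hη : B * (log A + 1 / A) ≤ η) (hη0 : 0 ≤ η)
    (hpair : PairB G H l A B Φ) {u : σ × Finset X → ℝ} (hu : ∀ x, 0 ≤ u x)
    (h1 : ∑ x, u x = 1) (hs : ∀ x, u x ≠ 0 → x.2 ⊆ H) (t : ℕ) :
    ∑ s, ∑ e, mass u Prod.fst s * (1 - (pout u s e / mass u Prod.fst s) ^ (2 ^ t)) ^ 2
      ≤ (2 + 2 * η) ^ t * (Φ + A * mi u + 2 * B * Dd G l (mass u Prod.snd)) := by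
  have hA0 : 0 < A := by linarith
  have hL : 0 ≤ log A := Real.log_nonneg hA
  have hmi0 : 0 ≤ mi u := mi_nonneg hu h1
  -- the pair bound along the iteration
  have hj : ∀ t, ∑ x, prl (itn u t) x * ((iP x).card : ℝ)
      ≤ Φ + A * mi (itn u t) + 2 * B * Dd G l (mass (itn u t) Prod.snd) := by
    intro t
    have hut := itn_nonneg hu t
    have h := hpair (prl (itn u t)) (prl_nonneg hut) (by rw [sum_prl hut, itn_sum hu, h1])
      (prl_supp (itn_supp hs t))
    rw [prl_fst hut, prl_snd hut] at h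
    have h2 := mul_le_mul_of_nonneg_left (mi_prl_le hut) hA0.le
    linarith
  have hD0 : ∀ t, 0 ≤ Dd G l (mass (itn u t) Prod.snd) := fun t =>
    Dd_nonneg G hmax (mass_nonneg (itn_nonneg hu t) _) (by rw [sum_mass, itn_sum hu, h1])
      (mass_snd_supp (itn_supp hs t))
  have hV : ∀ t, 2 * B * Dd G l (mass (itn u t) Prod.snd) + Φ + A * (2 ^ t * mi u)
      ≤ (2 + 2 * η) ^ t * (Φ + A * mi u + 2 * B * Dd G l (mass u Prod.snd)) := by
    intro t
    induction t with
    | zero => simp [itn]; linarith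
    | succ t ih =>
      have hut := itn_nonneg hu t
      have hub := unionBound G hmax hA0 hpair (prl (itn u t)) (prl_nonneg hut)
        (by rw [sum_prl hut, itn_sum hu, h1]) (prl_supp (itn_supp hs t)) (prl_sym _)
      rw [prl_union, prl_fst hut] at hub
      have hm1 := mi_prl_le hut
      have hm2 := itn_mi hu h1 t
      have hjt := hj t
      set d := Dd G l (mass (itn u t) Prod.snd) with hd
      have hd0 : 0 ≤ d := hD0 t
      set M := 2 ^ t * mi u with hM
      have hM0 : 0 ≤ M := by positivity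
      set j := ∑ x, prl (itn u t) x * ((iP x).card : ℝ) with hjdef
      have hjb : j ≤ Φ + A * M + 2 * B * d := by
        have := mul_le_mul_of_nonneg_left hm2 hA0.le
        linarith
      -- main estimate
      have hd' : Dd G l (mass (nxt (itn u t)) Prod.snd)
          ≤ 2 * d + M + log A * (Φ + A * M + 2 * B * d) + (Φ + 2 * B * d) / A := by
        have h3 := mul_le_mul_of_nonneg_left hjb hL
        linarith
      have h4 : 2 * B * Dd G l (mass (nxt (itn u t)) Prod.snd)
          ≤ 2 * B * (2 * d + M + log A * (Φ + A * M + 2 * B * d) + (Φ + 2 * B * d) / A) :=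
        mul_le_mul_of_nonneg_left hd' (by linarith)
      have h5 : 2 * B * (2 * d + M + log A * (Φ + A * M + 2 * B * d) + (Φ + 2 * B * d) / A)
          = 2 * (2 * B * d) + 2 * (B * (log A + 1 / A)) * (Φ + A * M + 2 * B * d) := by
        field_simp
        ring
      have h6 : 2 * (B * (log A + 1 / A)) * (Φ + A * M + 2 * B * d)
          ≤ 2 * η * (Φ + A * M + 2 * B * d) := by
        have hnn : 0 ≤ Φ + A * M + 2 * B * d := by positivity
        have := mul_le_mul_of_nonneg_right (mul_le_mul_of_nonneg_left hη (by norm_num : (0:ℝ) ≤ 2))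
          hnn
        linarith
      show 2 * B * Dd G l (mass (nxt (itn u t)) Prod.snd) + Φ + A * (2 ^ (t + 1) * mi u) ≤ _
      have h7 : 2 * B * Dd G l (mass (nxt (itn u t)) Prod.snd) + Φ + A * (2 ^ (t + 1) * mi u)
          ≤ (2 + 2 * η) * (2 * B * d + Φ + A * M) := by
        have e : A * (2 ^ (t + 1) * mi u) = 2 * (A * M) := by rw [hM]; ring
        rw [e]
        have : 0 ≤ A * M := by positivity
        have : 0 ≤ B * d := by positivity
        nlinarith [h4, h5, h6]
      have h8 := mul_le_mul_of_nonneg_left ih (show (0:ℝ) ≤ 2 + 2 * η by linarith)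
      rw [← mul_assoc (2 + 2 * η) ((2 + 2 * η) ^ t), ← pow_succ'] at h8
      exact h7.trans h8
  have hfin : ∑ s, ∑ e, mass u Prod.fst s * (1 - (pout u s e / mass u Prod.fst s) ^ (2 ^ t)) ^ 2
      = ∑ x, prl (itn u t) x * ((iP x).card : ℝ) := by
    rw [sum_prl_inter]
    refine Finset.sum_congr rfl (fun s _ => Finset.sum_congr rfl (fun e _ => ?_))
    rw [itn_pin hu]
  rw [hfin]
  have h2 := hj t
  have h3 := hV t
  have h4 := mul_le_mul_of_nonneg_left (itn_mi hu h1 t) hA0.le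
  linarith

end NoGrowth

end Vale.Agent.P064
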