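import Mathlib

namespace Vale.Agent.P064

open Finset Real

set_option linter.unusedSectionVars false

section Basics

variable {Ω α β γ : Type*} [Fintype Ω] [Fintype α] [DecidableEq α] [Fintype β] [DecidableEq β]
  [Fintype γ] [DecidableEq γ]

/-- push-forward of a weight -/
noncomputable def mass (w : Ω → ℝ) (X : Ω → α) (a : α) : ℝ := ∑ ω, if X ω = a then w ω else 0

/-- entropy of a function of a weighted finite space -/
noncomputable def ent (w : Ω → ℝ) (X : Ω → α) : ℝ := ∑ a, negMulLog (mass w X a)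

/-- conditional entropy of `X` given `Y` -/
noncomputable def cent (w : Ω → ℝ) (X : Ω → α) (Y : Ω → β) : ℝ :=
  ent w (fun ω => (X ω, Y ω)) - ent w Y

lemma mass_nonneg {w : Ω → ℝ} (hw : ∀ ω, 0 ≤ w ω) (X : Ω → α) (a : α) : 0 ≤ mass w X a :=
  Finset.sum_nonneg (fun ω _ => by split_ifs; exacts [hw ω, le_rfl])

lemma sum_mass_mul (w : Ω → ℝ) (X : Ω → α) (f : α → ℝ) :
    ∑ a, mass w X a * f a = ∑ ω, w ω * f (X ω) := by
  unfold mass
  simp_rw [Finset.sum_mul]
  rw [Finset.sum_comm]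
  refine Finset.sum_congr rfl (fun ω _ => ?_)
  simp [ite_mul]

lemma sum_mass (w : Ω → ℝ) (X : Ω → α) : ∑ a, mass w X a = ∑ ω, w ω := by
  simpa using sum_mass_mul w X (fun _ => 1)

lemma le_mass {w : Ω → ℝ} (hw : ∀ ω, 0 ≤ w ω) (X : Ω → α) (ω : Ω) : w ω ≤ mass w X (X ω) := by
  unfold mass
  have := Finset.single_le_sum (s := univ) (f := fun ω' => if X ω' = X ω then w ω' else 0)
    (fun ω' _ => by
      show (0 : ℝ) ≤ if X ω' = X ω then w ω' else 0
      split_ifs; exacts [hw ω', le_rfl]) (Finset.mem_univ ω)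
  simpa using this

lemma mass_pos {w : Ω → ℝ} (hw : ∀ ω, 0 ≤ w ω) (X : Ω → α) {ω : Ω} (h : w ω ≠ 0) :
    0 < mass w X (X ω) :=
  lt_of_lt_of_le (lt_of_le_of_ne (hw ω) (Ne.symm h)) (le_mass hw X ω)

lemma ent_eq (w : Ω → ℝ) (X : Ω → α) : ent w X = -∑ ω, w ω * log (mass w X (X ω)) := by
  rw [← sum_mass_mul w X (fun a => log (mass w X a)), ← Finset.sum_neg_distrib]
  unfold ent negMulLog
  refine Finset.sum_congr rfl (fun a _ => by ring)

lemma mass_comp (w : Ω → ℝ) (X : Ω → α) (f : α → β) (b : β) :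
    mass (mass w X) f b = mass w (fun ω => f (X ω)) b := by
  have := sum_mass_mul w X (fun a => if f a = b then 1 else 0)
  unfold mass at *
  simpa using this

lemma ent_comp (w : Ω → ℝ) (X : Ω → α) (f : α → β) :
    ent (mass w X) f = ent w (fun ω => f (X ω)) := by
  unfold ent
  simp_rw [mass_comp]

lemma ent_congr {w : Ω → ℝ} {X : Ω → α} {Y : Ω → β} (h : ∀ ω ω', X ω' = X ω ↔ Y ω' = Y ω) :
    ent w X = ent w Y := by
  rw [ent_eq, ent_eq]
  congr 1
  refine Finset.sum_congr rfl (fun ω _ => ?_)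
  have : mass w X (X ω) = mass w Y (Y ω) := by
    unfold mass
    refine Finset.sum_congr rfl (fun ω' _ => ?_)
    simp only [h ω ω']
  rw [this]

/-- congruence, only needed on the support -/
lemma ent_congr_supp {w : Ω → ℝ} {X : Ω → α} {Y : Ω → β}
    (h : ∀ ω ω', w ω ≠ 0 → w ω' ≠ 0 → (X ω' = X ω ↔ Y ω' = Y ω)) :
    ent w X = ent w Y := by
  rw [ent_eq, ent_eq]
  congr 1
  refine Finset.sum_congr rfl (fun ω _ => ?_)
  by_cases h0 : w ω = 0
  · simp [h0]
  have : mass w X (X ω) = mass w Y (Y ω) := by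
    unfold mass
    refine Finset.sum_congr rfl (fun ω' _ => ?_)
    by_cases h1 : w ω' = 0
    · simp [h1]
    · simp only [h ω ω' h0 h1]
  rw [this]

lemma mass_mono {w : Ω → ℝ} (hw : ∀ ω, 0 ≤ w ω) {X : Ω → α} {Y : Ω → β} (ω : Ω)
    (h : ∀ ω', X ω' = X ω → Y ω' = Y ω) : mass w X (X ω) ≤ mass w Y (Y ω) := by
  unfold mass
  refine Finset.sum_le_sum (fun ω' _ => ?_)
  by_cases h1 : X ω' = X ω
  · simp [h1, h ω' h1]
  · simp only [h1, if_false]
    split_ifs
    exacts [hw ω', le_rfl]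

lemma ent_mono {w : Ω → ℝ} (hw : ∀ ω, 0 ≤ w ω) {X : Ω → α} {Y : Ω → β}
    (h : ∀ ω ω', X ω' = X ω → Y ω' = Y ω) : ent w Y ≤ ent w X := by
  rw [ent_eq, ent_eq]
  apply neg_le_neg
  refine Finset.sum_le_sum (fun ω _ => ?_)
  by_cases h0 : w ω = 0
  · simp [h0]
  · exact mul_le_mul_of_nonneg_left
      (Real.log_le_log (mass_pos hw X h0) (mass_mono hw ω (h ω))) (hw ω)

/-- The conditional Gibbs inequality. -/
theorem gibbsC {w : Ω → ℝ} (hw : ∀ ω, 0 ≤ w ω) (X : Ω → α) (Y : Ω → β) (Q : β → α → ℝ)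
    (hQ0 : ∀ y x, 0 ≤ Q y x) (hQ1 : ∀ y, ∑ x, Q y x ≤ 1)
    (hpos : ∀ ω, w ω ≠ 0 → 0 < Q (Y ω) (X ω)) :
    cent w X Y ≤ -∑ ω, w ω * log (Q (Y ω) (X ω)) := by
  unfold cent
  rw [ent_eq w (fun ω => (X ω, Y ω)), ent_eq w Y]
  set m := mass w (fun ω => (X ω, Y ω)) with hm
  set n := mass w Y with hn
  have key : ∑ ω, w ω * (log (Q (Y ω) (X ω)) + log (n (Y ω)) - log (m (X ω, Y ω))) ≤ 0 := by
    have h1 : ∀ ω, w ω * (log (Q (Y ω) (X ω)) + log (n (Y ω)) - log (m (X ω, Y ω)))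
        ≤ w ω * (Q (Y ω) (X ω) * n (Y ω) / m (X ω, Y ω)) - w ω := by
      intro ω
      by_cases h0 : w ω = 0
      · simp [h0]
      · have hq := hpos ω h0
        have hnp : 0 < n (Y ω) := mass_pos hw Y h0
        have hmp : 0 < m (X ω, Y ω) := mass_pos hw (fun ω => (X ω, Y ω)) h0
        have : log (Q (Y ω) (X ω)) + log (n (Y ω)) - log (m (X ω, Y ω))
            = log (Q (Y ω) (X ω) * n (Y ω) / m (X ω, Y ω)) := by
          rw [Real.log_div (by positivity) (by positivity), Real.log_mul (by positivity)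
            (by positivity)]
        rw [this]
        have h2 := Real.log_le_sub_one_of_pos
          (show 0 < Q (Y ω) (X ω) * n (Y ω) / m (X ω, Y ω) by positivity)
        have := mul_le_mul_of_nonneg_left h2 (hw ω)
        linarith
    have h2 : ∑ ω, w ω * (Q (Y ω) (X ω) * n (Y ω) / m (X ω, Y ω)) ≤ ∑ ω, w ω := by
      have e1 : ∑ ω, w ω * (Q (Y ω) (X ω) * n (Y ω) / m (X ω, Y ω))
          = ∑ xy : α × β, m xy * (Q xy.2 xy.1 * n xy.2 / m xy) := by
        rw [hm]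
        exact (sum_mass_mul w (fun ω => (X ω, Y ω))
          (fun xy => Q xy.2 xy.1 * n xy.2 / mass w (fun ω => (X ω, Y ω)) xy)).symm
      rw [e1]
      have e2 : ∀ xy : α × β, m xy * (Q xy.2 xy.1 * n xy.2 / m xy) ≤ Q xy.2 xy.1 * n xy.2 := by
        intro xy
        by_cases h0 : m xy = 0
        · rw [h0]; simp
          exact mul_nonneg (hQ0 _ _) (mass_nonneg hw _ _)
        · rw [mul_div_cancel₀ _ h0]
      refine (Finset.sum_le_sum (fun xy _ => e2 xy)).trans ?_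
      rw [Fintype.sum_prod_type_right]
      simp only
      have e3 : ∀ y, ∑ x, Q y x * n y ≤ n y := by
        intro y
        rw [← Finset.sum_mul]
        have := mul_le_mul_of_nonneg_right (hQ1 y) (mass_nonneg hw Y y)
        simpa using this
      refine (Finset.sum_le_sum (fun y _ => e3 y)).trans ?_
      rw [hn, sum_mass]
    calc _ ≤ ∑ ω, (w ω * (Q (Y ω) (X ω) * n (Y ω) / m (X ω, Y ω)) - w ω) :=
          Finset.sum_le_sum (fun ω _ => h1 ω)
      _ = ∑ ω, w ω * (Q (Y ω) (X ω) * n (Y ω) / m (X ω, Y ω)) - ∑ ω, w ω := by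
          rw [Finset.sum_sub_distrib]
      _ ≤ 0 := by linarith
  have e : ∑ ω, w ω * (log (Q (Y ω) (X ω)) + log (n (Y ω)) - log (m (X ω, Y ω)))
      = ∑ ω, w ω * log (Q (Y ω) (X ω)) + ∑ ω, w ω * log (n (Y ω))
        - ∑ ω, w ω * log (m (X ω, Y ω)) := by
    rw [← Finset.sum_add_distrib, ← Finset.sum_sub_distrib]
    exact Finset.sum_congr rfl (fun ω _ => by ring)
  rw [e] at key
  linarith

lemma cent_eq {w : Ω → ℝ} (hw : ∀ ω, 0 ≤ w ω) (X : Ω → α) (Y : Ω → β) :
    cent w X Y = -∑ ω, w ω * log (mass w (fun ω => (X ω, Y ω)) (X ω, Y ω) / mass w Y (Y ω)) := by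
  unfold cent
  rw [ent_eq, ent_eq, sub_neg_eq_add, neg_add_eq_sub, ← Finset.sum_sub_distrib,
    ← Finset.sum_neg_distrib]
  refine Finset.sum_congr rfl (fun ω _ => ?_)
  by_cases h0 : w ω = 0
  · simp [h0]
  · rw [Real.log_div (mass_pos hw (fun ω => (X ω, Y ω)) h0).ne' (mass_pos hw Y h0).ne']
    ring

/-- conditioning on more information decreases the entropy -/
theorem cent_anti {w : Ω → ℝ} (hw : ∀ ω, 0 ≤ w ω) (X : Ω → α) (Y : Ω → β) (f : β → γ) :
    cent w X Y ≤ cent w X (fun ω => f (Y ω)) := by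
  rw [cent_eq hw X (fun ω => f (Y ω))]
  set m := mass w (fun ω => (X ω, f (Y ω))) with hm
  set n := mass w (fun ω => f (Y ω)) with hn
  have hmn : ∀ c, ∑ x, m (x, c) = n c := by
    intro c
    have h := sum_mass_mul w (fun ω => (X ω, f (Y ω))) (fun xc => if xc.2 = c then 1 else 0)
    rw [← hm] at h
    simp only [mul_ite, mul_one, mul_zero] at h
    rw [Fintype.sum_prod_type] at h
    simp only [Finset.sum_ite_eq', Finset.mem_univ, if_true] at h
    rw [h, hn]; rfl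
  refine gibbsC hw X Y (fun y x => m (x, f y) / n (f y)) ?_ ?_ ?_
  · intro y x
    exact div_nonneg (mass_nonneg hw _ _) (mass_nonneg hw _ _)
  · intro y
    show ∑ x, m (x, f y) / n (f y) ≤ 1
    rw [← Finset.sum_div, hmn]
    exact div_self_le_one _
  · intro ω h0
    exact div_pos (mass_pos hw (fun ω => (X ω, f (Y ω))) h0)
      (mass_pos hw (fun ω => f (Y ω)) h0)

lemma cent_nonneg {w : Ω → ℝ} (hw : ∀ ω, 0 ≤ w ω) (X : Ω → α) (Y : Ω → β) : 0 ≤ cent w X Y := by
  unfold cent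
  have := ent_mono hw (X := fun ω => (X ω, Y ω)) (Y := Y) (by
    intro ω ω' h
    exact (Prod.mk.inj h).2)
  linarith

/-- submodularity -/
theorem ent_submod {w : Ω → ℝ} (hw : ∀ ω, 0 ≤ w ω) (X : Ω → α) (Y : Ω → β) (Z : Ω → γ) :
    ent w (fun ω => (X ω, Y ω, Z ω)) + ent w Z
      ≤ ent w (fun ω => (X ω, Z ω)) + ent w (fun ω => (Y ω, Z ω)) := by
  have := cent_anti hw X (fun ω => (Y ω, Z ω)) Prod.snd
  unfold cent at this
  simp only at this
  linarith

/-- `H(X|Y) ≤ H(X)` when the total mass is one -/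
theorem cent_le_ent {w : Ω → ℝ} (hw : ∀ ω, 0 ≤ w ω) (h1 : ∑ ω, w ω = 1) (X : Ω → α) (Y : Ω → β) :
    cent w X Y ≤ ent w X := by
  have h := cent_anti hw X Y (fun _ => ())
  have e1 : cent w X (fun _ : Ω => ()) = ent w X := by
    unfold cent
    have a1 : ent w (fun _ : Ω => ()) = 0 := by
      unfold ent mass
      simp [h1]
    have a2 : ent w (fun ω => (X ω, ())) = ent w X := ent_congr (by
      intro ω ω'
      simp)
    rw [a1, a2, sub_zero]
  linarith [h, e1.le, e1.ge]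

end Basics

end Vale.Agent.P064
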