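import Vale.Agent.P064.Assemble

namespace Vale.Agent.P064

open Finset
open scoped Pointwise

set_option linter.unusedSectionVars false

section Cop

variable {α : Type} {n : ℕ}

open Classical in
/-- vertex set of a subgraph -/
noncomputable def vS {G : SimpleGraph (Fin n)} (S : G.Subgraph) : Finset (Fin n) :=
  univ.filter (fun x => x ∈ S.verts)

lemma mem_vS {G : SimpleGraph (Fin n)} {S : G.Subgraph} {x : Fin n} :
    x ∈ vS S ↔ x ∈ S.verts := by
  classical
  unfold vS
  simp

open Classical in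
/-- vertex set and edge set of an embedded graph -/
noncomputable def zof (A : SimpleGraph α) (j : α ↪ Fin n) : Finset (Fin n) × Finset (EE n) :=
  (univ.filter (fun x => ∃ a, j a = x), eK A j)

lemma mem_zof {A : SimpleGraph α} {j : α ↪ Fin n} {x : Fin n} :
    x ∈ (zof A j).1 ↔ ∃ a, j a = x := by
  classical
  unfold zof
  simp

lemma sub_inj {G : SimpleGraph (Fin n)} {S S' : G.Subgraph} (h1 : vS S = vS S')
    (h2 : es S = es S') : S = S' := by
  have hadj : ∀ a b, S.Adj a b ↔ S'.Adj a b := by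
    intro a b
    by_cases hab : a = b
    · subst hab
      exact ⟨fun h => absurd rfl (S.adj_sub h).ne, fun h => absurd rfl (S'.adj_sub h).ne⟩
    · have hd : ¬ (s(a, b) : Sym2 (Fin n)).IsDiag := by
        rw [Sym2.mk_isDiag_iff]; exact hab
      have h3 : (⟨s(a, b), hd⟩ : EE n) ∈ es S ↔ (⟨s(a, b), hd⟩ : EE n) ∈ es S' := by rw [h2]
      rw [mem_es, mem_es] at h3
      exact h3
  refine SimpleGraph.Subgraph.ext ?_ ?_
  · ext x
    rw [← mem_vS, h1, mem_vS]
  · funext a b
    exact propext (hadj a b)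

lemma orb_of_iso [Finite α] {A : SimpleGraph α} {j : α ↪ Fin n} {G : SimpleGraph (Fin n)}
    {S : G.Subgraph} (φ : S.coe ≃g A) :
    ∃ σ : Equiv.Perm (Fin n), (vS S, es S) = σ • zof A j := by
  obtain ⟨σ, hσ⟩ := Equiv.Perm.exists_extending_pair
    (fun a : α => j a) (fun a => (φ.symm a).1)
    j.injective (fun a b h => φ.symm.injective (Subtype.ext h))
  refine ⟨σ, Prod.ext ?_ ?_⟩
  · show vS S = σ • (zof A j).1
    ext x
    rw [mem_vS, Finset.mem_smul_finset]
    constructor
    · intro hx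
      refine ⟨j (φ ⟨x, hx⟩), mem_zof.mpr ⟨_, rfl⟩, ?_⟩
      show σ (j (φ ⟨x, hx⟩)) = x
      rw [hσ, RelIso.symm_apply_apply]
    · rintro ⟨y, hy, rfl⟩
      obtain ⟨a, rfl⟩ := mem_zof.mp hy
      show σ (j a) ∈ S.verts
      rw [hσ]
      exact (φ.symm a).2
  · show es S = σ • eK A j
    ext e
    rw [mem_es, Finset.mem_smul_finset]
    constructor
    · intro he
      obtain ⟨x, hx⟩ := e
      induction x using Sym2.ind with
      | _ a b =>
        have hab : S.Adj a b := he
        have ha : a ∈ S.verts := S.edge_vert hab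
        have hb : b ∈ S.verts := S.edge_vert (S.symm.symm _ _ hab)
        have h1 : S.coe.Adj ⟨a, ha⟩ ⟨b, hb⟩ := hab
        have h2 : A.Adj (φ ⟨a, ha⟩) (φ ⟨b, hb⟩) := φ.map_rel_iff.mpr h1
        have hd : ¬ (s(j (φ ⟨a, ha⟩), j (φ ⟨b, hb⟩)) : Sym2 (Fin n)).IsDiag := by
          rw [Sym2.mk_isDiag_iff]
          exact fun h => h2.ne (j.injective h)
        refine ⟨⟨s(j (φ ⟨a, ha⟩), j (φ ⟨b, hb⟩)), hd⟩, mem_eK.mpr ⟨_, _, h2, rfl⟩, EE.ext' ?_⟩
        rw [smul_val, Sym2.map_mk]
        show s(σ (j (φ ⟨a, ha⟩)), σ (j (φ ⟨b, hb⟩))) = s(a, b)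
        rw [hσ, hσ, RelIso.symm_apply_apply, RelIso.symm_apply_apply]
    · rintro ⟨e', he', rfl⟩
      obtain ⟨a, b, hab, hee⟩ := mem_eK.mp he'
      have h2 : S.coe.Adj (φ.symm a) (φ.symm b) := φ.symm.map_rel_iff.mpr hab
      have h3 : S.Adj (φ.symm a).1 (φ.symm b).1 := h2
      rw [smul_val, hee, Sym2.map_mk]
      show s(σ (j a), σ (j b)) ∈ S.edgeSet
      rw [hσ, hσ]
      exact h3

lemma iso_of_orb {A : SimpleGraph α} {j : α ↪ Fin n} {G : SimpleGraph (Fin n)}
    {σ : Equiv.Perm (Fin n)} (h : (σ • zof A j).2 ⊆ tW G) :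
    ∃ S : G.Subgraph, Nonempty (S.coe ≃g A) ∧ (vS S, es S) = σ • zof A j := by
  have hmap : ∀ {a b : α}, A.Adj a b → G.Adj (σ (j a)) (σ (j b)) := by
    intro a b hab
    have hd : ¬ (s(j a, j b) : Sym2 (Fin n)).IsDiag := by
      rw [Sym2.mk_isDiag_iff]
      exact fun h => hab.ne (j.injective h)
    have hm : (⟨s(j a, j b), hd⟩ : EE n) ∈ eK A j := mem_eK.mpr ⟨a, b, hab, rfl⟩
    have h1 : σ • (⟨s(j a, j b), hd⟩ : EE n) ∈ (σ • zof A j).2 :=
      Finset.smul_mem_smul_finset hm
    have h2 := mem_tW.mp (h h1)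
    rw [smul_val, Sym2.map_mk] at h2
    exact h2
  let f : SimpleGraph.Copy A G := ⟨⟨fun a => σ (j a), hmap⟩,
    fun a b hab => j.injective (σ.injective hab)⟩
  refine ⟨f.toSubgraph, ⟨f.isoToSubgraph.symm⟩, Prod.ext ?_ ?_⟩
  · show vS f.toSubgraph = σ • (zof A j).1
    ext x
    rw [mem_vS, Finset.mem_smul_finset]
    simp only [SimpleGraph.Subgraph.map_verts, SimpleGraph.Subgraph.verts_top, Set.image_univ,
      Set.mem_range]
    constructor
    · rintro ⟨a, rfl⟩
      exact ⟨j a, mem_zof.mpr ⟨a, rfl⟩, rfl⟩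
    · rintro ⟨y, hy, rfl⟩
      obtain ⟨a, rfl⟩ := mem_zof.mp hy
      exact ⟨a, rfl⟩
  · show es f.toSubgraph = σ • eK A j
    ext e
    rw [mem_es, Finset.mem_smul_finset]
    constructor
    · intro he
      obtain ⟨x, hx⟩ := e
      induction x using Sym2.ind with
      | _ a b =>
        have hab : (f.toSubgraph).Adj a b := he
        rw [SimpleGraph.Subgraph.map_adj] at hab
        obtain ⟨c, d, hcd, hc, hd'⟩ := hab
        have hcd' : A.Adj c d := hcd
        have hd : ¬ (s(j c, j d) : Sym2 (Fin n)).IsDiag := by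
          rw [Sym2.mk_isDiag_iff]
          exact fun h => hcd'.ne (j.injective h)
        refine ⟨⟨s(j c, j d), hd⟩, mem_eK.mpr ⟨c, d, hcd', rfl⟩, EE.ext' ?_⟩
        rw [smul_val, Sym2.map_mk]
        show s(σ (j c), σ (j d)) = s(a, b)
        rw [← hc, ← hd']
        rfl
    · rintro ⟨e', he', rfl⟩
      obtain ⟨a, b, hab, hee⟩ := mem_eK.mp he'
      rw [smul_val, hee, Sym2.map_mk]
      show (f.toSubgraph).Adj (σ (j a)) (σ (j b))
      rw [SimpleGraph.Subgraph.map_adj]
      exact ⟨a, b, hab, rfl, rfl⟩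

open Classical in
/-- the orbit of an embedded graph -/
noncomputable def orbz (A : SimpleGraph α) (j : α ↪ Fin n) :
    Finset (Finset (Fin n) × Finset (EE n)) :=
  univ.image (fun g : Equiv.Perm (Fin n) => g • zof A j)

open Classical in
/-- exact formula for the number of copies -/
lemma copies_eq [Finite α] (A : SimpleGraph α) (j : α ↪ Fin n) (G : SimpleGraph (Fin n)) :
    copies G A = ((orbz A j).filter (fun z => z.2 ⊆ tW G)).card := by
  unfold copies
  set T := (orbz A j).filter (fun z => z.2 ⊆ tW G) with hT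
  have hmem : ∀ S : {S : G.Subgraph // Nonempty (S.coe ≃g A)}, (vS S.1, es S.1) ∈ T := by
    rintro ⟨S, ⟨φ⟩⟩
    obtain ⟨σ, hσ⟩ := orb_of_iso (j := j) φ
    rw [hT, Finset.mem_filter]
    refine ⟨?_, es_sub S⟩
    unfold orbz
    exact Finset.mem_image.mpr ⟨σ, Finset.mem_univ _, hσ.symm⟩
  have h := Nat.card_congr (Equiv.ofBijective
    (fun S : {S : G.Subgraph // Nonempty (S.coe ≃g A)} =>
      (⟨(vS S.1, es S.1), hmem S⟩ : {z // z ∈ T})) ⟨by
      rintro ⟨S, ⟨φ⟩⟩ ⟨S', ⟨φ'⟩⟩ h
      have h2 : (vS S, es S) = (vS S', es S') := congrArg Subtype.val h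
      simp only [Prod.mk.injEq] at h2
      exact Subtype.ext (sub_inj h2.1 h2.2), by
      rintro ⟨z, hz⟩
      rw [hT, Finset.mem_filter] at hz
      obtain ⟨hz1, hz2⟩ := hz
      unfold orbz at hz1
      obtain ⟨σ, _, hσ⟩ := Finset.mem_image.mp hz1
      rw [← hσ] at hz2
      obtain ⟨S, hS, hS2⟩ := iso_of_orb hz2
      exact ⟨⟨S, hS⟩, Subtype.ext (hS2.trans hσ)⟩⟩)
  rw [h, Nat.card_eq_fintype_card, Fintype.card_coe]

lemma gnpE_copies [Finite α] (A : SimpleGraph α) (j : α ↪ Fin n) (p : ℝ) :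
    gnpE n p (fun G => (copies G A : ℝ)) = ((orbz A j).card : ℝ) * p ^ (eK A j).card := by
  classical
  rw [gnpE_eq]
  have h1 : ∀ W : Finset (EE n), p ^ W.card * (1 - p) ^ (Fintype.card (EE n) - W.card)
      * (copies (gr W) A : ℝ)
      = ∑ z ∈ orbz A j, if z.2 ⊆ W then p ^ W.card * (1 - p) ^ (Fintype.card (EE n) - W.card)
        else 0 := by
    intro W
    rw [copies_eq A j, tW_gr, ← Finset.sum_filter, Finset.sum_const, nsmul_eq_mul]
    ring
  rw [Finset.sum_congr rfl (fun W _ => h1 W), Finset.sum_comm]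
  have h5 : ∀ z ∈ orbz A j, ∑ W : Finset (EE n), (if z.2 ⊆ W then
      p ^ W.card * (1 - p) ^ (Fintype.card (EE n) - W.card) else 0) = p ^ (eK A j).card := by
    intro z hz
    rw [sum_superset z.2 p]
    unfold orbz at hz
    obtain ⟨g, _, rfl⟩ := Finset.mem_image.mp hz
    show p ^ (g • eK A j).card = _
    rw [Finset.card_smul_finset]
  rw [Finset.sum_congr rfl h5, Finset.sum_const, nsmul_eq_mul]

/-- orbit counting -/
lemma orbit_count {Γ Z : Type} [Group Γ] [Fintype Γ] [DecidableEq Z] [MulAction Γ Z] (z : Z)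
    (P : Z → Prop) [DecidablePred P] :
    (((univ.image (fun g : Γ => g • z)).filter P).card) * Fintype.card Γ
      = (univ.image (fun g : Γ => g • z)).card * (univ.filter (fun g : Γ => P (g • z))).card := by
  classical
  set O := univ.image (fun g : Γ => g • z) with hO
  set s := (univ.filter (fun g : Γ => g • z = z)).card with hs
  have hfib : ∀ w ∈ O, (univ.filter (fun g : Γ => g • z = w)).card = s := by
    intro w hw
    obtain ⟨g₀, _, rfl⟩ := Finset.mem_image.mp hw
    refine Finset.card_bij' (fun g _ => g₀⁻¹ * g) (fun g _ => g₀ * g) ?_ ?_ ?_ ?_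
    · intro g hg
      simp only [Finset.mem_filter, Finset.mem_univ, true_and] at hg ⊢
      rw [mul_smul, hg, inv_smul_smul]
    · intro g hg
      simp only [Finset.mem_filter, Finset.mem_univ, true_and] at hg ⊢
      rw [mul_smul, hg]
    · intro g _; simp
    · intro g _; simp
  have h1 : Fintype.card Γ = O.card * s := by
    rw [← Finset.card_univ, Finset.card_eq_sum_card_fiberwise (f := fun g : Γ => g • z) (t := O)
      (fun g hg => Finset.mem_image_of_mem _ hg), Finset.sum_congr rfl hfib, Finset.sum_const,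
      smul_eq_mul]
  have h2 : (univ.filter (fun g : Γ => P (g • z))).card = (O.filter P).card * s := by
    rw [Finset.card_eq_sum_card_fiberwise (f := fun g : Γ => g • z) (t := O.filter P)
      (fun g hg => by
        simp only [Finset.coe_filter, Finset.mem_univ, true_and, Set.mem_ofPred_eq] at hg
        simp only [Finset.coe_filter, Set.mem_ofPred_eq]
        exact ⟨Finset.mem_image_of_mem _ (Finset.mem_univ g), hg⟩)]
    have h3 : ∀ w ∈ O.filter P,
        ((univ.filter (fun g : Γ => P (g • z))).filter (fun g => g • z = w)).card = s := by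
      intro w hw
      rw [Finset.mem_filter] at hw
      rw [← hfib w hw.1, Finset.filter_filter]
      congr 1
      ext g
      simp only [Finset.mem_filter, Finset.mem_univ, true_and]
      constructor
      · rintro ⟨_, h⟩; exact h
      · intro h; exact ⟨h ▸ hw.2, h⟩
    rw [Finset.sum_congr rfl h3, Finset.sum_const, smul_eq_mul]
  rw [h1, h2]
  ring

lemma tW_map {V : Type} (H : SimpleGraph V) (ι : V ↪ Fin n) :
    tW (H.map ι) = eK H ι := by
  ext e
  rw [mem_tW, mem_eK]
  obtain ⟨x, hx⟩ := e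
  induction x using Sym2.ind with
  | _ a b =>
    rw [SimpleGraph.mem_edgeSet, SimpleGraph.map_adj]
    constructor
    · rintro ⟨u, v, huv, rfl, rfl⟩
      exact ⟨u, v, huv, rfl⟩
    · rintro ⟨u, v, huv, h⟩
      rw [Sym2.eq_iff] at h
      rcases h with ⟨rfl, rfl⟩ | ⟨rfl, rfl⟩
      · exact ⟨u, v, huv, rfl, rfl⟩
      · exact ⟨v, u, huv.symm, rfl, rfl⟩

lemma copies_map_le {V : Type} [Finite V] (H : SimpleGraph V) (ι : V ↪ Fin n)
    (A : SimpleGraph α) : copies H A ≤ copies (H.map ι) A := by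
  unfold copies
  let f : SimpleGraph.Copy H (H.map ι) := ⟨⟨fun a => ι a, fun {a b} hab => by
    rw [SimpleGraph.map_adj]; exact ⟨a, b, hab, rfl, rfl⟩⟩, fun a b hab => ι.injective hab⟩
  refine Nat.card_le_card_of_injective
    (fun S : {S : H.Subgraph // Nonempty (S.coe ≃g A)} =>
      (⟨S.1.map f.toHom, S.2.map (fun φ => (f.isoSubgraphMap S.1).symm.trans φ)⟩ :
        {S : (H.map ι).Subgraph // Nonempty (S.coe ≃g A)})) ?_
  rintro ⟨S, hS⟩ ⟨S', hS'⟩ h
  have h2 : S.map f.toHom = S'.map f.toHom := congrArg Subtype.val h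
  have hinj : Function.Injective f.toHom := f.injective
  apply Subtype.ext
  show S = S'
  refine SimpleGraph.Subgraph.ext ?_ ?_
  · have h3 := congrArg SimpleGraph.Subgraph.verts h2
    simp only [SimpleGraph.Subgraph.map_verts] at h3
    exact hinj.image_injective h3
  · funext a b
    have h3 := congrArg (fun T : (H.map ι).Subgraph => T.Adj (f.toHom a) (f.toHom b)) h2
    simp only [SimpleGraph.Subgraph.map_adj, Relation.map_apply, hinj.eq_iff,
      exists_eq_right_right, exists_eq_right] at h3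
    exact h3

end Cop

/-- The comparison of the two expectation thresholds, from Part A. -/
theorem frac_of_partA (hA : PartA) :
    ∃ L : ℝ, 0 < L ∧ ∀ n : ℕ, ∀ (V : Type) [Fintype V] (H : SimpleGraph V),
      H ≠ ⊥ → Fintype.card V ≤ n → ∀ p : ℝ, 0 ≤ p → p ≤ 1 →
      (∀ F : H.Subgraph, 1 / 2 ≤ gnpE n p (fun G => (copies G F.coe : ℝ))) →
      ∀ F : H.Subgraph,
        (copies H F.coe : ℝ) ≤ gnpE n (min 1 (L * p)) (fun G => (copies G F.coe : ℝ)) := by
  classical
  obtain ⟨L, hL, hA⟩ := hA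
  refine ⟨L, hL, ?_⟩
  intro n V _ H hH hV p hp0 hp1 hpF F
  obtain ⟨ι⟩ : Nonempty (V ↪ Fin n) :=
    Function.Embedding.nonempty_of_card_le (by simpa using hV)
  set K0 := eK H ι with hK0
  have hK0n : K0.Nonempty := by
    have : ∃ a b, H.Adj a b := by
      by_contra hcon
      push Not at hcon
      apply hH
      ext a b
      simp [hcon a b]
    obtain ⟨a, b, hab⟩ := this
    have hd : ¬ (s(ι a, ι b) : Sym2 (Fin n)).IsDiag := by
      rw [Sym2.mk_isDiag_iff]
      exact fun h => hab.ne (ι.injective h)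
    exact ⟨⟨s(ι a, ι b), hd⟩, mem_eK.mpr ⟨a, b, hab, rfl⟩⟩
  have horb := fun K hK => orbit_ge (ι := ι) hp0 hp1 hpF K hK
  have hp : 0 < p := by
    rcases hp0.lt_or_eq with h | h
    · exact h
    · exfalso
      have := horb K0 (Finset.Subset.refl _)
      rw [← h, zero_pow (Finset.card_pos.mpr hK0n).ne', mul_zero] at this
      norm_num at this
  have hFc := hA (Equiv.Perm (Fin n)) (EE n) K0 p hp hp1 (fun K hK _ => horb K hK)
  set A := F.coe with hAdef
  set j : F.verts ↪ Fin n := (Function.Embedding.subtype _).trans ι with hj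
  have hAK : eK A j ⊆ K0 := by
    intro e he
    obtain ⟨a, b, hab, hee⟩ := mem_eK.mp he
    exact mem_eK.mpr ⟨a.1, b.1, F.adj_sub hab, hee⟩
  have h1 : copies H A ≤ ((orbz A j).filter (fun z => z.2 ⊆ K0)).card := by
    refine (copies_map_le H ι A).trans (le_of_eq ?_)
    rw [copies_eq A j, tW_map]
  have h1' : (copies H A : ℝ) ≤ (((orbz A j).filter (fun z => z.2 ⊆ K0)).card : ℝ) := by
    exact_mod_cast h1
  rw [gnpE_copies A j]
  rcases le_or_gt (L * p) 1 with hle | hgt
  · rw [min_eq_right hle]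
    have hcount := orbit_count (Γ := Equiv.Perm (Fin n)) (zof A j) (fun z => z.2 ⊆ K0)
    have hcount' : (((orbz A j).filter (fun z => z.2 ⊆ K0)).card : ℝ)
        * (Fintype.card (Equiv.Perm (Fin n)) : ℝ)
        = ((orbz A j).card : ℝ) * ((univ.filter (fun g : Equiv.Perm (Fin n) =>
          (eK A j).image (fun x => g • x) ⊆ K0)).card : ℝ) := by
      exact_mod_cast hcount
    have h2 := hFc (eK A j) hAK
    have hn0 : (0 : ℝ) < (Fintype.card (Equiv.Perm (Fin n)) : ℝ) := by
      exact_mod_cast Fintype.card_pos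
    have h3 : (((orbz A j).filter (fun z => z.2 ⊆ K0)).card : ℝ)
        * (Fintype.card (Equiv.Perm (Fin n)) : ℝ)
        ≤ (((orbz A j).card : ℝ) * (L * p) ^ (eK A j).card)
          * (Fintype.card (Equiv.Perm (Fin n)) : ℝ) := by
      rw [hcount']
      have := mul_le_mul_of_nonneg_left h2 (Nat.cast_nonneg (α := ℝ) (orbz A j).card)
      linarith
    exact h1'.trans (le_of_mul_le_mul_right h3 hn0)
  · rw [min_eq_left hgt.le, one_pow, mul_one]
    refine h1'.trans ?_
    exact_mod_cast Finset.card_filter_le _ _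

end Vale.Agent.P064
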