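import Vale.Agent.P064.Step

namespace Vale.Agent.P064

open Finset Real
open scoped Pointwise

set_option linter.unusedSectionVars false

section Comb

variable {X : Type*} [Fintype X] [DecidableEq X]

lemma sum_insert_powersetCard (φ : Finset X → ℝ) (k : ℕ) :
    ∑ R ∈ powersetCard k (univ : Finset X), ∑ e ∈ Rᶜ, φ (insert e R)
      = ((k : ℝ) + 1) * ∑ R ∈ powersetCard (k + 1) (univ : Finset X), φ R := by
  have h1 : ((k : ℝ) + 1) * ∑ R ∈ powersetCard (k + 1) (univ : Finset X), φ R
      = ∑ R ∈ powersetCard (k + 1) (univ : Finset X), ∑ e ∈ R, φ R := by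
    rw [Finset.mul_sum]
    refine Finset.sum_congr rfl (fun R hR => ?_)
    rw [Finset.sum_const, nsmul_eq_mul, (Finset.mem_powersetCard.mp hR).2]
    push_cast
    ring
  rw [h1, Finset.sum_sigma', Finset.sum_sigma']
  refine Finset.sum_bij' (fun x _ => ⟨insert x.2 x.1, x.2⟩) (fun x _ => ⟨x.1.erase x.2, x.2⟩)
    ?_ ?_ ?_ ?_ ?_
  · rintro ⟨R, e⟩ h
    simp only [Finset.mem_sigma, Finset.mem_powersetCard, Finset.mem_compl] at h ⊢
    refine ⟨⟨Finset.subset_univ _, ?_⟩, Finset.mem_insert_self _ _⟩
    rw [Finset.card_insert_of_notMem h.2, h.1.2]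
  · rintro ⟨R, e⟩ h
    simp only [Finset.mem_sigma, Finset.mem_powersetCard, Finset.mem_compl] at h ⊢
    refine ⟨⟨Finset.subset_univ _, ?_⟩, Finset.notMem_erase _ _⟩
    rw [Finset.card_erase_of_mem h.2, h.1.2]
    rfl
  · rintro ⟨R, e⟩ h
    simp only [Finset.mem_sigma, Finset.mem_powersetCard, Finset.mem_compl] at h ⊢
    rw [Finset.erase_insert h.2]
  · rintro ⟨R, e⟩ h
    simp only [Finset.mem_sigma, Finset.mem_powersetCard] at h ⊢
    rw [Finset.insert_erase h.2]
  · rintro ⟨R, e⟩ h
    rfl

lemma avg_growth (f : Finset X → ℝ) {K : ℝ}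
    (hstep : ∀ R : Finset X, ∑ e ∈ Rᶜ, (f (insert e R) - f R) ≤ K) (k : ℕ)
    (hk : k ≤ Fintype.card X) :
    ∑ R ∈ powersetCard k (univ : Finset X), f R
      ≤ ((Fintype.card X).choose k : ℝ)
        * (f ∅ + ∑ i ∈ range k, K / ((Fintype.card X : ℝ) - i)) := by
  induction k with
  | zero => simp
  | succ k ih =>
    have ih' := ih (by omega)
    set N := Fintype.card X with hN
    have hNk : (0:ℝ) < (N : ℝ) - k := by
      have : (k : ℝ) + 1 ≤ N := by exact_mod_cast hk
      linarith
    have h1 : ∑ R ∈ powersetCard k (univ : Finset X), ∑ e ∈ Rᶜ, (f (insert e R) - f R)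
        ≤ (N.choose k : ℝ) * K := by
      refine (Finset.sum_le_sum (fun R _ => hstep R)).trans ?_
      rw [Finset.sum_const, nsmul_eq_mul, Finset.card_powersetCard, Finset.card_univ]
    simp_rw [Finset.sum_sub_distrib] at h1
    rw [sum_insert_powersetCard f k] at h1
    have h2 : ∑ R ∈ powersetCard k (univ : Finset X), ∑ e ∈ Rᶜ, f R
        = ((N : ℝ) - k) * ∑ R ∈ powersetCard k (univ : Finset X), f R := by
      rw [Finset.mul_sum]
      refine Finset.sum_congr rfl (fun R hR => ?_)
      rw [Finset.sum_const, nsmul_eq_mul, Finset.card_compl, (Finset.mem_powersetCard.mp hR).2,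
        Nat.cast_sub (by omega)]
    rw [h2] at h1
    have h3 : ((N.choose (k + 1) : ℕ) : ℝ) * ((k : ℝ) + 1) = (N.choose k : ℝ) * ((N : ℝ) - k) := by
      have := Nat.choose_succ_right_eq N k
      have h4 : ((N - k : ℕ) : ℝ) = (N : ℝ) - k := Nat.cast_sub (by omega)
      rw [← h4]
      exact_mod_cast this
    have h5 := mul_le_mul_of_nonneg_left ih' hNk.le
    have hk1 : (0:ℝ) < (k : ℝ) + 1 := by positivity
    rw [← mul_le_mul_iff_right₀ hk1]
    rw [Finset.sum_range_succ]
    have h6 : ((k : ℝ) + 1) * (((N.choose (k + 1) : ℕ) : ℝ)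
        * (f ∅ + (∑ i ∈ range k, K / ((N : ℝ) - i) + K / ((N : ℝ) - k))))
        = ((N : ℝ) - k) * ((N.choose k : ℝ) * (f ∅ + ∑ i ∈ range k, K / ((N : ℝ) - i)))
          + (N.choose k : ℝ) * K := by
      have h7 : ((N : ℝ) - k) * (K / ((N : ℝ) - k)) = K := by field_simp
      calc _ = (((N.choose (k + 1) : ℕ) : ℝ) * ((k : ℝ) + 1))
        * (f ∅ + (∑ i ∈ range k, K / ((N : ℝ) - i) + K / ((N : ℝ) - k))) := by ring
        _ = ((N.choose k : ℝ) * ((N : ℝ) - k))
        * (f ∅ + (∑ i ∈ range k, K / ((N : ℝ) - i) + K / ((N : ℝ) - k))) := by rw [h3]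
        _ = ((N : ℝ) - k) * ((N.choose k : ℝ) * (f ∅ + ∑ i ∈ range k, K / ((N : ℝ) - i)))
          + (N.choose k : ℝ) * (((N : ℝ) - k) * (K / ((N : ℝ) - k))) := by ring
        _ = _ := by rw [h7]
    rw [h6]
    linarith

lemma avg_growth' (f : Finset X → ℝ) {K : ℝ} (hK : 0 ≤ K)
    (hstep : ∀ R : Finset X, ∑ e ∈ Rᶜ, (f (insert e R) - f R) ≤ K) (k : ℕ)
    (hk : k ≤ Fintype.card X) (hk2 : 2 * k ≤ Fintype.card X + 1) :
    ∑ R ∈ powersetCard k (univ : Finset X), f R
      ≤ ((Fintype.card X).choose k : ℝ) * (f ∅ + K) := by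
  refine (avg_growth f hstep k hk).trans ?_
  refine mul_le_mul_of_nonneg_left ?_ (Nat.cast_nonneg _)
  have h1 : ∑ i ∈ range k, K / ((Fintype.card X : ℝ) - i) ≤ K := by
    rcases Nat.eq_zero_or_pos k with h0 | h0
    · rw [h0]; simpa using hK
    have hpos : (0:ℝ) < (Fintype.card X : ℝ) - k + 1 := by
      have : (k : ℝ) ≤ Fintype.card X := by exact_mod_cast hk
      linarith
    calc ∑ i ∈ range k, K / ((Fintype.card X : ℝ) - i)
        ≤ ∑ _i ∈ range k, K / ((Fintype.card X : ℝ) - k + 1) := by
          refine Finset.sum_le_sum (fun i hi => ?_)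
          have hi' : (i : ℝ) + 1 ≤ k := by exact_mod_cast Finset.mem_range.mp hi
          exact div_le_div_of_nonneg_left hK hpos (by linarith)
      _ = k * (K / ((Fintype.card X : ℝ) - k + 1)) := by
          rw [Finset.sum_const, nsmul_eq_mul, Finset.card_range]
      _ ≤ K := by
          rw [← mul_div_assoc, div_le_iff₀ hpos]
          have : 2 * (k : ℝ) ≤ Fintype.card X + 1 := by exact_mod_cast hk2
          nlinarith
  linarith

/-- The half trick. -/
lemma half_trick (d f : Finset X → ℝ) {K c : ℝ} (hK : 0 ≤ K)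
    (hstep : ∀ R : Finset X, ∑ e ∈ Rᶜ, (f (insert e R) - f R) ≤ K)
    (hdf : ∀ R, d R ≤ f R - f ∅ + c) (hsub : ∀ R, d univ ≤ d R + d Rᶜ) :
    d univ ≤ 2 * (K + c) := by
  set N := Fintype.card X with hN
  set m := N / 2 with hm
  have hD : ∀ k, k ≤ N → 2 * k ≤ N + 1 →
      ∑ R ∈ powersetCard k (univ : Finset X), d R ≤ (N.choose k : ℝ) * (K + c) := by
    intro k hk hk2
    have h1 := avg_growth' f hK hstep k hk hk2
    have h2 : ∑ R ∈ powersetCard k (univ : Finset X), d R
        ≤ ∑ R ∈ powersetCard k (univ : Finset X), (f R + (c - f ∅)) :=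
      Finset.sum_le_sum (fun R _ => by have := hdf R; linarith)
    rw [Finset.sum_add_distrib, Finset.sum_const, nsmul_eq_mul, Finset.card_powersetCard,
      Finset.card_univ] at h2
    rw [← hN] at h1 h2
    nlinarith
  have h1 := hD m (by omega) (by omega)
  have h2 := hD (N - m) (by omega) (by omega)
  have h3 : ∑ R ∈ powersetCard m (univ : Finset X), d Rᶜ
      = ∑ R ∈ powersetCard (N - m) (univ : Finset X), d R := by
    refine Finset.sum_bij' (fun R _ => Rᶜ) (fun R _ => Rᶜ) ?_ ?_ ?_ ?_ ?_
    · intro R hR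
      rw [Finset.mem_powersetCard] at hR ⊢
      exact ⟨Finset.subset_univ _, by rw [Finset.card_compl, hR.2]⟩
    · intro R hR
      rw [Finset.mem_powersetCard] at hR ⊢
      refine ⟨Finset.subset_univ _, ?_⟩
      rw [Finset.card_compl, hR.2]
      omega
    · intro R _; simp
    · intro R _; simp
    · intro R _; rfl
  have h4 : ∑ R ∈ powersetCard m (univ : Finset X), d univ
      ≤ ∑ R ∈ powersetCard m (univ : Finset X), (d R + d Rᶜ) :=
    Finset.sum_le_sum (fun R _ => hsub R)
  rw [Finset.sum_add_distrib, h3, Finset.sum_const, nsmul_eq_mul, Finset.card_powersetCard,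
    Finset.card_univ, ← hN] at h4
  have h5 : N.choose (N - m) = N.choose m := Nat.choose_symm (by omega)
  rw [h5] at h2
  have h6 : (0:ℝ) < (N.choose m : ℝ) := by exact_mod_cast Nat.choose_pos (by omega)
  have h7 : (N.choose m : ℝ) * d univ ≤ (N.choose m : ℝ) * (2 * (K + c)) := by linarith
  exact le_of_mul_le_mul_left h7 h6

end Comb

section Growth

variable (G : Type*) [Group G] [Fintype G] {X : Type*} [Fintype X] [DecidableEq X]
  [MulAction G X]

theorem growth {H : Finset X} {l A B Φ : ℝ} (hmax : MaxHyp G H l) (hA : 1 ≤ A) (hB : 0 ≤ B)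
    (hΦ : 0 ≤ Φ) (hη : B * (log A + 1 / A) ≤ 1 / 10)
    (hpair : PairB G H l A B Φ) {r : Finset X × Finset X → ℝ} (hr : ∀ x, 0 ≤ r x)
    (h1 : ∑ x, r x = 1) (hs : ∀ x, r x ≠ 0 → x.2 ⊆ x.1 ∧ x.1 ⊆ H)
    {α : ℝ} (hα : 0 < α) (hα1 : α ≤ 1) :
    Hf r - Hf (mass r Prod.fst)
      ≤ 2 * ((∑ x, r x * (x.2.card : ℝ)) * log (1 / α)
          + α * (75 * (Φ + A * mi r + 2 * B * Dd G l (mass r Prod.fst)))) + (2 / 3) * mi r := by
  set hh : Finset X → ℝ := fun R => ent r (fun x => (x.2 ∩ R, x.1)) with hhh
  set gg : Finset X → ℝ := fun R => ent r (fun x => x.2 ∩ R) with hgg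
  set I : Finset X → ℝ := fun R => gg R + ent r Prod.fst - hh R with hI
  set W := 75 * (Φ + A * mi r + 2 * B * Dd G l (mass r Prod.fst)) with hW
  set j := ∑ x, r x * (x.2.card : ℝ) with hj
  have hj0 : 0 ≤ j := Finset.sum_nonneg (fun x _ => mul_nonneg (hr x) (Nat.cast_nonneg _))
  have hmi0 : 0 ≤ mi r := mi_nonneg hr h1
  have hD0 : 0 ≤ Dd G l (mass r Prod.fst) := by
    refine Dd_nonneg G hmax (mass_nonneg hr _) (by rw [sum_mass, h1]) ?_
    intro z hz
    by_contra hcon
    apply hz
    rw [mass_fst]
    refine Finset.sum_eq_zero (fun s _ => ?_)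
    by_contra h
    exact hcon (hs _ h).2
  have hlα : 0 ≤ log (1 / α) := Real.log_nonneg (by rw [le_div_iff₀ hα]; linarith)
  -- identification of mutual informations
  have hIR : ∀ R, mi (mass r (fun x => (x.2 ∩ R, x.1))) = I R := by
    intro R
    rw [mi_mass]
  have hfst0 : ent r Prod.fst = Hf (mass r Prod.fst) := rfl
  have hhu : hh univ = Hf r := by
    simp only [hhh]
    rw [Hf_eq_ent]
    refine ent_congr (fun a b => ?_)
    simp only [Finset.inter_univ, Prod.mk.injEq]
    constructor
    · intro h; exact Prod.ext h.2 h.1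
    · intro h; rw [h]; exact ⟨rfl, rfl⟩
  have hgu : gg univ = Hf (mass r Prod.snd) := by
    simp only [hgg, Finset.inter_univ]
    rfl
  have hIu : I univ = mi r := by
    simp only [hI]
    rw [hhu, hgu, hfst0]
    unfold mi
    ring
  have hImono : ∀ R, I R ≤ I univ := by
    intro R
    have h := cent_anti hr Prod.fst (fun x : Finset X × Finset X => x.2) (fun s => s ∩ R)
    unfold cent at h
    have a1 : ent r (fun ω : Finset X × Finset X => (ω.1, ω.2)) = hh univ := by
      simp only [hhh]
      refine ent_congr (fun a b => ?_)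
      simp only [Finset.inter_univ, Prod.mk.injEq]
      exact and_comm
    have a2 : ent r (fun ω : Finset X × Finset X => (ω.1, ω.2 ∩ R)) = hh R := by
      simp only [hhh]
      refine ent_congr (fun a b => ?_)
      simp only [Prod.mk.injEq]
      exact and_comm
    have a3 : ent r (fun x : Finset X × Finset X => x.2) = gg univ := by
      simp only [hgg, Finset.inter_univ]
    rw [a1, a2, a3] at h
    simp only [hI]
    have a4 : ent r (fun ω : Finset X × Finset X => ω.2 ∩ R) = gg R := rfl
    rw [a4] at h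
    linarith
  have hI0 : I ∅ = 0 := by
    have h2 : hh ∅ = ent r Prod.fst := by
      simp only [hhh]
      refine ent_congr (fun a b => ?_)
      simp
    have h3 : gg ∅ = 0 := by
      simp only [hgg, Finset.inter_empty]
      unfold ent mass
      rw [Finset.sum_eq_single (∅ : Finset X)]
      · simp [h1]
      · intro b _ hb
        simp [hb.symm]
      · intro h; exact absurd (Finset.mem_univ _) h
    simp only [hI]
    rw [h2, h3]; ring
  -- the step inequality
  have hK0 : 0 ≤ j * log (1 / α) + α * W := by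
    have : 0 ≤ W := by
      have a1 : 0 ≤ A * mi r := mul_nonneg (by linarith) hmi0
      have a2 : 0 ≤ 2 * B * Dd G l (mass r Prod.fst) := by positivity
      simp only [hW]
      linarith
    positivity
  have hstep : ∀ R : Finset X, ∑ e ∈ Rᶜ, ((hh (insert e R) - (1 / 3) * I (insert e R))
      - (hh R - (1 / 3) * I R)) ≤ j * log (1 / α) + α * W := by
    intro R
    have hw1 : ∑ s, ∑ e, mass (rst r Prod.fst e) (fun x => x.2 ∩ R) s
        * psi (mass (rst r Prod.fst e) (fun x => x.2 ∩ R) s / mass r (fun x => x.2 ∩ R) s) ≤ W := by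
      set u := mass r (fun x : Finset X × Finset X => (x.2 ∩ R, x.1)) with hu
      have hu0 : ∀ x, 0 ≤ u x := mass_nonneg hr _
      have hus : ∀ x, u x ≠ 0 → x.2 ⊆ H := by
        intro x hx
        by_contra hcon
        apply hx
        simp only [hu]
        unfold mass
        refine Finset.sum_eq_zero (fun y _ => ?_)
        by_cases hy : (y.2 ∩ R, y.1) = x
        · rw [if_pos hy]
          by_contra h
          apply hcon
          rw [← hy]
          exact (hs _ h).2
        · rw [if_neg hy]
      have h := wsum G hmax hA hB hΦ hη hpair hu0 (by rw [hu, sum_mass, h1]) hus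
      have b1 : mass u Prod.fst = mass r (fun x => x.2 ∩ R) := by
        funext s; rw [hu, mass_comp]
      have b2 : mass u Prod.snd = mass r Prod.fst := by
        funext s; rw [hu, mass_comp]
      have b3 : ∀ s e, pin u s e = mass (rst r Prod.fst e) (fun x => x.2 ∩ R) s := by
        intro s e
        rw [hu]
        exact pin_mass r (fun x => x.2 ∩ R) Prod.fst s e
      have b4 : mi u = I R := hIR R
      simp_rw [b3] at h
      rw [b1, b2, b4] at h
      refine h.trans ?_
      simp only [hW]
      have b5 := mul_le_mul_of_nonneg_left (hImono R) (show (0:ℝ) ≤ A by linarith)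
      rw [hIu] at b5
      linarith
    have hj1 : ∑ e ∈ Rᶜ, ∑ x, rst r Prod.snd e x ≤ j := by
      have c1 : ∑ e ∈ Rᶜ, ∑ x, rst r Prod.snd e x ≤ ∑ e, ∑ x, rst r Prod.snd e x :=
        Finset.sum_le_sum_of_subset_of_nonneg (Finset.subset_univ _)
          (fun e _ _ => Finset.sum_nonneg (fun x _ => rst_nonneg hr _ _ _))
      refine c1.trans (le_of_eq ?_)
      rw [Finset.sum_comm, hj]
      refine Finset.sum_congr rfl (fun x _ => ?_)
      unfold rst
      rw [← Finset.sum_filter, Finset.sum_const, nsmul_eq_mul, mul_comm]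
      congr 2
      rw [Finset.filter_mem_eq_inter, Finset.univ_inter]
    have hstep1 : ∀ e ∈ Rᶜ, (hh (insert e R) - (1 / 3) * I (insert e R)) - (hh R - (1 / 3) * I R)
        ≤ (∑ x, rst r Prod.snd e x) * log (1 / α)
          + α * ∑ s, mass (rst r Prod.fst e) (fun x => x.2 ∩ R) s
        * psi (mass (rst r Prod.fst e) (fun x => x.2 ∩ R) s / mass r (fun x => x.2 ∩ R) s) := by
      intro e he
      rw [Finset.mem_compl] at he
      have h := stepC hr (fun x : Finset X × Finset X => x.2 ∩ R) Prod.fst Prod.snd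
        (fun x hx => (hs x hx).1) e hα
      have d1 : cent r (fun x : Finset X × Finset X => decide (e ∈ x.2))
          (fun x => (x.2 ∩ R, x.1)) = hh (insert e R) - hh R := by
        unfold cent
        simp only [hhh]
        congr 1
        refine ent_congr (fun a b => ?_)
        simp only [Prod.mk.injEq]
        constructor
        · rintro ⟨p1, p2, p3⟩
          refine ⟨?_, p3⟩
          ext x
          have p2' := Finset.ext_iff.mp p2 x
          simp only [Finset.mem_inter, Finset.mem_insert] at p2' ⊢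
          have p1' : (e ∈ b.2) ↔ (e ∈ a.2) := by simpa using p1
          by_cases hx : x = e
          · subst hx
            simp only [true_or, and_true]
            exact p1'
          · simp only [hx, false_or]
            exact p2'
        · rintro ⟨p1, p2⟩
          have p1' := Finset.ext_iff.mp p1
          simp only [Finset.mem_inter, Finset.mem_insert] at p1'
          refine ⟨?_, ?_, p2⟩
          · have := p1' e
            simp only [true_or, and_true] at this
            simp [this]
          · ext x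
            have := p1' x
            simp only [Finset.mem_inter]
            constructor
            · rintro ⟨q1, q2⟩
              exact ⟨(this.mp ⟨q1, Or.inr q2⟩).1, q2⟩
            · rintro ⟨q1, q2⟩
              exact ⟨(this.mpr ⟨q1, Or.inr q2⟩).1, q2⟩
      have d2 : cent r (fun x : Finset X × Finset X => decide (e ∈ x.2))
          (fun x => x.2 ∩ R) = gg (insert e R) - gg R := by
        unfold cent
        simp only [hgg]
        congr 1
        refine ent_congr (fun a b => ?_)
        simp only [Prod.mk.injEq]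
        constructor
        · rintro ⟨p1, p2⟩
          ext x
          have p2' := Finset.ext_iff.mp p2 x
          simp only [Finset.mem_inter, Finset.mem_insert] at p2' ⊢
          have p1' : (e ∈ b.2) ↔ (e ∈ a.2) := by simpa using p1
          by_cases hx : x = e
          · subst hx
            simp only [true_or, and_true]
            exact p1'
          · simp only [hx, false_or]
            exact p2'
        · intro p1
          have p1' := Finset.ext_iff.mp p1
          simp only [Finset.mem_inter, Finset.mem_insert] at p1'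
          refine ⟨?_, ?_⟩
          · have := p1' e
            simp only [true_or, and_true] at this
            simp [this]
          · ext x
            have := p1' x
            simp only [Finset.mem_inter]
            constructor
            · rintro ⟨q1, q2⟩
              exact ⟨(this.mp ⟨q1, Or.inr q2⟩).1, q2⟩
            · rintro ⟨q1, q2⟩
              exact ⟨(this.mpr ⟨q1, Or.inr q2⟩).1, q2⟩
      rw [d1, d2] at h
      simp only [hI]
      linarith
    refine (Finset.sum_le_sum hstep1).trans ?_
    rw [Finset.sum_add_distrib, ← Finset.sum_mul, ← Finset.mul_sum]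
    refine add_le_add (mul_le_mul_of_nonneg_right hj1 hlα)
      (mul_le_mul_of_nonneg_left ?_ hα.le)
    refine le_trans ?_ hw1
    rw [Finset.sum_comm (s := univ) (t := univ)]
    refine Finset.sum_le_sum_of_subset_of_nonneg (Finset.subset_univ _) (fun e _ _ => ?_)
    exact Finset.sum_nonneg (fun s _ => mul_nonneg (mass_nonneg (rst_nonneg hr _ _) _ _)
      (psi_pos _).le)
  have hfin := half_trick (fun R => hh R - ent r Prod.fst) (fun R => hh R - (1 / 3) * I R)
    (c := (1 / 3) * mi r) hK0 hstep ?_ ?_
  · rw [hhu, hfst0] at hfin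
    linarith
  · intro R
    have h2 : hh ∅ = ent r Prod.fst := by
      simp only [hhh]
      refine ent_congr (fun a b => ?_)
      simp
    have h3 := hImono R
    rw [hIu] at h3
    rw [hI0, h2]
    linarith
  · intro R
    have h := ent_submod hr (fun x : Finset X × Finset X => x.2 ∩ R) (fun x => x.2 ∩ Rᶜ) Prod.fst
    have h2 : ent r (fun x : Finset X × Finset X => (x.2 ∩ R, x.2 ∩ Rᶜ, x.1)) = hh univ := by
      simp only [hhh]
      refine ent_congr (fun a b => ?_)
      simp only [Finset.inter_univ, Prod.mk.injEq]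
      constructor
      · rintro ⟨p1, p2, p3⟩
        refine ⟨?_, p3⟩
        ext x
        have q1 := Finset.ext_iff.mp p1 x
        have q2 := Finset.ext_iff.mp p2 x
        simp only [Finset.mem_inter, Finset.mem_compl] at q1 q2
        by_cases hx : x ∈ R
        · simpa [hx] using q1
        · simpa [hx] using q2
      · rintro ⟨p1, p2⟩
        rw [p1, p2]
        exact ⟨rfl, rfl, rfl⟩
    rw [h2] at h
    show hh univ - ent r Prod.fst ≤ (hh R - ent r Prod.fst) + (hh Rᶜ - ent r Prod.fst)
    have h3 : ent r (fun x : Finset X × Finset X => (x.2 ∩ R, x.1)) = hh R := rfl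
    have h4 : ent r (fun x : Finset X × Finset X => (x.2 ∩ Rᶜ, x.1)) = hh Rᶜ := rfl
    rw [h3, h4] at h
    linarith

end Growth

end Vale.Agent.P064
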