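import Vale.Agent.P064.Ent

namespace Vale.Agent.P064

open Finset Real
open scoped Pointwise

set_option linter.unusedSectionVars false

section Avg

variable (G : Type*) [Group G] [Fintype G] {Z Z' : Type*} [Fintype Z] [DecidableEq Z]
  [MulAction G Z] [Fintype Z'] [DecidableEq Z'] [MulAction G Z']

/-- average of a weight over the group -/
noncomputable def avg (p : Z → ℝ) (z : Z) : ℝ := (∑ g : G, p (g • z)) / (Fintype.card G : ℝ)

/-- Shannon entropy of a weight -/
noncomputable def Hf {Z : Type*} [Fintype Z] (p : Z → ℝ) : ℝ := ∑ z, negMulLog (p z)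

lemma cardG_pos : (0 : ℝ) < (Fintype.card G : ℝ) := by
  exact_mod_cast Fintype.card_pos

lemma avg_smul (p : Z → ℝ) (h : G) (z : Z) : avg G p (h • z) = avg G p z := by
  unfold avg
  congr 1
  rw [← Equiv.sum_comp (Equiv.mulRight h) (fun g => p (g • z))]
  refine Finset.sum_congr rfl (fun g _ => ?_)
  simp [mul_smul]

lemma avg_nonneg {p : Z → ℝ} (hp : ∀ z, 0 ≤ p z) (z : Z) : 0 ≤ avg G p z :=
  div_nonneg (Finset.sum_nonneg (fun _ _ => hp _)) (cardG_pos G).le

lemma sum_avg_mul (p F : Z → ℝ) : ∑ z, avg G p z * F z = ∑ z, p z * avg G F z := by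
  unfold avg
  have e1 : ∀ z, (∑ g : G, p (g • z)) / (Fintype.card G : ℝ) * F z
      = ∑ g : G, (p (g • z) * F z) / (Fintype.card G : ℝ) := by
    intro z
    rw [Finset.sum_div, Finset.sum_mul]
    exact Finset.sum_congr rfl (fun g _ => by ring)
  have e2 : ∀ z, p z * ((∑ g : G, F (g • z)) / (Fintype.card G : ℝ))
      = ∑ g : G, (p z * F (g • z)) / (Fintype.card G : ℝ) := by
    intro z
    rw [Finset.sum_div, Finset.mul_sum]
    exact Finset.sum_congr rfl (fun g _ => by ring)
  simp_rw [e1, e2]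
  rw [Finset.sum_comm, Finset.sum_comm (f := fun z g => p z * F (g • z) / (Fintype.card G : ℝ)),
    ← Equiv.sum_comp (Equiv.inv G) (fun g => ∑ z, p z * F (g • z) / (Fintype.card G : ℝ))]
  refine Finset.sum_congr rfl (fun g _ => ?_)
  rw [← Equiv.sum_comp (MulAction.toPerm g)
    (fun z => p z * F ((Equiv.inv G) g • z) / (Fintype.card G : ℝ))]
  refine Finset.sum_congr rfl (fun z _ => ?_)
  simp

lemma avg_of_inv {F : Z → ℝ} (hF : ∀ (g : G) z, F (g • z) = F z) (z : Z) : avg G F z = F z := by
  unfold avg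
  simp only [hF, Finset.sum_const, Finset.card_univ, nsmul_eq_mul]
  rw [mul_div_cancel_left₀ _ (cardG_pos G).ne']

lemma sum_avg_mul_inv (p : Z → ℝ) {F : Z → ℝ} (hF : ∀ (g : G) z, F (g • z) = F z) :
    ∑ z, avg G p z * F z = ∑ z, p z * F z := by
  rw [sum_avg_mul]
  exact Finset.sum_congr rfl (fun z _ => by rw [avg_of_inv G hF])

lemma sum_avg (p : Z → ℝ) : ∑ z, avg G p z = ∑ z, p z := by
  have := sum_avg_mul_inv G p (F := fun _ => 1) (fun _ _ => rfl)
  simpa using this

lemma mass_avg (p : Z → ℝ) (f : Z → Z') (hf : ∀ (g : G) z, f (g • z) = g • f z) (b : Z') :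
    mass (avg G p) f b = avg G (mass p f) b := by
  have h1 : mass (avg G p) f b = ∑ z, avg G p z * (if f z = b then (1 : ℝ) else 0) := by
    unfold mass
    exact Finset.sum_congr rfl (fun z _ => by split_ifs <;> simp)
  rw [h1, sum_avg_mul]
  unfold avg mass
  rw [Finset.sum_div]
  have e2 : ∀ z, p z * ((∑ g : G, if f (g • z) = b then (1 : ℝ) else 0) / (Fintype.card G : ℝ))
      = ∑ g : G, (if f (g • z) = b then p z else 0) / (Fintype.card G : ℝ) := by
    intro z
    rw [Finset.sum_div, Finset.mul_sum]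
    exact Finset.sum_congr rfl (fun g _ => by split_ifs <;> simp [div_eq_mul_inv])
  simp_rw [e2]
  rw [Finset.sum_comm, ← Equiv.sum_comp (Equiv.inv G)]
  refine Finset.sum_congr rfl (fun g _ => ?_)
  rw [Finset.sum_div]
  refine Finset.sum_congr rfl (fun z _ => ?_)
  have : f ((Equiv.inv G) g • z) = b ↔ f z = g • b := by
    rw [hf]
    simp only [Equiv.inv_apply]
    exact inv_smul_eq_iff
  simp only [this]

lemma mass_avg_fun (p : Z → ℝ) (f : Z → Z') (hf : ∀ (g : G) z, f (g • z) = g • f z) :
    mass (avg G p) f = avg G (mass p f) := funext (mass_avg G p f hf)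

lemma avg_ne_zero {p : Z → ℝ} (hp : ∀ z, 0 ≤ p z) {z : Z} (h : p z ≠ 0) : avg G p z ≠ 0 := by
  have h0 : 0 < p z := lt_of_le_of_ne (hp z) (Ne.symm h)
  have : 0 < avg G p z := by
    unfold avg
    refine div_pos ?_ (cardG_pos G)
    refine lt_of_lt_of_le h0 ?_
    have := Finset.single_le_sum (s := univ) (f := fun g : G => p (g • z)) (fun g _ => hp _)
      (Finset.mem_univ (1 : G))
    simpa using this
  exact this.ne'

lemma exists_of_avg_ne_zero {p : Z → ℝ} {z : Z} (h : avg G p z ≠ 0) : ∃ g : G, p (g • z) ≠ 0 := by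
  by_contra hcon
  push Not at hcon
  apply h
  unfold avg
  simp [hcon]

lemma Hf_eq_ent (p : Z → ℝ) : Hf p = ent p (fun z => z) := by
  unfold Hf ent
  refine Finset.sum_congr rfl (fun z _ => ?_)
  congr 1
  unfold mass
  simp

lemma ent_eq_Hf {Ω : Type*} [Fintype Ω] (w : Ω → ℝ) (X : Ω → Z) : ent w X = Hf (mass w X) := rfl

lemma Hf_avg (p : Z → ℝ) : Hf (avg G p) = -∑ z, p z * log (avg G p z) := by
  have := sum_avg_mul_inv G p (F := fun z => log (avg G p z)) (fun g z => by rw [avg_smul])
  rw [← this, ← Finset.sum_neg_distrib]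
  unfold Hf negMulLog
  exact Finset.sum_congr rfl (fun z _ => by ring)

/-- orbit counting: an invariant weight of total mass one is small on big orbits -/
lemma avg_mul_card_le {p : Z → ℝ} (hp : ∀ z, 0 ≤ p z) (h1 : ∑ z, p z = 1) (z : Z) :
    avg G p z * ((univ.image (fun g : G => g • z)).card : ℝ) ≤ 1 := by
  have h2 : ∑ z' ∈ univ.image (fun g : G => g • z), avg G p z' ≤ ∑ z', avg G p z' :=
    Finset.sum_le_sum_of_subset_of_nonneg (Finset.subset_univ _)
      (fun z' _ _ => avg_nonneg G hp z')
  rw [sum_avg, h1] at h2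
  have h3 : ∑ z' ∈ univ.image (fun g : G => g • z), avg G p z'
      = ∑ z' ∈ univ.image (fun g : G => g • z), avg G p z := by
    refine Finset.sum_congr rfl (fun z' hz' => ?_)
    obtain ⟨g, _, rfl⟩ := Finset.mem_image.mp hz'
    rw [avg_smul]
  rw [h3, Finset.sum_const, nsmul_eq_mul] at h2
  linarith

end Avg

section Marg

variable {𝒜 𝒥 : Type*} [Fintype 𝒜] [DecidableEq 𝒜] [Fintype 𝒥] [DecidableEq 𝒥]

lemma mass_fst (m : 𝒜 × 𝒥 → ℝ) (a : 𝒜) : mass m Prod.fst a = ∑ j, m (a, j) := by
  unfold mass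
  rw [Fintype.sum_prod_type_right]
  simp

lemma mass_snd (m : 𝒜 × 𝒥 → ℝ) (j : 𝒥) : mass m Prod.snd j = ∑ a, m (a, j) := by
  unfold mass
  rw [Fintype.sum_prod_type]
  simp

end Marg

section Resample

variable (G : Type*) [Group G] [Fintype G] {𝒜 𝒥 : Type*} [Fintype 𝒜] [DecidableEq 𝒜]
  [MulAction G 𝒜] [Fintype 𝒥] [DecidableEq 𝒥] [MulAction G 𝒥]

/-- Resampling: for a weight `P` on pairs there is a weight `r` with the same first marginal,
the same group average, and the conditional entropy of the averaged weight. -/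
theorem resample (P : 𝒜 × 𝒥 → ℝ) (hP : ∀ x, 0 ≤ P x) :
    ∃ r : 𝒜 × 𝒥 → ℝ, (∀ x, 0 ≤ r x) ∧ mass r Prod.fst = mass P Prod.fst ∧ avg G r = avg G P ∧
      Hf r - Hf (mass P Prod.fst) = Hf (avg G P) - Hf (avg G (mass P Prod.fst)) ∧
      (∀ x, r x ≠ 0 → mass P Prod.fst x.1 ≠ 0 ∧ ∃ g : G, P (g • x) ≠ 0) := by
  classical
  set m := avg G P with hm
  set pA := mass P Prod.fst with hpA
  have hpA0 : ∀ a, 0 ≤ pA a := mass_nonneg hP _
  have hm0 : ∀ x, 0 ≤ m x := avg_nonneg G hP
  have hm1 : mass m Prod.fst = avg G pA := mass_avg_fun G P Prod.fst (fun g z => rfl)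
  set m1 := avg G pA with hm1'
  have hm10 : ∀ a, 0 ≤ m1 a := avg_nonneg G hpA0
  have hms : ∀ a, ∑ j, m (a, j) = m1 a := by
    intro a
    rw [← hm1, mass_fst]
  have hmle : ∀ a j, m (a, j) ≤ m1 a := by
    intro a j
    rw [← hms a]
    exact Finset.single_le_sum (f := fun j => m (a, j)) (fun j _ => hm0 _) (Finset.mem_univ j)
  refine ⟨fun x => pA x.1 * (m x / m1 x.1), ?_, ?_, ?_, ?_, ?_⟩
  · intro x
    exact mul_nonneg (hpA0 _) (div_nonneg (hm0 _) (hm10 _))
  · funext a
    rw [mass_fst]
    simp only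
    rw [← Finset.mul_sum, ← Finset.sum_div, hms]
    by_cases h0 : m1 a = 0
    · have : pA a = 0 := by
        by_contra hcon
        exact avg_ne_zero G hpA0 hcon h0
      rw [this]; simp
    · rw [div_self h0, mul_one]
  · funext x
    show avg G (fun x : 𝒜 × 𝒥 => pA x.1 * (m x / m1 x.1)) x = m x
    have hx : avg G (fun x : 𝒜 × 𝒥 => pA x.1 * (m x / m1 x.1)) x
        = m1 x.1 * (m x / m1 x.1) := by
      have e : ∀ g : G, pA (g • x).1 * (m (g • x) / m1 (g • x).1)
          = pA (g • x.1) * (m x / m1 x.1) := by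
        intro g
        rw [hm, avg_smul, hm1', Prod.smul_fst, avg_smul]
      rw [hm1']
      show (∑ g : G, pA (g • x).1 * (m (g • x) / m1 (g • x).1)) / (Fintype.card G : ℝ) = _
      rw [Finset.sum_congr rfl (fun g _ => e g), ← Finset.sum_mul]
      show _ = (∑ g : G, pA (g • x.1)) / (Fintype.card G : ℝ) * _
      ring
    rw [hx]
    by_cases h0 : m1 x.1 = 0
    · have : m x = 0 := le_antisymm (by
        have := hmle x.1 x.2
        simpa [h0] using this) (hm0 x)
      rw [this, h0]; simp
    · rw [mul_div_cancel₀ _ h0]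
  · -- entropy
    have hr : avg G (fun x : 𝒜 × 𝒥 => pA x.1 * (m x / m1 x.1)) = m := by
      funext x
      have e : ∀ g : G, pA (g • x).1 * (m (g • x) / m1 (g • x).1)
          = pA (g • x.1) * (m x / m1 x.1) := by
        intro g
        rw [hm, avg_smul, hm1', Prod.smul_fst, avg_smul]
      show (∑ g : G, pA (g • x).1 * (m (g • x) / m1 (g • x).1)) / (Fintype.card G : ℝ) = _
      rw [Finset.sum_congr rfl (fun g _ => e g), ← Finset.sum_mul]
      have : (∑ g : G, pA (g • x.1)) * (m x / m1 x.1) / (Fintype.card G : ℝ)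
          = m1 x.1 * (m x / m1 x.1) := by
        rw [hm1']; unfold avg; ring
      rw [this]
      by_cases h0 : m1 x.1 = 0
      · have : m x = 0 := le_antisymm (by
          have := hmle x.1 x.2
          simpa [h0] using this) (hm0 x)
        rw [this, h0]; simp
      · rw [mul_div_cancel₀ _ h0]
    set r : 𝒜 × 𝒥 → ℝ := fun x => pA x.1 * (m x / m1 x.1) with hrdef
    -- first marginal
    have hrm : ∀ F : 𝒜 → ℝ, ∑ x, r x * F x.1 = ∑ a, pA a * F a := by
      intro F
      rw [Fintype.sum_prod_type]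
      refine Finset.sum_congr rfl (fun a _ => ?_)
      simp only [hrdef]
      rw [← Finset.sum_mul, ← Finset.mul_sum, ← Finset.sum_div, hms]
      by_cases h0 : m1 a = 0
      · have : pA a = 0 := by
          by_contra hcon
          exact avg_ne_zero G hpA0 hcon h0
        rw [this]; simp
      · rw [div_self h0, mul_one]
    have h1 : Hf r = Hf pA - ∑ x, r x * log (m x / m1 x.1) := by
      have e1 : Hf r = -(∑ x, r x * log (pA x.1)) - ∑ x, r x * log (m x / m1 x.1) := by
        unfold Hf negMulLog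
        rw [← Finset.sum_neg_distrib, ← Finset.sum_sub_distrib]
        refine Finset.sum_congr rfl (fun x _ => ?_)
        by_cases h0 : r x = 0
        · rw [h0]; simp
        · have ha : pA x.1 ≠ 0 := fun h => h0 (by simp [hrdef, h])
          have hb : m x / m1 x.1 ≠ 0 := fun h => h0 (by simp only [hrdef]; rw [h]; simp)
          have : log (r x) = log (pA x.1) + log (m x / m1 x.1) := by
            simp only [hrdef]
            exact Real.log_mul ha hb
          rw [this]; ring
      rw [e1, hrm (fun a => log (pA a))]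
      have : -(∑ a, pA a * log (pA a)) = Hf pA := by
        unfold Hf negMulLog
        rw [← Finset.sum_neg_distrib]
        exact Finset.sum_congr rfl (fun a _ => by ring)
      rw [this]
    have h2 : ∑ x, r x * log (m x / m1 x.1) = ∑ x, m x * log (m x / m1 x.1) := by
      have := sum_avg_mul_inv G r (F := fun x => log (m x / m1 x.1)) (fun g x => by
        rw [hm, avg_smul, hm1', Prod.smul_fst, avg_smul])
      rw [hr] at this
      exact this.symm
    have h3 : ∑ x, m x * log (m x / m1 x.1) = -Hf m + Hf m1 := by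
      have e1 : ∑ x, m x * log (m x / m1 x.1)
          = ∑ x, m x * log (m x) - ∑ x, m x * log (m1 x.1) := by
        rw [← Finset.sum_sub_distrib]
        refine Finset.sum_congr rfl (fun x _ => ?_)
        by_cases h0 : m x = 0
        · rw [h0]; simp
        · have hb : m1 x.1 ≠ 0 := by
            intro h
            apply h0
            refine le_antisymm ?_ (hm0 x)
            have := hmle x.1 x.2
            simpa [h] using this
          rw [Real.log_div h0 hb]; ring
      have e2 : ∑ x, m x * log (m1 x.1) = ∑ a, m1 a * log (m1 a) := by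
        rw [Fintype.sum_prod_type]
        refine Finset.sum_congr rfl (fun a _ => ?_)
        simp only
        rw [← Finset.sum_mul, hms]
      have e3 : ∑ x, m x * log (m x) = - Hf m := by
        unfold Hf negMulLog
        rw [← Finset.sum_neg_distrib]
        exact Finset.sum_congr rfl (fun a _ => by ring)
      have e4 : ∑ a, m1 a * log (m1 a) = - Hf m1 := by
        unfold Hf negMulLog
        rw [← Finset.sum_neg_distrib]
        exact Finset.sum_congr rfl (fun a _ => by ring)
      rw [e1, e2, e3, e4]; ring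
    rw [h1, h2, h3]
    ring
  · intro x hx
    have ha : pA x.1 ≠ 0 := fun h => hx (by simp [h])
    have hb : m x ≠ 0 := fun h => hx (by simp [h])
    exact ⟨ha, exists_of_avg_ne_zero G hb⟩

end Resample

end Vale.Agent.P064
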