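import Mathlib

/-!
Interface statements for P064.
-/

namespace Vale.Agent.P064

open Finset

/-- Statement of Part A (symmetric fractional/integral comparison). -/
def PartA : Prop :=
  ∃ L : ℝ, 0 < L ∧ ∀ (G X : Type) [Group G] [Fintype G] [Fintype X] [DecidableEq X]
    [MulAction G X] (H : Finset X) (q : ℝ), 0 < q → q ≤ 1 →
    (∀ K : Finset X, K ⊆ H → K.Nonempty →
      (1 : ℝ) / 2 ≤ ((univ.image (fun g : G => K.image (fun x => g • x))).card : ℝ) * q ^ K.card) →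
    ∀ F : Finset X, F ⊆ H →
      ((univ.filter (fun g : G => F.image (fun x => g • x) ⊆ H)).card : ℝ)
        ≤ (L * q) ^ F.card * (Fintype.card G : ℝ)

/-- Statement of Part B (spread lemma with explicit constants). -/
def PartB : Prop :=
  ∀ (E ι : Type) [Fintype E] [DecidableEq E] [Fintype ι] [Nonempty ι]
    (A : ι → Finset E) (κ : ℝ) (r : ℕ) (p : ℝ), 0 < κ →
    (∀ i, (A i).card < 2 ^ r) →
    (∀ S : Finset E, ((univ.filter (fun i : ι => S ⊆ A i)).card : ℝ)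
        ≤ κ ^ S.card * (Fintype.card ι : ℝ)) →
    (r : ℝ) * (64 * κ) ≤ p → p ≤ 1 →
    (1 : ℝ) / 2 ≤ ∑ W : Finset E,
      if (∃ i, A i ⊆ W) then p ^ W.card * (1 - p) ^ (Fintype.card E - W.card) else 0

/-- number of subgraphs of `G` isomorphic to `F` -/
noncomputable def copies {V W : Type} (G : SimpleGraph V) (F : SimpleGraph W) : ℕ :=
  Nat.card {S : G.Subgraph // Nonempty (S.coe ≃g F)}

open Classical in
/-- expectation of `f (G(n,p))` -/
noncomputable def gnpE (n : ℕ) (p : ℝ) (f : SimpleGraph (Fin n) → ℝ) : ℝ :=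
  ∑ G : SimpleGraph (Fin n),
    p ^ G.edgeFinset.card * (1 - p) ^ (n.choose 2 - G.edgeFinset.card) * f G

open Classical in
/-- `p_c(n,H)` -/
noncomputable def pc (n : ℕ) {V : Type} (H : SimpleGraph V) : ℝ :=
  sInf {p : ℝ | 0 ≤ p ∧ p ≤ 1 ∧ 1 / 2 ≤ gnpE n p (fun G => if 0 < copies G H then 1 else 0)}

/-- `p_E(n,H)` -/
noncomputable def pE (n : ℕ) {V : Type} (H : SimpleGraph V) : ℝ :=
  sInf {p : ℝ | 0 ≤ p ∧ p ≤ 1 ∧ ∀ F : H.Subgraph, 1 / 2 ≤ gnpE n p (fun G => (copies G F.coe : ℝ))}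

/-- Q1 -/
def FinalStatement : Prop :=
  ∃ C : ℝ, 0 < C ∧ ∀ n : ℕ, 2 ≤ n → ∀ (V : Type) [Fintype V] (H : SimpleGraph V),
    H ≠ ⊥ → Fintype.card V ≤ n → pc n H ≤ C * pE n H * Real.log n

end Vale.Agent.P064
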