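import Vale.Agent.P064.Node

namespace Vale.Agent.P064

open Finset Real
open scoped Pointwise

set_option linter.unusedSectionVars false

section CI

variable {σ α : Type*} [Fintype σ] [DecidableEq σ] [Fintype α] [DecidableEq α]

/-- conditionally independent doubling of the second coordinate given the first one -/
noncomputable def dbl (u : σ × α → ℝ) (x : σ × α × α) : ℝ :=
  u (x.1, x.2.1) * u (x.1, x.2.2) / mass u Prod.fst x.1

lemma dbl_nonneg {u : σ × α → ℝ} (hu : ∀ x, 0 ≤ u x) (x : σ × α × α) : 0 ≤ dbl u x :=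
  div_nonneg (mul_nonneg (hu _) (hu _)) (mass_nonneg hu _ _)

lemma u_le_mass {u : σ × α → ℝ} (hu : ∀ x, 0 ≤ u x) (s : σ) (a : α) :
    u (s, a) ≤ mass u Prod.fst s := le_mass hu Prod.fst (s, a)

lemma u_zero_of_mass {u : σ × α → ℝ} (hu : ∀ x, 0 ≤ u x) {s : σ} (h : mass u Prod.fst s = 0)
    (a : α) : u (s, a) = 0 := le_antisymm (h ▸ u_le_mass hu s a) (hu _)

lemma sum_dbl_left {u : σ × α → ℝ} (hu : ∀ x, 0 ≤ u x) (F : σ × α → ℝ) :
    ∑ x : σ × α × α, dbl u x * F (x.1, x.2.1) = ∑ y, u y * F y := by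
  rw [Fintype.sum_prod_type, Fintype.sum_prod_type]
  refine Finset.sum_congr rfl (fun s _ => ?_)
  rw [Fintype.sum_prod_type]
  refine Finset.sum_congr rfl (fun a _ => ?_)
  unfold dbl
  simp only
  rw [← Finset.sum_mul, ← Finset.sum_div, ← Finset.mul_sum, ← mass_fst]
  by_cases h : mass u Prod.fst s = 0
  · rw [u_zero_of_mass hu h a]; simp
  · rw [mul_div_cancel_right₀ _ h]

lemma dbl_swap (u : σ × α → ℝ) (s : σ) (a b : α) : dbl u (s, a, b) = dbl u (s, b, a) := by
  unfold dbl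
  simp only
  rw [mul_comm]

lemma sum_dbl_swap (u : σ × α → ℝ) (F : σ × α × α → ℝ) :
    ∑ x : σ × α × α, dbl u x * F x = ∑ x : σ × α × α, dbl u x * F (x.1, x.2.2, x.2.1) := by
  rw [Fintype.sum_prod_type, Fintype.sum_prod_type]
  refine Finset.sum_congr rfl (fun s _ => ?_)
  rw [← Equiv.sum_comp (Equiv.prodComm α α)]
  refine Finset.sum_congr rfl (fun y _ => ?_)
  obtain ⟨a, b⟩ := y
  show dbl u (s, b, a) * F (s, b, a) = dbl u (s, a, b) * F (s, b, a)
  rw [dbl_swap]

lemma sum_dbl_right {u : σ × α → ℝ} (hu : ∀ x, 0 ≤ u x) (F : σ × α → ℝ) :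
    ∑ x : σ × α × α, dbl u x * F (x.1, x.2.2) = ∑ y, u y * F y := by
  rw [← sum_dbl_left hu F, sum_dbl_swap u (fun x => F (x.1, x.2.1))]

lemma sum_dbl {u : σ × α → ℝ} (hu : ∀ x, 0 ≤ u x) : ∑ x, dbl u x = ∑ y, u y := by
  have := sum_dbl_left hu (fun _ => 1)
  simpa using this

lemma mass_dbl_left {u : σ × α → ℝ} (hu : ∀ x, 0 ≤ u x) {β : Type*} [DecidableEq β]
    (f : σ × α → β) (b : β) :
    mass (dbl u) (fun x => f (x.1, x.2.1)) b = mass u f b := by
  have := sum_dbl_left hu (fun y => if f y = b then 1 else 0)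
  unfold mass
  simpa using this

lemma mass_dbl_right {u : σ × α → ℝ} (hu : ∀ x, 0 ≤ u x) {β : Type*} [DecidableEq β]
    (f : σ × α → β) (b : β) :
    mass (dbl u) (fun x => f (x.1, x.2.2)) b = mass u f b := by
  have := sum_dbl_right hu (fun y => if f y = b then 1 else 0)
  unfold mass
  simpa using this

lemma Hf_dbl {u : σ × α → ℝ} (hu : ∀ x, 0 ≤ u x) :
    Hf (dbl u) = 2 * Hf u - Hf (mass u Prod.fst) := by
  have e1 : Hf (dbl u) = -(∑ x : σ × α × α, dbl u x * log (u (x.1, x.2.1)))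
      - (∑ x : σ × α × α, dbl u x * log (u (x.1, x.2.2)))
      + ∑ x : σ × α × α, dbl u x * log (mass u Prod.fst x.1) := by
    unfold Hf negMulLog
    rw [← Finset.sum_neg_distrib, ← Finset.sum_sub_distrib, ← Finset.sum_add_distrib]
    refine Finset.sum_congr rfl (fun x _ => ?_)
    by_cases h0 : dbl u x = 0
    · rw [h0]; simp
    · have ha : u (x.1, x.2.1) ≠ 0 := fun h => h0 (by simp [dbl, h])
      have hb : u (x.1, x.2.2) ≠ 0 := fun h => h0 (by simp [dbl, h])
      have hc : mass u Prod.fst x.1 ≠ 0 := fun h => h0 (by simp [dbl, h])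
      have : log (dbl u x) = log (u (x.1, x.2.1)) + log (u (x.1, x.2.2))
          - log (mass u Prod.fst x.1) := by
        unfold dbl
        rw [Real.log_div (mul_ne_zero ha hb) hc, Real.log_mul ha hb]
      rw [this]; ring
  rw [e1, sum_dbl_left hu (fun y => log (u y)), sum_dbl_right hu (fun y => log (u y)),
    sum_dbl_left hu (fun y => log (mass u Prod.fst y.1)),
    ← sum_mass_mul u Prod.fst (fun s => log (mass u Prod.fst s))]
  unfold Hf negMulLog
  simp only [neg_mul, Finset.sum_neg_distrib]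
  ring

end CI

section Res

variable (G : Type*) [Group G] [Fintype G] {X : Type*} [Fintype X] [DecidableEq X]
  [MulAction G X]

theorem resampleJ {H : Finset X} {l : ℝ} (hmax : MaxHyp G H l)
    (P : Finset X × Finset X → ℝ) (hP : ∀ x, 0 ≤ P x) (h1 : ∑ x, P x = 1)
    (hs : ∀ x, P x ≠ 0 → x.2 ⊆ x.1 ∧ x.1 ⊆ H) :
    ∃ r : Finset X × Finset X → ℝ, (∀ x, 0 ≤ r x) ∧ ∑ x, r x = 1 ∧
      mass r Prod.fst = mass P Prod.fst ∧ (∀ x, r x ≠ 0 → x.2 ⊆ x.1 ∧ x.1 ⊆ H) ∧
      Hf r - Hf (mass r Prod.fst) = Hf (avg G P) - Hf (avg G (mass P Prod.fst)) ∧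
      ∑ x, r x * (x.2.card : ℝ) = ∑ x, P x * (x.2.card : ℝ) ∧
      Hf (mass r Prod.snd) ≤ Hf (avg G (mass P Prod.snd)) - l * ∑ x, P x * (x.2.card : ℝ) := by
  classical
  obtain ⟨r, hr0, hr1, hr2, hr3, hr4⟩ := resample G P hP
  have hsum : ∑ x, r x = 1 := by
    rw [← sum_mass r Prod.fst, hr1, sum_mass, h1]
  have hsupp : ∀ x, r x ≠ 0 → x.2 ⊆ x.1 ∧ x.1 ⊆ H := by
    intro x hx
    obtain ⟨ha, g, hg⟩ := hr4 x hx
    constructor
    · have := (hs _ hg).1
      exact (Finset.smul_finset_subset_smul_finset_iff (a := g)).mp this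
    · -- x.1 in the support of the first marginal of P
      by_contra hcon
      apply ha
      unfold mass
      refine Finset.sum_eq_zero (fun y _ => ?_)
      by_cases hy : y.1 = x.1
      · rw [if_pos hy]
        by_contra h
        exact hcon (hy ▸ (hs y h).2)
      · rw [if_neg hy]
  have hcard : ∑ x, r x * (x.2.card : ℝ) = ∑ x, P x * (x.2.card : ℝ) := by
    have hinv : ∀ (g : G) (x : Finset X × Finset X), (((g • x).2.card : ℕ) : ℝ) = (x.2.card : ℝ) := by
      intro g x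
      rw [Prod.smul_snd, Finset.card_smul_finset]
    rw [← sum_avg_mul_inv G r hinv, ← sum_avg_mul_inv G P hinv, hr2]
  refine ⟨r, hr0, hsum, hr1, hsupp, ?_, hcard, ?_⟩
  · rw [hr1]; exact hr3
  · have h := Dd_nonneg G hmax (p := mass r Prod.snd) (mass_nonneg hr0 _)
      (by rw [sum_mass, hsum]) (by
        intro z hz
        by_contra hcon
        apply hz
        unfold mass
        refine Finset.sum_eq_zero (fun y _ => ?_)
        by_cases hy : y.2 = z
        · rw [if_pos hy]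
          by_contra h
          have := hsupp y h
          exact hcon (hy ▸ (this.1.trans this.2))
        · rw [if_neg hy])
    unfold Dd at h
    have e1 : avg G (mass r Prod.snd) = avg G (mass P Prod.snd) := by
      rw [← mass_avg_fun G r Prod.snd (fun g z => rfl), hr2,
        mass_avg_fun G P Prod.snd (fun g z => rfl)]
    rw [e1, sum_mass_mul r Prod.snd (fun z => (z.card : ℝ)), hcard] at h
    linarith

/-- the pair bound -/
def PairB (H : Finset X) (l A B Φ : ℝ) : Prop :=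
  ∀ P : Finset X × Finset X → ℝ, (∀ x, 0 ≤ P x) → ∑ x, P x = 1 →
    (∀ x, P x ≠ 0 → x.1 ⊆ H ∧ x.2 ⊆ H) →
    ∑ x, P x * ((iP x).card : ℝ) ≤ Φ + A * mi P
      + B * (Dd G l (mass P Prod.fst) + Dd G l (mass P Prod.snd))

lemma sum_pow_powerset (c : Finset X) (r : ℝ) :
    ∑ j ∈ c.powerset, r ^ j.card = (1 + r) ^ c.card := by
  have := Finset.sum_pow_mul_eq_add_pow r 1 c
  simp only [one_pow, mul_one] at this
  rw [this, add_comm]

/-- entropy of a random subset given a random superset -/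
lemma cent_subset_le {Ω β : Type*} [Fintype Ω] [Fintype β] [DecidableEq β] {w : Ω → ℝ}
    (hw : ∀ ω, 0 ≤ w ω) (J : Ω → Finset X) (Y : Ω → β) (C : β → Finset X)
    (hJ : ∀ ω, w ω ≠ 0 → J ω ⊆ C (Y ω)) {A : ℝ} (hA : 0 < A) :
    cent w J Y ≤ log A * (∑ ω, w ω * ((J ω).card : ℝ))
      + (∑ ω, w ω * ((C (Y ω)).card : ℝ)) / A := by
  classical
  have hr : 0 < A⁻¹ := inv_pos.mpr hA
  have h1 : cent w J Y ≤ -∑ ω, w ω * log (if J ω ⊆ C (Y ω) then
      A⁻¹ ^ (J ω).card / (1 + A⁻¹) ^ (C (Y ω)).card else 0) := by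
    refine gibbsC hw J Y (fun y j => if j ⊆ C y then A⁻¹ ^ j.card / (1 + A⁻¹) ^ (C y).card else 0)
      ?_ ?_ ?_
    · intro y x
      show 0 ≤ if x ⊆ C y then A⁻¹ ^ x.card / (1 + A⁻¹) ^ (C y).card else 0
      split_ifs
      · positivity
      · exact le_rfl
    · intro y
      show ∑ x, (if x ⊆ C y then A⁻¹ ^ x.card / (1 + A⁻¹) ^ (C y).card else 0) ≤ 1
      rw [← Finset.sum_filter]
      have : univ.filter (fun x => x ⊆ C y) = (C y).powerset := by
        ext x; simp
      rw [this, ← Finset.sum_div, sum_pow_powerset, div_self (by positivity)]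
    · intro ω h0
      show 0 < if J ω ⊆ C (Y ω) then A⁻¹ ^ (J ω).card / (1 + A⁻¹) ^ (C (Y ω)).card else 0
      rw [if_pos (hJ ω h0)]
      positivity
  refine h1.trans ?_
  rw [Finset.mul_sum, Finset.sum_div, ← Finset.sum_add_distrib, ← Finset.sum_neg_distrib]
  refine Finset.sum_le_sum (fun ω _ => ?_)
  by_cases h0 : w ω = 0
  · simp [h0]
  · rw [if_pos (hJ ω h0), Real.log_div (by positivity) (by positivity), Real.log_pow,
      Real.log_pow, Real.log_inv]
    have h2 : log (1 + A⁻¹) ≤ A⁻¹ := by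
      have := Real.log_le_sub_one_of_pos (show 0 < 1 + A⁻¹ by positivity)
      linarith
    have h3 : ((C (Y ω)).card : ℝ) * log (1 + A⁻¹) ≤ ((C (Y ω)).card : ℝ) * A⁻¹ :=
      mul_le_mul_of_nonneg_left h2 (Nat.cast_nonneg _)
    have h4 := mul_le_mul_of_nonneg_left h3 (hw ω)
    have e : w ω * ((C (Y ω)).card : ℝ) / A = w ω * (((C (Y ω)).card : ℝ) * A⁻¹) := by
      rw [div_eq_mul_inv, mul_assoc]
    rw [e]
    nlinarith [h4]

/-- Lemma N: union of a symmetric pair. -/
theorem unionBound {H : Finset X} {l A B Φ : ℝ} (hmax : MaxHyp G H l) (hA : 0 < A)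
    (hpair : PairB G H l A B Φ) (Q : Finset X × Finset X → ℝ) (hQ : ∀ x, 0 ≤ Q x)
    (h1 : ∑ x, Q x = 1) (hs : ∀ x, Q x ≠ 0 → x.1 ⊆ H ∧ x.2 ⊆ H)
    (hsym : ∀ a b, Q (a, b) = Q (b, a)) :
    Dd G l (mass Q uP) ≤ 2 * Dd G l (mass Q Prod.fst) + mi Q
      + log A * (∑ x, Q x * ((iP x).card : ℝ))
      + (Φ + 2 * B * Dd G l (mass Q Prod.fst)) / A := by
  classical
  have hnode := node G (l := l) hQ
  set m := avg G Q with hm
  have hswapQ : ∀ F : Finset X × Finset X → ℝ, ∑ x, Q x * F x = ∑ x, Q x * F x.swap := by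
    intro F
    rw [← Equiv.sum_comp (Equiv.prodComm (Finset X) (Finset X))]
    refine Finset.sum_congr rfl (fun x _ => ?_)
    obtain ⟨a, b⟩ := x
    show Q (b, a) * F (b, a) = Q (a, b) * F (b, a)
    rw [hsym]
  have hmarg : mass Q Prod.snd = mass Q Prod.fst := by
    funext a
    rw [mass_fst, mass_snd]
    exact Finset.sum_congr rfl (fun b _ => hsym _ _)
  have hmsym : ∀ a b, m (a, b) = m (b, a) := by
    intro a b
    simp only [hm]
    unfold avg
    congr 1
    refine Finset.sum_congr rfl (fun g _ => ?_)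
    show Q (g • a, g • b) = Q (g • b, g • a)
    exact hsym _ _
  have hent : ent m (fun x => (x.2, iP x)) = ent m (fun x => (x.1, iP x)) := by
    rw [ent_eq, ent_eq, ← Equiv.sum_comp (Equiv.prodComm (Finset X) (Finset X))]
    congr 1
    refine Finset.sum_congr rfl (fun x _ => ?_)
    obtain ⟨a, b⟩ := x
    have e1 : mass m (fun x => (x.2, iP x)) (a, a ∩ b) = mass m (fun x => (x.1, iP x)) (a, a ∩ b) := by
      unfold mass
      rw [← Equiv.sum_comp (Equiv.prodComm (Finset X) (Finset X))]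
      refine Finset.sum_congr rfl (fun y _ => ?_)
      obtain ⟨c, d⟩ := y
      show (if (c, d ∩ c) = (a, a ∩ b) then m (d, c) else 0)
        = if (c, c ∩ d) = (a, a ∩ b) then m (c, d) else 0
      rw [hmsym d c, Finset.inter_comm d c]
    show m (b, a) * log (mass m (fun x => (x.2, iP x)) (a, b ∩ a))
      = m (a, b) * log (mass m (fun x => (x.1, iP x)) (a, a ∩ b))
    rw [Finset.inter_comm b a, e1, hmsym b a]
  have hent2 : ent m Prod.snd = ent m Prod.fst := by
    have : mass m Prod.snd = mass m Prod.fst := by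
      funext a
      rw [mass_fst, mass_snd]
      exact Finset.sum_congr rfl (fun b _ => hmsym _ _)
    rw [ent_eq_Hf, ent_eq_Hf, this]
  -- resampling
  set P0 := mass Q (fun x => (x.1, iP x)) with hP0
  have hP00 : ∀ x, 0 ≤ P0 x := mass_nonneg hQ _
  have hP01 : ∑ x, P0 x = 1 := by rw [hP0, sum_mass, h1]
  have hP0s : ∀ x, P0 x ≠ 0 → x.2 ⊆ x.1 ∧ x.1 ⊆ H := by
    intro x hx
    by_contra hcon
    apply hx
    rw [hP0]
    unfold mass
    refine Finset.sum_eq_zero (fun y _ => ?_)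
    by_cases hy : (y.1, iP y) = x
    · rw [if_pos hy]
      by_contra h
      apply hcon
      rw [← hy]
      exact ⟨Finset.inter_subset_left, (hs y h).1⟩
    · rw [if_neg hy]
  obtain ⟨r, hr0, hr1, hr2, hr3, hr4, hr5, hr6⟩ := resampleJ G hmax P0 hP00 hP01 hP0s
  have f1 : mass P0 Prod.fst = mass Q Prod.fst := by
    funext a; rw [hP0, mass_comp]
  have f2 : mass P0 Prod.snd = mass Q iP := by
    funext a; rw [hP0, mass_comp]
  have f3 : avg G P0 = mass m (fun x => (x.1, iP x)) := by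
    rw [hP0, hm, mass_avg_fun G Q (fun x => (x.1, iP x)) (by
      intro g z
      exact Prod.ext rfl (iP_smul G g z))]
  have f4 : avg G (mass Q Prod.fst) = mass m Prod.fst := by
    rw [hm, mass_avg_fun G Q Prod.fst (fun g z => rfl)]
  have f5 : avg G (mass Q iP) = mass m iP := by
    rw [hm, mass_avg_fun G Q iP (iP_smul G)]
  have f6 : ∑ x, P0 x * (x.2.card : ℝ) = ∑ x, Q x * ((iP x).card : ℝ) := by
    rw [hP0]
    exact sum_mass_mul Q (fun x => (x.1, iP x)) (fun y => (y.2.card : ℝ))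
  rw [f1] at hr2
  rw [f1, hr2, f3, f4] at hr4
  rw [f6] at hr5
  rw [f2, f5, f6] at hr6
  -- the Markov coupling
  set u : Finset X × Finset X → ℝ := fun x => r (x.2, x.1) with hu
  have hu0 : ∀ x, 0 ≤ u x := fun x => hr0 _
  set q := dbl u with hq
  have hq0 : ∀ x, 0 ≤ q x := dbl_nonneg hu0
  have hswap : ∀ F : Finset X × Finset X → ℝ, ∑ x, u x * F x = ∑ x, r x * F (x.2, x.1) := by
    intro F
    rw [← Equiv.sum_comp (Equiv.prodComm (Finset X) (Finset X))]
    rfl
  have hu1 : ∑ x, u x = 1 := by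
    have := hswap (fun _ => 1)
    simpa [hr1] using this
  have hq1 : ∑ x, q x = 1 := by rw [hq, sum_dbl hu0, hu1]
  have hHfu : Hf u = Hf r := by
    unfold Hf
    rw [← Equiv.sum_comp (Equiv.prodComm (Finset X) (Finset X))]
    rfl
  have hufst : mass u Prod.fst = mass r Prod.snd := by
    funext j
    rw [mass_fst, mass_snd]
  have husnd : mass u Prod.snd = mass r Prod.fst := by
    funext j
    rw [mass_fst, mass_snd]
  have hqsupp : ∀ x, q x ≠ 0 → r (x.2.1, x.1) ≠ 0 ∧ r (x.2.2, x.1) ≠ 0 := by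
    intro x hx
    constructor
    · intro h; apply hx; simp only [hq, dbl, hu, h]; simp
    · intro h; apply hx; simp only [hq, dbl, hu, h]; simp
  have hqs : ∀ x, q x ≠ 0 → x.1 ⊆ x.2.1 ∩ x.2.2 ∧ x.2.1 ⊆ H ∧ x.2.2 ⊆ H := by
    intro x hx
    obtain ⟨ha, hb⟩ := hqsupp x hx
    have h3 := hr3 _ ha
    have h4 := hr3 _ hb
    exact ⟨Finset.subset_inter h3.1 h4.1, h3.2, h4.2⟩
  have hHq : Hf q = 2 * Hf r - Hf (mass r Prod.snd) := by
    rw [hq, Hf_dbl hu0, hHfu, hufst]
  -- pair law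
  set P2 := mass q (fun x => (x.2.1, x.2.2)) with hP2
  have hP20 : ∀ x, 0 ≤ P2 x := mass_nonneg hq0 _
  have hP21 : ∑ x, P2 x = 1 := by rw [hP2, sum_mass, hq1]
  have hP2s : ∀ x, P2 x ≠ 0 → x.1 ⊆ H ∧ x.2 ⊆ H := by
    intro x hx
    by_contra hcon
    apply hx
    rw [hP2]
    unfold mass
    refine Finset.sum_eq_zero (fun y _ => ?_)
    by_cases hy : (y.2.1, y.2.2) = x
    · rw [if_pos hy]
      by_contra h
      apply hcon
      rw [← hy]
      exact (hqs y h).2
    · rw [if_neg hy]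
  have hpb := hpair P2 hP20 hP21 hP2s
  have g1 : mass P2 Prod.fst = mass Q Prod.fst := by
    have : mass P2 Prod.fst = mass q (fun x => x.2.1) := by
      funext a; rw [hP2, mass_comp]
    rw [this, ← hr2, ← husnd]
    funext a
    exact mass_dbl_left hu0 Prod.snd a
  have g2 : mass P2 Prod.snd = mass Q Prod.fst := by
    have : mass P2 Prod.snd = mass q (fun x => x.2.2) := by
      funext a; rw [hP2, mass_comp]
    rw [this, ← hr2, ← husnd]
    funext a
    exact mass_dbl_right hu0 Prod.snd a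
  have g3 : ∑ x, P2 x * ((iP x).card : ℝ) = ∑ x, q x * ((x.2.1 ∩ x.2.2).card : ℝ) := by
    rw [hP2]
    exact sum_mass_mul q (fun x => (x.2.1, x.2.2)) (fun y => ((iP y).card : ℝ))
  have g4 : ∑ x, q x * (x.1.card : ℝ) = ∑ x, Q x * ((iP x).card : ℝ) := by
    rw [hq, sum_dbl_left hu0 (fun y => (y.1.card : ℝ)), hswap, hr5]
  have hcent := cent_subset_le hq0 (fun x => x.1) (fun x => (x.2.1, x.2.2)) iP
    (fun x hx => (hqs x hx).1) hA
  have hcent2 : cent q (fun x => x.1) (fun x => (x.2.1, x.2.2))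
      = Hf q - Hf P2 := by
    unfold cent
    rw [hP2, Hf_eq_ent q, ent_eq_Hf q (fun x => (x.2.1, x.2.2))]
  rw [hcent2] at hcent
  have g5 : ∑ ω, q ω * ((iP (ω.2.1, ω.2.2)).card : ℝ) = ∑ x, P2 x * ((iP x).card : ℝ) := by
    rw [g3]; rfl
  rw [g5, g4] at hcent
  have hmi2 : mi P2 = 2 * Hf (mass Q Prod.fst) - Hf P2 := by
    unfold mi
    rw [g1, g2]; ring
  rw [g1, g2] at hpb
  rw [hmarg, hent, hent2] at hnode
  have hkey : (∑ x, P2 x * ((iP x).card : ℝ)) / A
      ≤ (Φ + 2 * B * Dd G l (mass Q Prod.fst)) / A + mi P2 := by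
    rw [div_add' _ _ _ hA.ne', div_le_div_iff_of_pos_right hA]
    linarith
  simp only [ent_eq_Hf] at hnode
  linarith

end Res

end Vale.Agent.P064
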