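import Vale.Agent.P064.Grp

namespace Vale.Agent.P064

open Finset Real
open scoped Pointwise

set_option linter.unusedSectionVars false

section DD

variable (G : Type*) [Group G] [Fintype G] {X : Type*} [Fintype X] [DecidableEq X]
  [MulAction G X]

/-- the deficit functional -/
noncomputable def Dd (l : ℝ) (p : Finset X → ℝ) : ℝ :=
  Hf (avg G p) - Hf p - l * ∑ z, p z * (z.card : ℝ)

/-- maximality hypothesis: `P(gK ⊆ H) ≤ exp(-l|K|)` -/
def MaxHyp (H : Finset X) (l : ℝ) : Prop :=
  ∀ K ⊆ H, ((univ.filter (fun g : G => g • K ⊆ H)).card : ℝ)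
    ≤ exp (-(l * (K.card : ℝ))) * (Fintype.card G : ℝ)

/-- orbit hypothesis -/
def OrbHyp (H : Finset X) (a : ℝ) : Prop :=
  ∀ K ⊆ H, exp (a * (K.card : ℝ)) ≤ ((univ.image (fun g : G => g • K)).card : ℝ)

lemma sum_indicator_le {H : Finset X} {l : ℝ} (hmax : MaxHyp G H l) {p : Finset X → ℝ}
    (hp : ∀ z, 0 ≤ p z) (h1 : ∑ z, p z = 1) (hs : ∀ z, p z ≠ 0 → z ⊆ H) :
    ∑ z, avg G p z * (if z ⊆ H then exp (l * (z.card : ℝ)) else 0) ≤ 1 := by
  classical
  rw [sum_avg_mul, ← h1]
  refine Finset.sum_le_sum (fun z _ => ?_)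
  by_cases h0 : p z = 0
  · simp [h0]
  have hz := hs z h0
  have h2 : avg G (fun z : Finset X => if z ⊆ H then exp (l * (z.card : ℝ)) else 0) z ≤ 1 := by
    unfold avg
    have e : ∑ g : G, (if g • z ⊆ H then exp (l * ((g • z).card : ℝ)) else 0)
        = ((univ.filter (fun g : G => g • z ⊆ H)).card : ℝ) * exp (l * (z.card : ℝ)) := by
      rw [← Finset.sum_filter, Finset.sum_congr rfl (g := fun _ => exp (l * (z.card : ℝ)))
        (fun g _ => by rw [Finset.card_smul_finset]), Finset.sum_const, nsmul_eq_mul]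
    rw [e, div_le_one (cardG_pos G)]
    have := mul_le_mul_of_nonneg_right (hmax z hz) (exp_pos (l * (z.card : ℝ))).le
    refine this.trans (le_of_eq ?_)
    rw [mul_assoc, mul_comm (Fintype.card G : ℝ), ← mul_assoc, ← Real.exp_add]
    simp
  have := mul_le_mul_of_nonneg_left h2 (hp z)
  simpa using this

theorem Dd_nonneg {H : Finset X} {l : ℝ} (hmax : MaxHyp G H l) {p : Finset X → ℝ}
    (hp : ∀ z, 0 ≤ p z) (h1 : ∑ z, p z = 1) (hs : ∀ z, p z ≠ 0 → z ⊆ H) : 0 ≤ Dd G l p := by
  classical
  have key : ∑ z, p z * (log (avg G p z) - log (p z) + l * (z.card : ℝ))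
      ≤ ∑ z, (avg G p z * (if z ⊆ H then exp (l * (z.card : ℝ)) else 0) - p z) := by
    refine Finset.sum_le_sum (fun z _ => ?_)
    by_cases h0 : p z = 0
    · rw [h0]
      simp only [zero_mul, sub_zero]
      exact mul_nonneg (avg_nonneg G hp z) (by split_ifs; exacts [(exp_pos _).le, le_rfl])
    · have hz := hs z h0
      have hpz : 0 < p z := lt_of_le_of_ne (hp z) (Ne.symm h0)
      have hav : 0 < avg G p z :=
        lt_of_le_of_ne (avg_nonneg G hp z) (Ne.symm (avg_ne_zero G hp h0))
      have e : log (avg G p z) - log (p z) + l * (z.card : ℝ)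
          = log (avg G p z * exp (l * (z.card : ℝ)) / p z) := by
        rw [Real.log_div (by positivity) (by positivity), Real.log_mul (by positivity)
          (by positivity), Real.log_exp]
        ring
      rw [e]
      simp only [hz, if_true]
      have h2 := Real.log_le_sub_one_of_pos
        (show 0 < avg G p z * exp (l * (z.card : ℝ)) / p z by positivity)
      have h3 := mul_le_mul_of_nonneg_left h2 (hp z)
      refine h3.trans (le_of_eq ?_)
      field_simp
  rw [Finset.sum_sub_distrib, h1] at key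
  have h2 := sum_indicator_le G hmax hp h1 hs
  have e : ∑ z, p z * (log (avg G p z) - log (p z) + l * (z.card : ℝ)) = - Dd G l p := by
    unfold Dd
    rw [Hf_avg]
    unfold Hf negMulLog
    rw [Finset.mul_sum, ← Finset.sum_neg_distrib, ← Finset.sum_sub_distrib,
      ← Finset.sum_sub_distrib, ← Finset.sum_neg_distrib]
    exact Finset.sum_congr rfl (fun z _ => by ring)
  rw [e] at key
  linarith

theorem Hf_avg_ge {H : Finset X} {a : ℝ} (horb : OrbHyp G H a) {p : Finset X → ℝ}
    (hp : ∀ z, 0 ≤ p z) (h1 : ∑ z, p z = 1) (hs : ∀ z, p z ≠ 0 → z ⊆ H) :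
    a * ∑ z, p z * (z.card : ℝ) ≤ Hf (avg G p) := by
  classical
  rw [Hf_avg, Finset.mul_sum, ← Finset.sum_neg_distrib]
  refine Finset.sum_le_sum (fun z _ => ?_)
  by_cases h0 : p z = 0
  · simp [h0]
  have hav : 0 < avg G p z :=
    lt_of_le_of_ne (avg_nonneg G hp z) (Ne.symm (avg_ne_zero G hp h0))
  have h2 := avg_mul_card_le G hp h1 z
  have h3 := horb z (hs z h0)
  have h4 : avg G p z * exp (a * (z.card : ℝ)) ≤ 1 :=
    (mul_le_mul_of_nonneg_left h3 hav.le).trans h2
  have h5 : log (avg G p z) + a * (z.card : ℝ) ≤ 0 := by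
    have := Real.log_le_log (by positivity) h4
    rwa [Real.log_mul (by positivity) (by positivity), Real.log_exp, Real.log_one] at this
  have := mul_le_mul_of_nonneg_left (show a * (z.card : ℝ) ≤ -log (avg G p z) by linarith) (hp z)
  linarith

end DD

section MI

variable {𝒜 ℬ : Type*} [Fintype 𝒜] [DecidableEq 𝒜] [Fintype ℬ] [DecidableEq ℬ]

/-- mutual information of the two coordinates -/
noncomputable def mi (P : 𝒜 × ℬ → ℝ) : ℝ := Hf (mass P Prod.fst) + Hf (mass P Prod.snd) - Hf P

lemma mi_nonneg {P : 𝒜 × ℬ → ℝ} (hP : ∀ x, 0 ≤ P x) (h1 : ∑ x, P x = 1) : 0 ≤ mi P := by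
  have := cent_le_ent hP h1 Prod.fst Prod.snd
  unfold cent at this
  have e : ent P (fun x : 𝒜 × ℬ => (x.1, x.2)) = Hf P := by
    rw [Hf_eq_ent]
  rw [e, ent_eq_Hf, ent_eq_Hf] at this
  unfold mi
  linarith

lemma mi_mass {Ω : Type*} [Fintype Ω] (w : Ω → ℝ) (A : Ω → 𝒜) (B : Ω → ℬ) :
    mi (mass w (fun ω => (A ω, B ω))) = ent w A + ent w B - ent w (fun ω => (A ω, B ω)) := by
  unfold mi
  have e1 : mass (mass w (fun ω => (A ω, B ω))) Prod.fst = mass w A := by
    funext a; rw [mass_comp]
  have e2 : mass (mass w (fun ω => (A ω, B ω))) Prod.snd = mass w B := by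
    funext a; rw [mass_comp]
  rw [e1, e2]
  rfl

end MI

section Node

variable (G : Type*) [Group G] [Fintype G] {X : Type*} [Fintype X] [DecidableEq X]
  [MulAction G X]

/-- intersection of a pair -/
def iP (x : Finset X × Finset X) : Finset X := x.1 ∩ x.2
/-- union of a pair -/
def uP (x : Finset X × Finset X) : Finset X := x.1 ∪ x.2

lemma iP_smul (g : G) (x : Finset X × Finset X) : iP (g • x) = g • iP x := by
  unfold iP
  simp [Finset.smul_finset_inter]

lemma uP_smul (g : G) (x : Finset X × Finset X) : uP (g • x) = g • uP x := by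
  unfold uP
  simp [Finset.smul_finset_union]

/-- conditional entropy (of the identity given `f`) does not decrease under group averaging -/
lemma ent_avg_sub {Z Z' : Type*} [Fintype Z] [DecidableEq Z] [MulAction G Z] [Fintype Z']
    [DecidableEq Z'] [MulAction G Z'] {P : Z → ℝ} (hP : ∀ z, 0 ≤ P z) (f : Z → Z')
    (hf : ∀ (g : G) z, f (g • z) = g • f z) :
    Hf P - ent P f ≤ Hf (avg G P) - ent (avg G P) f := by
  classical
  set m := avg G P with hm
  have hm0 : ∀ z, 0 ≤ m z := avg_nonneg G hP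
  have hmf : mass m f = avg G (mass P f) := mass_avg_fun G P f hf
  have hle : ∀ z, m z ≤ mass m f (f z) := fun z => le_mass hm0 f z
  have h1 : cent P (fun z => z) f ≤ -∑ z, P z * log ((if f z = f z then m z else 0)
      / mass m f (f z)) := by
    refine gibbsC hP (fun z => z) f (fun u z => (if f z = u then m z else 0) / mass m f u)
      ?_ ?_ ?_
    · intro u z
      exact div_nonneg (by split_ifs; exacts [hm0 z, le_rfl]) (mass_nonneg hm0 _ _)
    · intro u
      show ∑ z, (if f z = u then m z else 0) / mass m f u ≤ 1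
      rw [← Finset.sum_div]
      exact div_self_le_one _
    · intro z hz
      have hmz : 0 < m z := lt_of_le_of_ne (hm0 z) (Ne.symm (avg_ne_zero G hP hz))
      simp only [if_true]
      exact div_pos hmz (lt_of_lt_of_le hmz (hle z))
  have e1 : cent P (fun z => z) f = Hf P - ent P f := by
    unfold cent
    rw [Hf_eq_ent]
    congr 1
    exact ent_congr (by intro a b; simp only [Prod.mk.injEq]; exact ⟨fun h => h.1, fun h => ⟨h, by rw [h]⟩⟩)
  have e2 : -∑ z, P z * log ((if f z = f z then m z else 0) / mass m f (f z))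
      = Hf m - ent m f := by
    have hinv : ∀ (g : G) z, log ((if f (g • z) = f (g • z) then m (g • z) else 0)
        / mass m f (f (g • z))) = log ((if f z = f z then m z else 0) / mass m f (f z)) := by
      intro g z
      rw [hmf, hf, avg_smul]
      simp only [if_true]
      rw [hm, avg_smul]
    rw [← sum_avg_mul_inv G P hinv]
    have e3 : ent m f = -∑ z, m z * log (mass m f (f z)) := ent_eq m f
    rw [e3]
    unfold Hf negMulLog
    rw [sub_neg_eq_add, ← Finset.sum_add_distrib, ← Finset.sum_neg_distrib]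
    refine Finset.sum_congr rfl (fun z _ => ?_)
    simp only [if_true]
    rw [← hm]
    by_cases h0 : m z = 0
    · simp [h0]
    · have hmz : 0 < m z := lt_of_le_of_ne (hm0 z) (Ne.symm h0)
      rw [Real.log_div hmz.ne' (lt_of_lt_of_le hmz (hle z)).ne']
      ring
  rw [e1, e2] at h1
  exact h1

/-- Node inequality. -/
theorem node {l : ℝ} {P : Finset X × Finset X → ℝ} (hP : ∀ x, 0 ≤ P x) :
    Dd G l (mass P uP) ≤ Dd G l (mass P Prod.fst) + Dd G l (mass P Prod.snd) + mi P
      + (ent (avg G P) (fun x => (x.1, iP x)) - ent (avg G P) Prod.fst)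
      + (ent (avg G P) (fun x => (x.2, iP x)) - ent (avg G P) Prod.snd)
      - (ent (avg G P) iP - l * ∑ x, P x * ((iP x).card : ℝ)) := by
  classical
  set m := avg G P with hm
  have hm0 : ∀ z, 0 ≤ m z := avg_nonneg G hP
  have a1 : Hf (avg G (mass P uP)) = ent m uP := by
    rw [← mass_avg_fun G P uP (uP_smul G)]; rfl
  have a2 : Hf (avg G (mass P Prod.fst)) = ent m Prod.fst := by
    rw [← mass_avg_fun G P Prod.fst (fun g z => rfl)]; rfl
  have a3 : Hf (avg G (mass P Prod.snd)) = ent m Prod.snd := by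
    rw [← mass_avg_fun G P Prod.snd (fun g z => rfl)]; rfl
  have b := ent_avg_sub G hP uP (uP_smul G)
  have c : Hf m + ent m iP ≤ ent m (fun x => (x.1, iP x)) + ent m (fun x => (x.2, iP x)) := by
    have := ent_submod hm0 (Prod.fst : Finset X × Finset X → Finset X) Prod.snd iP
    have e : ent m (fun x => (x.1, x.2, iP x)) = Hf m := by
      rw [Hf_eq_ent]
      refine ent_congr (fun a b => ?_)
      constructor
      · intro h
        simp only [Prod.mk.injEq] at h
        exact Prod.ext h.1 h.2.1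
      · intro h
        rw [h]
    rw [e] at this
    exact this
  have d : ∑ x, P x * ((uP x).card : ℝ) = ∑ x, P x * (x.1.card : ℝ) + ∑ x, P x * (x.2.card : ℝ)
      - ∑ x, P x * ((iP x).card : ℝ) := by
    rw [← Finset.sum_add_distrib, ← Finset.sum_sub_distrib]
    refine Finset.sum_congr rfl (fun x _ => ?_)
    have : ((uP x).card : ℝ) + ((iP x).card : ℝ) = (x.1.card : ℝ) + (x.2.card : ℝ) := by
      exact_mod_cast Finset.card_union_add_card_inter x.1 x.2
    rw [show ((uP x).card : ℝ) = (x.1.card : ℝ) + (x.2.card : ℝ) - ((iP x).card : ℝ) by linarith]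
    ring
  unfold Dd mi
  rw [a1, a2, a3, sum_mass_mul P uP (fun z => (z.card : ℝ)),
    sum_mass_mul P Prod.fst (fun z => (z.card : ℝ)),
    sum_mass_mul P Prod.snd (fun z => (z.card : ℝ)), d, ← ent_eq_Hf, ← ent_eq_Hf, ← ent_eq_Hf]
  rw [← hm] at b
  have b' : ent m uP - ent P uP ≤ Hf m - Hf P := by linarith
  nlinarith [b', c]

end Node

end Vale.Agent.P064
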