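import Vale.Agent.P064.Core
import Vale.Agent.P064.Interface

namespace Vale.Agent.P064

open Finset Real
open scoped Pointwise

set_option linter.unusedSectionVars false

theorem partA : PartA := by
  set C' : ℝ := 4 * (68 + 12 * log 75 + 12 * log 48) with hC'
  refine ⟨2 * exp C', by positivity, ?_⟩
  intro G X _ _ _ _ _ H q hq hq1 hK F hF
  classical
  have hG := cardG_pos G
  have hKs : ∀ K : Finset X, K ⊆ H → K.Nonempty →
      (1 : ℝ) / 2 ≤ ((univ.image (fun g : G => g • K)).card : ℝ) * q ^ K.card := hK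
  show ((univ.filter (fun g : G => g • F ⊆ H)).card : ℝ)
        ≤ (2 * exp C' * q) ^ F.card * (Fintype.card G : ℝ)
  rcases F.eq_empty_or_nonempty with hFe | hFn
  · subst hFe
    simp only [Finset.card_empty, pow_zero, one_mul]
    exact_mod_cast Finset.card_le_univ _
  have hpos : ∀ K : Finset X, K ⊆ H →
      (0:ℝ) < ((univ.filter (fun g : G => g • K ⊆ H)).card : ℝ) := by
    intro K hKH
    have : (univ.filter (fun g : G => g • K ⊆ H)).Nonempty :=
      ⟨1, by simpa using hKH⟩
    exact_mod_cast this.card_pos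
  set val : Finset X → ℝ := fun K =>
    -log (((univ.filter (fun g : G => g • K ⊆ H)).card : ℝ) / (Fintype.card G : ℝ))
      / (K.card : ℝ) with hval
  obtain ⟨K₀, hK₀m, hK₀⟩ := Finset.exists_min_image
    (H.powerset.filter (fun K => K.Nonempty)) val ⟨F, by simp [hF, hFn]⟩
  simp only [Finset.mem_filter, Finset.mem_powerset] at hK₀m hK₀
  set l := val K₀ with hl
  have hmax : MaxHyp G H l := by
    intro K hKH
    rcases K.eq_empty_or_nonempty with hKe | hKn
    · subst hKe
      simp only [Finset.card_empty, Nat.cast_zero, mul_zero, neg_zero, Real.exp_zero, one_mul]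
      exact_mod_cast Finset.card_le_univ _
    · have h1 := hK₀ K ⟨hKH, hKn⟩
      have hc : (0:ℝ) < (K.card : ℝ) := by exact_mod_cast hKn.card_pos
      simp only [hval] at h1
      have h2 : l * (K.card : ℝ)
          ≤ -log (((univ.filter (fun g : G => g • K ⊆ H)).card : ℝ) / (Fintype.card G : ℝ)) := by
        rw [← le_div_iff₀ hc]
        exact h1
      have h3 : log (((univ.filter (fun g : G => g • K ⊆ H)).card : ℝ) / (Fintype.card G : ℝ))
          ≤ -(l * (K.card : ℝ)) := by linarith
      rw [Real.log_le_iff_le_exp (div_pos (hpos K hKH) hG), div_le_iff₀ hG] at h3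
      exact h3
  have hext : exp (-(l * (K₀.card : ℝ))) * (Fintype.card G : ℝ)
      ≤ ((univ.filter (fun g : G => g • K₀ ⊆ H)).card : ℝ) := by
    have hc : (0:ℝ) < (K₀.card : ℝ) := by exact_mod_cast hK₀m.2.card_pos
    have h1 : l * (K₀.card : ℝ)
        = -log (((univ.filter (fun g : G => g • K₀ ⊆ H)).card : ℝ) / (Fintype.card G : ℝ)) := by
      simp only [hl, hval]
      field_simp
    rw [h1, neg_neg, Real.exp_log (div_pos (hpos K₀ hK₀m.1) hG), div_mul_cancel₀ _ hG.ne']
  set a := -log (2 * q) with ha
  have h2q : 0 < 2 * q := by positivity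
  have horb : OrbHyp G H a := by
    intro K hKH
    have hexp : exp (a * (K.card : ℝ)) = ((2 * q) ^ K.card)⁻¹ := by
      rw [ha, neg_mul, Real.exp_neg, mul_comm (log (2 * q)), Real.exp_nat_mul,
        Real.exp_log h2q]
    rw [hexp]
    rcases K.eq_empty_or_nonempty with hKe | hKn
    · subst hKe
      simp only [Finset.card_empty, pow_zero, inv_one]
      have : (univ.image (fun g : G => g • (∅ : Finset X))).Nonempty :=
        ⟨_, Finset.mem_image_of_mem _ (Finset.mem_univ (1 : G))⟩
      exact_mod_cast this.card_pos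
    · have h1 := hKs K hKH hKn
      have hqk : 0 < q ^ K.card := by positivity
      have h2 : (2 : ℝ) ≤ 2 ^ K.card := by
        have := pow_le_pow_right₀ (show (1:ℝ) ≤ 2 by norm_num) hKn.card_pos
        simpa using this
      rw [mul_pow, inv_le_iff_one_le_mul₀ (by positivity)]
      have h3 : (0:ℝ) ≤ ((univ.image (fun g : G => g • K)).card : ℝ) := Nat.cast_nonneg _
      calc (1:ℝ) = 2 * (1 / 2) := by norm_num
        _ ≤ 2 * (((univ.image (fun g : G => g • K)).card : ℝ) * q ^ K.card) := by linarith
        _ ≤ 2 ^ K.card * (((univ.image (fun g : G => g • K)).card : ℝ) * q ^ K.card) :=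
            mul_le_mul_of_nonneg_right h2 (by positivity)
        _ = _ := by ring
  have hcore := core G hmax horb hK₀m.1 hK₀m.2 hext
  rw [← hC'] at hcore
  have h4 := hmax F hF
  refine h4.trans ?_
  refine mul_le_mul_of_nonneg_right ?_ hG.le
  have h5 : (2 * exp C' * q) ^ F.card = exp ((C' - a) * (F.card : ℝ)) := by
    rw [mul_comm (C' - a), Real.exp_nat_mul, Real.exp_sub, ha, Real.exp_neg, Real.exp_log h2q]
    congr 1
    field_simp
  rw [h5]
  apply Real.exp_le_exp.mpr
  have hc : (0:ℝ) ≤ (F.card : ℝ) := Nat.cast_nonneg _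
  nlinarith

end Vale.Agent.P064
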