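import Mathlib
import Vale.Agent.P064.Interface

/-!
# The spread lemma (Part B of P064)
-/

set_option linter.unusedSectionVars false

namespace Vale.Agent.P064.SpreadB

open Finset

variable {E : Type} [Fintype E] [DecidableEq E]

/-- weight of `W` in the `p`-random subset of `E` -/
noncomputable def wt (p : ℝ) (W : Finset E) : ℝ :=
  p ^ W.card * (1 - p) ^ (Fintype.card E - W.card)

lemma wt_nonneg {p : ℝ} (h0 : 0 ≤ p) (h1 : p ≤ 1) (W : Finset E) : 0 ≤ wt p W :=
  mul_nonneg (pow_nonneg h0 _) (pow_nonneg (by linarith) _)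

lemma sum_wt (p : ℝ) : ∑ W : Finset E, wt p W = 1 := by
  have h := Fintype.sum_pow_mul_eq_add_pow E p (1 - p)
  unfold wt
  rw [h]
  simp

lemma wt_sdiff {p : ℝ} (h0 : 0 < p) (h1 : p ≤ 1) {Z T : Finset E} (h : T ⊆ Z) :
    wt p (Z \ T) ≤ wt p Z * (1 / p) ^ T.card := by
  have hc : (Z \ T).card = Z.card - T.card := card_sdiff_of_subset h
  have hle : T.card ≤ Z.card := card_le_card h
  have hZ : Z.card ≤ Fintype.card E := card_le_univ Z
  unfold wt
  rw [hc]
  have e1 : p ^ Z.card = p ^ (Z.card - T.card) * p ^ T.card := by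
    rw [← pow_add]; congr 1; omega
  have e2 : p ^ Z.card * (1 - p) ^ (Fintype.card E - Z.card) * (1 / p) ^ T.card
      = p ^ (Z.card - T.card) * (1 - p) ^ (Fintype.card E - Z.card) := by
    rw [e1, one_div, inv_pow]
    have : p ^ T.card ≠ 0 := pow_ne_zero _ h0.ne'
    field_simp
  rw [e2]
  apply mul_le_mul_of_nonneg_left _ (pow_nonneg h0.le _)
  apply pow_le_pow_of_le_one (by linarith) (by linarith)
  omega

lemma inner_aux (q : ℝ) {W1 W : Finset E} (h : W1 ⊆ W) :
    ∑ W2 ∈ univ.filter (fun W2 : Finset E => W1 ∪ W2 = W), wt q W2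
      = q ^ (W.card - W1.card) * (1 - q) ^ (Fintype.card E - W.card) := by
  have hle : W1.card ≤ W.card := card_le_card h
  have hW : W.card ≤ Fintype.card E := card_le_univ W
  have key : ∑ W2 ∈ univ.filter (fun W2 : Finset E => W1 ∪ W2 = W), wt q W2
      = ∑ U ∈ W1.powerset, q ^ (W.card - W1.card) * (1 - q) ^ (Fintype.card E - W.card)
          * (q ^ U.card * (1 - q) ^ (W1.card - U.card)) := by
    apply sum_nbij' (fun W2 => W2 ∩ W1) (fun U => (W \ W1) ∪ U)
    · intro W2 _
      simp
    · intro U hU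
      rw [mem_powerset] at hU
      rw [mem_filter]
      refine ⟨mem_univ _, ?_⟩
      ext x
      simp only [mem_union, mem_sdiff]
      constructor
      · rintro (hx | hx | hx)
        · exact h hx
        · exact hx.1
        · exact h (hU hx)
      · intro hx
        by_cases hx1 : x ∈ W1
        · exact Or.inl hx1
        · exact Or.inr (Or.inl ⟨hx, hx1⟩)
    · intro W2 hW2
      rw [mem_filter] at hW2
      have h2 := hW2.2
      ext x
      have h3 : x ∈ W1 ∪ W2 ↔ x ∈ W := by rw [h2]
      simp only [mem_union, mem_sdiff, mem_inter] at h3 ⊢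
      tauto
    · intro U hU
      rw [mem_powerset] at hU
      ext x
      have := @hU x
      simp only [mem_union, mem_sdiff, mem_inter]
      tauto
    · intro W2 hW2
      rw [mem_filter] at hW2
      have h2 := hW2.2
      have hsplit : W2 = (W \ W1) ∪ (W2 ∩ W1) := by
        ext x
        have h3 : x ∈ W1 ∪ W2 ↔ x ∈ W := by rw [h2]
        simp only [mem_union, mem_sdiff, mem_inter] at h3 ⊢
        tauto
      have hdis : Disjoint (W \ W1) (W2 ∩ W1) := by
        rw [disjoint_left]
        intro x hx hx'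
        simp only [mem_sdiff, mem_inter] at hx hx'
        exact hx.2 hx'.2
      have hcard : W2.card = (W.card - W1.card) + (W2 ∩ W1).card := by
        conv_lhs => rw [hsplit]
        rw [card_union_of_disjoint hdis, card_sdiff_of_subset h]
      have hU : (W2 ∩ W1).card ≤ W1.card := card_le_card inter_subset_right
      unfold wt
      rw [hcard, pow_add]
      have : Fintype.card E - ((W.card - W1.card) + (W2 ∩ W1).card)
          = (Fintype.card E - W.card) + (W1.card - (W2 ∩ W1).card) := by omega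
      rw [this, pow_add]
      ring
  rw [key, ← mul_sum, Finset.sum_pow_mul_eq_add_pow]
  simp

lemma union_aux (p q : ℝ) (W : Finset E) :
    ∑ W1 : Finset E, ∑ W2 : Finset E, (if W1 ∪ W2 = W then wt p W1 * wt q W2 else 0)
      = wt (1 - (1 - p) * (1 - q)) W := by
  have hW : W.card ≤ Fintype.card E := card_le_univ W
  have h1 : ∀ W1 : Finset E,
      ∑ W2 : Finset E, (if W1 ∪ W2 = W then wt p W1 * wt q W2 else 0)
        = if W1 ⊆ W then wt p W1 * (q ^ (W.card - W1.card) *
            (1 - q) ^ (Fintype.card E - W.card)) else 0 := by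
    intro W1
    split_ifs with h
    · rw [← inner_aux q h, mul_sum, sum_filter]
    · apply sum_eq_zero
      intro W2 _
      rw [if_neg]
      intro h2
      apply h
      rw [← h2]
      exact subset_union_left
  rw [sum_congr rfl (fun W1 _ => h1 W1), ← sum_filter]
  have h2 : univ.filter (fun W1 : Finset E => W1 ⊆ W) = W.powerset := by
    ext; simp
  rw [h2]
  have h3 : ∀ W1 ∈ W.powerset,
      wt p W1 * (q ^ (W.card - W1.card) * (1 - q) ^ (Fintype.card E - W.card))
        = ((1 - p) * (1 - q)) ^ (Fintype.card E - W.card) *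
          (p ^ W1.card * ((1 - p) * q) ^ (W.card - W1.card)) := by
    intro W1 hW1
    rw [mem_powerset] at hW1
    have hle : W1.card ≤ W.card := card_le_card hW1
    unfold wt
    have : Fintype.card E - W1.card = (Fintype.card E - W.card) + (W.card - W1.card) := by omega
    rw [this, pow_add, mul_pow, mul_pow]
    ring
  rw [sum_congr rfl h3, ← mul_sum, Finset.sum_pow_mul_eq_add_pow]
  unfold wt
  rw [show p + (1 - p) * q = 1 - (1 - p) * (1 - q) by ring,
    show 1 - (1 - (1 - p) * (1 - q)) = (1 - p) * (1 - q) by ring]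
  ring

/-- expectation under the `p`-random subset -/
noncomputable def Ex (p : ℝ) (f : Finset E → ℝ) : ℝ := ∑ W : Finset E, wt p W * f W

lemma Ex_union (p q : ℝ) (f : Finset E → ℝ) :
    Ex p (fun W1 => Ex q (fun W2 => f (W1 ∪ W2))) = Ex (1 - (1 - p) * (1 - q)) f := by
  have h : ∀ W : Finset E, wt (1 - (1 - p) * (1 - q)) W * f W
      = ∑ W1 : Finset E, ∑ W2 : Finset E,
        (if W1 ∪ W2 = W then wt p W1 * wt q W2 * f (W1 ∪ W2) else 0) := by
    intro W
    rw [← union_aux, sum_mul]
    apply sum_congr rfl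
    intro W1 _
    rw [sum_mul]
    apply sum_congr rfl
    intro W2 _
    split_ifs with h
    · rw [h]
    · simp
  unfold Ex
  rw [sum_congr rfl (fun W _ => h W), sum_comm]
  apply sum_congr rfl
  intro W1 _
  rw [sum_comm, mul_sum]
  apply sum_congr rfl
  intro W2 _
  rw [sum_ite_eq univ (W1 ∪ W2)]
  simp
  ring

lemma Ex_mono_fun {p : ℝ} (h0 : 0 ≤ p) (h1 : p ≤ 1) {f g : Finset E → ℝ}
    (h : ∀ W, f W ≤ g W) : Ex p f ≤ Ex p g :=
  sum_le_sum fun W _ => mul_le_mul_of_nonneg_left (h W) (wt_nonneg h0 h1 W)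

lemma Ex_const (p c : ℝ) : Ex (E := E) p (fun _ => c) = c := by
  unfold Ex
  rw [← sum_mul, sum_wt, one_mul]

/-- monotonicity in `p` -/
lemma Ex_mono {p q : ℝ} (h0 : 0 ≤ p) (hpq : p ≤ q) (h1 : q ≤ 1) {f : Finset E → ℝ}
    (hf : Monotone f) : Ex p f ≤ Ex q f := by
  rcases eq_or_lt_of_le (le_trans hpq h1) with h | h
  · have : p = q := by linarith
    rw [this]
  · set s := (q - p) / (1 - p) with hs
    have hp1 : 0 < 1 - p := by linarith
    have hs0 : 0 ≤ s := div_nonneg (by linarith) hp1.le
    have hs1 : s ≤ 1 := by rw [hs, div_le_one hp1]; linarith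
    have hq : q = 1 - (1 - p) * (1 - s) := by
      rw [hs]; field_simp; ring
    rw [hq, ← Ex_union]
    apply Ex_mono_fun h0 (by linarith)
    intro W
    calc f W = Ex s (fun _ : Finset E => f W) := (Ex_const _ _).symm
      _ ≤ _ := Ex_mono_fun hs0 hs1 (fun W2 => hf subset_union_left)

lemma Ex_zero (f : Finset E → ℝ) : Ex 0 f = f ∅ := by
  unfold Ex wt
  rw [sum_eq_single ∅]
  · simp
  · intro W _ hW
    have : W.card ≠ 0 := by rwa [Ne, card_eq_zero]
    simp [this]
  · simp

/-- iterated expectation -/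
noncomputable def Q (p : ℝ) : ℕ → (Finset E → ℝ) → ℝ
  | 0, f => f ∅
  | r + 1, f => Ex p (fun W => Q p r (fun W' => f (W ∪ W')))

lemma Q_eq (p : ℝ) (r : ℕ) : ∀ f : Finset E → ℝ, Q p r f = Ex (1 - (1 - p) ^ r) f := by
  induction r with
  | zero => intro f; simp [Q, Ex_zero]
  | succ r ih =>
    intro f
    have h : Q p (r + 1) f
        = Ex p (fun W => Ex (1 - (1 - p) ^ r) (fun W' => f (W ∪ W'))) := by
      simp only [Q, ih]
    rw [h, Ex_union]
    congr 1
    ring

lemma Q_mono_fun {p : ℝ} (h0 : 0 ≤ p) (h1 : p ≤ 1) (r : ℕ) : ∀ {f g : Finset E → ℝ},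
    (∀ W, f W ≤ g W) → Q p r f ≤ Q p r g := by
  induction r with
  | zero => intro f g h; exact h ∅
  | succ r ih =>
    intro f g h
    exact Ex_mono_fun h0 h1 (fun W => ih (fun W' => h _))

section Round

variable {ι : Type} (A : ι → Finset E) (I : Finset ι)

open Classical in
/-- choice of the minimiser -/
noncomputable def kk (i : ι) (W : Finset E) : ι :=
  if h : i ∈ I then
    (exists_min_image (I.filter (fun k => A k ⊆ W ∪ A i)) (fun k => (A k \ W).card)
      ⟨i, mem_filter.2 ⟨h, subset_union_right⟩⟩).choose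
  else i

lemma kk_spec {i : ι} (h : i ∈ I) (W : Finset E) :
    kk A I i W ∈ I ∧ A (kk A I i W) ⊆ W ∪ A i ∧
      ∀ k ∈ I, A k ⊆ W ∪ A i → (A (kk A I i W) \ W).card ≤ (A k \ W).card := by
  classical
  have hs := (exists_min_image (I.filter (fun k => A k ⊆ W ∪ A i)) (fun k => (A k \ W).card)
      ⟨i, mem_filter.2 ⟨h, subset_union_right⟩⟩).choose_spec
  unfold kk
  rw [dif_pos h]
  rw [mem_filter] at hs
  refine ⟨hs.1.1, hs.1.2, ?_⟩
  intro k hk hk'
  exact hs.2 k (mem_filter.2 ⟨hk, hk'⟩)

/-- minimum fragment -/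
noncomputable def TT (i : ι) (W : Finset E) : Finset E := A (kk A I i W) \ W

lemma TT_subset {i : ι} (h : i ∈ I) (W : Finset E) : TT A I i W ⊆ A i := by
  intro x hx
  unfold TT at hx
  rw [mem_sdiff] at hx
  have := (kk_spec A I h W).2.1 hx.1
  rw [mem_union] at this
  tauto

open Classical in
/-- canonical index inside `Z` -/
noncomputable def jj (Z : Finset E) : Finset E :=
  if h : ∃ k ∈ I, A k ⊆ Z then A h.choose else ∅

lemma jj_card {s : ℕ} (hA : ∀ i ∈ I, (A i).card ≤ s) (Z : Finset E) : (jj A I Z).card ≤ s := by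
  unfold jj
  split_ifs with h
  · exact hA _ h.choose_spec.1
  · simp

lemma TT_subset_jj {i : ι} (h : i ∈ I) (W : Finset E) :
    TT A I i W ⊆ jj A I (W ∪ TT A I i W) := by
  have hs := kk_spec A I h W
  have hex : ∃ k ∈ I, A k ⊆ W ∪ TT A I i W := by
    refine ⟨kk A I i W, hs.1, ?_⟩
    intro x hx
    rw [mem_union]
    by_cases hxW : x ∈ W
    · exact Or.inl hxW
    · exact Or.inr (by unfold TT; exact mem_sdiff.2 ⟨hx, hxW⟩)
  unfold jj
  rw [dif_pos hex]
  set k := hex.choose with hk
  have hkI : k ∈ I := hex.choose_spec.1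
  have hkZ : A k ⊆ W ∪ TT A I i W := hex.choose_spec.2
  have hkZ' : A k ⊆ W ∪ A i := hkZ.trans (union_subset_union_right (TT_subset A I h W))
  have hmin : (TT A I i W).card ≤ (A k \ W).card := hs.2.2 k hkI hkZ'
  have hsub : A k \ W ⊆ TT A I i W := by
    intro x hx
    rw [mem_sdiff] at hx
    have := hkZ hx.1
    rw [mem_union] at this
    tauto
  have heq : A k \ W = TT A I i W := eq_of_subset_of_card_le hsub hmin
  rw [← heq]
  exact sdiff_subset

/-- One round. -/
lemma round {κ p N : ℝ} {s : ℕ} (hκ : 0 < κ) (hN : 0 ≤ N) (hp0 : 0 < p) (hp1 : p ≤ 1)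
    (hκp : κ ≤ p)
    (hA : ∀ i ∈ I, (A i).card ≤ 2 * s)
    (hS : ∀ S : Finset E, ((I.filter (fun i => S ⊆ A i)).card : ℝ) ≤ κ ^ S.card * N) :
    Ex p (fun W => ((I.filter (fun i => s ≤ (TT A I i W).card)).card : ℝ))
      ≤ (4 * κ / p) ^ s * N := by
  classical
  -- bound by a sum over triples
  have hr0 : 0 ≤ κ / p := div_nonneg hκ.le hp0.le
  have hr1 : κ / p ≤ 1 := by rw [div_le_one hp0]; exact hκp
  have h1 : Ex p (fun W => ((I.filter (fun i => s ≤ (TT A I i W).card)).card : ℝ))
      = ∑ i ∈ I, ∑ W : Finset E, (if s ≤ (TT A I i W).card then wt p W else 0) := by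
    unfold Ex
    rw [sum_comm]
    apply sum_congr rfl
    intro W _
    beta_reduce
    rw [card_filter]
    push_cast
    rw [mul_sum]
    apply sum_congr rfl
    intro i _
    split_ifs <;> simp
  -- for fixed i
  have h2 : ∀ i ∈ I, ∑ W : Finset E, (if s ≤ (TT A I i W).card then wt p W else 0)
      ≤ ∑ Z : Finset E, ∑ T ∈ (jj A I Z).powerset,
          (if s ≤ T.card ∧ T ⊆ A i then wt p Z * (1 / p) ^ T.card else 0) := by
    intro i hi
    rw [← sum_filter]
    have hinj : ∑ W ∈ univ.filter (fun W : Finset E => s ≤ (TT A I i W).card), wt p W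
        ≤ ∑ x ∈ (univ.filter (fun W : Finset E => s ≤ (TT A I i W).card)).image
            (fun W => (⟨W ∪ TT A I i W, TT A I i W⟩ : (_ : Finset E) × Finset E)),
            wt p x.1 * (1 / p) ^ x.2.card := by
      rw [sum_image]
      · apply sum_le_sum
        intro W _
        have hd : (W ∪ TT A I i W) \ TT A I i W = W := by
          ext x
          unfold TT
          simp only [mem_sdiff, mem_union]
          tauto
        have := wt_sdiff hp0 hp1 (Z := W ∪ TT A I i W) (T := TT A I i W) subset_union_right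
        rw [hd] at this
        exact this
      · intro W _ W' _ heq
        simp only [Sigma.mk.injEq, heq_eq_eq] at heq
        have hd : ∀ W : Finset E, (W ∪ TT A I i W) \ TT A I i W = W := by
          intro W
          ext x
          unfold TT
          simp only [mem_sdiff, mem_union]
          tauto
        rw [← hd W, ← hd W', heq.1, heq.2]
    refine hinj.trans ?_
    rw [sum_sigma' univ (fun Z => (jj A I Z).powerset)]
    have h3 : ∑ x ∈ (univ : Finset (Finset E)).sigma (fun Z => (jj A I Z).powerset),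
        (if s ≤ x.2.card ∧ x.2 ⊆ A i then wt p x.1 * (1 / p) ^ x.2.card else 0)
        = ∑ x ∈ ((univ : Finset (Finset E)).sigma (fun Z => (jj A I Z).powerset)).filter
            (fun x => s ≤ x.2.card ∧ x.2 ⊆ A i), wt p x.1 * (1 / p) ^ x.2.card := by
      rw [sum_filter]
    rw [h3]
    apply sum_le_sum_of_subset_of_nonneg
    · intro x hx
      rw [mem_image] at hx
      obtain ⟨W, hW, rfl⟩ := hx
      rw [mem_filter] at hW
      simp only [mem_filter, mem_sigma, mem_univ, mem_powerset, true_and]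
      exact ⟨TT_subset_jj A I hi W, hW.2, TT_subset A I hi W⟩
    · intro x _ _
      exact mul_nonneg (wt_nonneg hp0.le hp1 _) (by positivity)
  rw [h1]
  refine (sum_le_sum h2).trans ?_
  rw [sum_comm]
  have h4 : ∀ Z ∈ (univ : Finset (Finset E)), ∑ i ∈ I, ∑ T ∈ (jj A I Z).powerset,
          (if s ≤ T.card ∧ T ⊆ A i then wt p Z * (1 / p) ^ T.card else 0)
      ≤ wt p Z * ((4 * κ / p) ^ s * N) := by
    intro Z _
    rw [sum_comm]
    have h5 : ∀ T ∈ (jj A I Z).powerset,
        ∑ i ∈ I, (if s ≤ T.card ∧ T ⊆ A i then wt p Z * (1 / p) ^ T.card else 0)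
          ≤ wt p Z * ((κ / p) ^ s * N) := by
      intro T _
      have hwz := wt_nonneg hp0.le hp1 Z
      by_cases hs : s ≤ T.card
      · have : ∑ i ∈ I, (if s ≤ T.card ∧ T ⊆ A i then wt p Z * (1 / p) ^ T.card else 0)
            = ((I.filter (fun i => T ⊆ A i)).card : ℝ) * (wt p Z * (1 / p) ^ T.card) := by
          simp only [hs, true_and]
          rw [← sum_filter, sum_const, nsmul_eq_mul]
        rw [this]
        calc ((I.filter (fun i => T ⊆ A i)).card : ℝ) * (wt p Z * (1 / p) ^ T.card)
            ≤ (κ ^ T.card * N) * (wt p Z * (1 / p) ^ T.card) := by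
              apply mul_le_mul_of_nonneg_right (hS T)
              positivity
          _ = wt p Z * ((κ / p) ^ T.card * N) := by
              rw [one_div, inv_pow, div_pow, div_eq_mul_inv]; ring
          _ ≤ wt p Z * ((κ / p) ^ s * N) := by
              apply mul_le_mul_of_nonneg_left _ hwz
              apply mul_le_mul_of_nonneg_right _ hN
              exact pow_le_pow_of_le_one hr0 hr1 hs
      · have : ∑ i ∈ I, (if s ≤ T.card ∧ T ⊆ A i then wt p Z * (1 / p) ^ T.card else 0) = 0 := by
          apply sum_eq_zero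
          intro i _
          rw [if_neg]
          tauto
        rw [this]
        positivity
    refine (sum_le_sum h5).trans ?_
    rw [sum_const, nsmul_eq_mul, card_powerset]
    have hc := jj_card A I hA Z
    have hwz := wt_nonneg hp0.le hp1 Z
    have h6 : ((2 ^ (jj A I Z).card : ℕ) : ℝ) ≤ 4 ^ s := by
      push_cast
      calc (2 : ℝ) ^ (jj A I Z).card ≤ 2 ^ (2 * s) :=
            pow_le_pow_right₀ (by norm_num) hc
        _ = 4 ^ s := by rw [pow_mul]; norm_num
    calc ((2 ^ (jj A I Z).card : ℕ) : ℝ) * (wt p Z * ((κ / p) ^ s * N))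
        ≤ 4 ^ s * (wt p Z * ((κ / p) ^ s * N)) := by
          apply mul_le_mul_of_nonneg_right h6
          positivity
      _ = wt p Z * ((4 * κ / p) ^ s * N) := by
          rw [mul_div_assoc, mul_pow]; ring
  refine (sum_le_sum h4).trans ?_
  rw [← sum_mul, sum_wt, one_mul]

end Round

open Classical in
/-- The inductive claim. -/
lemma claim {ι : Type} {κ N : ℝ} (hκ : 0 < κ) (hN : 0 < N) (h64 : 64 * κ ≤ 1) (r : ℕ) :
    ∀ (A : ι → Finset E) (I : Finset ι),
    (∀ i ∈ I, (A i).card < 2 ^ r) →
    (∀ S : Finset E, ((I.filter (fun i => S ⊆ A i)).card : ℝ) ≤ κ ^ S.card * N) →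
    (I.card : ℝ) / N - ∑ j ∈ range r, ((1 : ℝ) / 16) ^ (2 ^ j)
      ≤ Q (64 * κ) r (fun W => if (∃ i ∈ I, A i ⊆ W) then (1 : ℝ) else 0) := by
  induction r with
  | zero =>
    intro A I hA hS
    simp only [range_zero, sum_empty, sub_zero, Q]
    rcases I.eq_empty_or_nonempty with h | ⟨i, hi⟩
    · simp [h]
    · have hAi : A i = ∅ := by
        have := hA i hi
        rw [pow_zero] at this
        exact card_eq_zero.1 (by omega)
      rw [if_pos ⟨i, hi, by rw [hAi]⟩]
      have := hS ∅
      simp only [empty_subset, filter_true, card_empty, pow_zero, one_mul] at this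
      rw [div_le_one hN]
      exact this
  | succ r ih =>
    intro A I hA hS
    have hp0 : 0 < 64 * κ := by positivity
    have hround := round A I (κ := κ) (p := 64 * κ) (N := N) (s := 2 ^ r) hκ hN.le hp0 h64
      (by linarith) (fun i hi => by have := hA i hi; rw [pow_succ] at this; omega) hS
    have e1 : 4 * κ / (64 * κ) = 1 / 16 := by field_simp; norm_num
    rw [e1] at hround
    -- lower bound on Q_{r+1}
    have hstep : ∀ W : Finset E,
        (((I.filter (fun i => (TT A I i W).card < 2 ^ r)).card : ℝ) / N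
          - ∑ j ∈ range r, ((1 : ℝ) / 16) ^ (2 ^ j))
        ≤ Q (64 * κ) r (fun W' => if (∃ i ∈ I, A i ⊆ W ∪ W') then (1 : ℝ) else 0) := by
      intro W
      refine (ih (fun i => TT A I i W) (I.filter (fun i => (TT A I i W).card < 2 ^ r))
        (fun i hi => (mem_filter.1 hi).2) ?_).trans ?_
      · intro S
        refine le_trans ?_ (hS S)
        norm_cast
        apply card_le_card
        intro i hi
        simp only [mem_filter] at hi ⊢
        exact ⟨hi.1.1, hi.2.trans (TT_subset A I hi.1.1 W)⟩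
      · apply Q_mono_fun hp0.le h64
        intro W'
        by_cases h : ∃ i ∈ I.filter (fun i => (TT A I i W).card < 2 ^ r), TT A I i W ⊆ W'
        · obtain ⟨i, hi, hi'⟩ := h
          have hiI := (mem_filter.1 hi).1
          have hs := kk_spec A I hiI W
          rw [if_pos ⟨i, hi, hi'⟩, if_pos]
          refine ⟨kk A I i W, hs.1, ?_⟩
          intro x hx
          rw [mem_union]
          by_cases hxW : x ∈ W
          · exact Or.inl hxW
          · exact Or.inr (hi' (by unfold TT; exact mem_sdiff.2 ⟨hx, hxW⟩))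
        · rw [if_neg h]
          split_ifs <;> norm_num
    have hQ : Q (64 * κ) (r + 1) (fun W => if (∃ i ∈ I, A i ⊆ W) then (1 : ℝ) else 0)
        = Ex (64 * κ) (fun W => Q (64 * κ) r
            (fun W' => if (∃ i ∈ I, A i ⊆ W ∪ W') then (1 : ℝ) else 0)) := rfl
    rw [hQ]
    refine le_trans ?_ (Ex_mono_fun hp0.le h64 hstep)
    -- compute
    have hcount : ∀ W : Finset E,
        ((I.filter (fun i => (TT A I i W).card < 2 ^ r)).card : ℝ)
          = I.card - ((I.filter (fun i => 2 ^ r ≤ (TT A I i W).card)).card : ℝ) := by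
      intro W
      have := card_filter_add_card_filter_not (s := I) (fun i => 2 ^ r ≤ (TT A I i W).card)
      simp only [not_le] at this
      have h' : (I.card : ℝ) = ((I.filter (fun i => 2 ^ r ≤ (TT A I i W).card)).card : ℝ)
        + ((I.filter (fun i => (TT A I i W).card < 2 ^ r)).card : ℝ) := by
        exact_mod_cast this.symm
      linarith
    have hlin : Ex (64 * κ) (fun W : Finset E =>
          (((I.filter (fun i => (TT A I i W).card < 2 ^ r)).card : ℝ) / N
          - ∑ j ∈ range r, ((1 : ℝ) / 16) ^ (2 ^ j)))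
        = (I.card : ℝ) / N - ∑ j ∈ range r, ((1 : ℝ) / 16) ^ (2 ^ j)
          - (1 / N) * Ex (64 * κ) (fun W : Finset E =>
              ((I.filter (fun i => 2 ^ r ≤ (TT A I i W).card)).card : ℝ)) := by
      have hsw := sum_wt (E := E) (64 * κ)
      unfold Ex
      rw [mul_sum]
      have : (I.card : ℝ) / N - ∑ j ∈ range r, ((1 : ℝ) / 16) ^ (2 ^ j)
          = ∑ W : Finset E, wt (64 * κ) W *
            ((I.card : ℝ) / N - ∑ j ∈ range r, ((1 : ℝ) / 16) ^ (2 ^ j)) := by
        rw [← sum_mul, hsw, one_mul]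
      rw [this, ← sum_sub_distrib]
      apply sum_congr rfl
      intro W _
      beta_reduce
      rw [hcount W]
      ring
    rw [hlin, sum_range_succ]
    have : (1 / N) * Ex (64 * κ) (fun W : Finset E =>
              ((I.filter (fun i => 2 ^ r ≤ (TT A I i W).card)).card : ℝ))
        ≤ (1 / 16) ^ (2 ^ r) := by
      calc _ ≤ (1 / N) * ((1 / 16) ^ (2 ^ r) * N) :=
            mul_le_mul_of_nonneg_left hround (by positivity)
        _ = _ := by field_simp
    linarith

lemma sum_eps (r : ℕ) : ∑ j ∈ range r, ((1 : ℝ) / 16) ^ (2 ^ j) ≤ 1 / 2 := by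
  have h : ∀ j : ℕ, ((1 : ℝ) / 16) ^ (2 ^ j) ≤ (1 / 4) * (1 / 2) ^ j := by
    intro j
    induction j with
    | zero => norm_num
    | succ j ih =>
      rw [pow_succ, pow_mul]
      have h0 : (0 : ℝ) ≤ (1 / 16) ^ (2 ^ j) := by positivity
      have h1 : ((1 : ℝ) / 16) ^ (2 ^ j) ≤ 1 / 16 := by
        calc ((1 : ℝ) / 16) ^ (2 ^ j) ≤ (1 / 16) ^ 1 :=
              pow_le_pow_of_le_one (by norm_num) (by norm_num) Nat.one_le_two_pow
          _ = 1 / 16 := by norm_num
      rw [pow_succ (1 / 2 : ℝ) j]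
      nlinarith [pow_pos (by norm_num : (0 : ℝ) < 1 / 2) j]
  calc ∑ j ∈ range r, ((1 : ℝ) / 16) ^ (2 ^ j) ≤ ∑ j ∈ range r, (1 / 4) * (1 / 2) ^ j :=
        sum_le_sum fun j _ => h j
    _ = (1 / 4) * ∑ j ∈ range r, ((1 : ℝ) / 2) ^ j := by rw [mul_sum]
    _ ≤ (1 / 4) * 2 := by
        apply mul_le_mul_of_nonneg_left _ (by norm_num)
        have := sum_geometric_two_le r
        exact this
    _ = 1 / 2 := by norm_num

end Vale.Agent.P064.SpreadB

namespace Vale.Agent.P064

open Finset SpreadB

/-- Part B: the spread lemma. -/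
theorem partB : PartB := by
  classical
  intro E ι _ _ _ _ A κ r p hκ hA hS hrp hp1
  have hgoal : (∑ W : Finset E,
      if (∃ i, A i ⊆ W) then p ^ W.card * (1 - p) ^ (Fintype.card E - W.card) else 0)
      = Ex p (fun W => if (∃ i ∈ (univ : Finset ι), A i ⊆ W) then (1 : ℝ) else 0) := by
    unfold Ex wt
    apply sum_congr rfl
    intro W _
    beta_reduce
    by_cases h : ∃ i, A i ⊆ W
    · rw [if_pos h, if_pos (by simpa using h), mul_one]
    · rw [if_neg h, if_neg (by simpa using h), mul_zero]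
  rw [hgoal]
  have hmono : Monotone (fun W : Finset E =>
      if (∃ i ∈ (univ : Finset ι), A i ⊆ W) then (1 : ℝ) else 0) := by
    intro W W' hW
    by_cases h : ∃ i ∈ (univ : Finset ι), A i ⊆ W
    · obtain ⟨i, hi, hi'⟩ := h
      simp only
      rw [if_pos ⟨i, hi, hi'⟩, if_pos ⟨i, hi, hi'.trans hW⟩]
    · simp only
      rw [if_neg h]
      split_ifs <;> norm_num
  have hN : (0 : ℝ) < Fintype.card ι := by
    exact_mod_cast Fintype.card_pos
  rcases Nat.eq_zero_or_pos r with hr | hr
  · subst hr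
    have hp0 : 0 ≤ p := by simpa using hrp
    refine le_trans ?_ (Ex_mono le_rfl hp0 hp1 hmono)
    rw [Ex_zero]
    obtain ⟨i⟩ := (inferInstance : Nonempty ι)
    have hAi : A i = ∅ := by
      have := hA i
      rw [pow_zero] at this
      exact card_eq_zero.1 (by omega)
    rw [if_pos ⟨i, mem_univ i, by rw [hAi]⟩]
    norm_num
  · have hr1 : (1 : ℝ) ≤ r := by exact_mod_cast hr
    have h64 : 64 * κ ≤ 1 := by nlinarith
    have hq0 : 0 ≤ 1 - (1 - 64 * κ) ^ r := by
      have := pow_le_one₀ (n := r) (by linarith : 0 ≤ 1 - 64 * κ) (by linarith)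
      linarith
    have hqp : 1 - (1 - 64 * κ) ^ r ≤ p := by
      have := one_add_mul_le_pow (a := -(64 * κ)) (by linarith) r
      have e : (1 : ℝ) + -(64 * κ) = 1 - 64 * κ := by ring
      rw [e] at this
      linarith
    refine le_trans ?_ (Ex_mono hq0 hqp hp1 hmono)
    rw [← Q_eq]
    refine le_trans ?_ (claim hκ hN h64 r A univ (fun i _ => hA i) ?_)
    · have h1 := sum_eps r
      have h2 : ((univ : Finset ι).card : ℝ) / (Fintype.card ι : ℝ) = 1 := by
        rw [card_univ]
        field_simp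
      rw [h2]
      linarith
    · intro S
      have := hS S
      convert this

end Vale.Agent.P064
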