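import Vale.Agent.P064.Trans

namespace Vale.Agent.P064

open Finset
open scoped Pointwise

set_option linter.unusedSectionVars false

section Emb

variable {V : Type} {n : ℕ}

open Classical in
/-- the edges of an embedded graph -/
noncomputable def eK (H : SimpleGraph V) (ι : V ↪ Fin n) : Finset (EE n) :=
  univ.filter (fun e => ∃ a b, H.Adj a b ∧ e.1 = s(ι a, ι b))

lemma mem_eK {H : SimpleGraph V} {ι : V ↪ Fin n} {e : EE n} :
    e ∈ eK H ι ↔ ∃ a b, H.Adj a b ∧ e.1 = s(ι a, ι b) := by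
  classical
  unfold eK
  simp

lemma pair_inj {ι : V ↪ Fin n} {a b c d : V} (h : s(ι a, ι b) = s(ι c, ι d)) :
    (a = c ∧ b = d) ∨ (a = d ∧ b = c) := by
  rw [Sym2.eq_iff] at h
  rcases h with ⟨h1, h2⟩ | ⟨h1, h2⟩
  · exact Or.inl ⟨ι.injective h1, ι.injective h2⟩
  · exact Or.inr ⟨ι.injective h1, ι.injective h2⟩

lemma adj_of_mem {H : SimpleGraph V} {ι : V ↪ Fin n} {K : Finset (EE n)} (hK : K ⊆ eK H ι)
    {a b : V} (h : ∃ e ∈ K, e.1 = s(ι a, ι b)) : H.Adj a b := by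
  obtain ⟨e, he, hab⟩ := h
  obtain ⟨c, d, hcd, hecd⟩ := mem_eK.mp (hK he)
  rw [hab] at hecd
  rcases pair_inj hecd with ⟨rfl, rfl⟩ | ⟨rfl, rfl⟩
  · exact hcd
  · exact hcd.symm

/-- the subgraph of `H` (without isolated vertices) spanned by a set of edges -/
def fK (H : SimpleGraph V) (ι : V ↪ Fin n) (K : Finset (EE n)) (hK : K ⊆ eK H ι) :
    H.Subgraph where
  verts := {v | ∃ w, ∃ e ∈ K, e.1 = s(ι v, ι w)}
  Adj a b := ∃ e ∈ K, e.1 = s(ι a, ι b)
  adj_sub h := adj_of_mem hK h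
  edge_vert h := ⟨_, h⟩
  symm := ⟨fun a b h => by
    obtain ⟨e, he, hab⟩ := h
    exact ⟨e, he, by rw [hab]; exact Sym2.eq_swap⟩⟩

open Classical in
/-- edge set of a subgraph of a graph on `Fin n` -/
noncomputable def es {G : SimpleGraph (Fin n)} (S : G.Subgraph) : Finset (EE n) :=
  univ.filter (fun e => e.1 ∈ S.edgeSet)

lemma mem_es {G : SimpleGraph (Fin n)} {S : G.Subgraph} {e : EE n} :
    e ∈ es S ↔ e.1 ∈ S.edgeSet := by
  classical
  unfold es
  simp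

lemma es_sub {G : SimpleGraph (Fin n)} (S : G.Subgraph) : es S ⊆ tW G := by
  intro e he
  rw [mem_es] at he
  rw [mem_tW]
  exact S.edgeSet_subset he

/-- an isomorphic copy has its edge set in the orbit -/
lemma es_orbit {H : SimpleGraph V} {ι : V ↪ Fin n} {K : Finset (EE n)} (hK : K ⊆ eK H ι)
    {G : SimpleGraph (Fin n)} (S : G.Subgraph) (φ : S.coe ≃g (fK H ι K hK).coe) [Finite V] :
    ∃ σ : Equiv.Perm (Fin n), es S = K.image (fun e => σ • e) := by
  obtain ⟨σ, hσ⟩ := Equiv.Perm.exists_extending_pair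
    (fun v : (fK H ι K hK).verts => ι v.1) (fun v => (φ.symm v).1)
    (fun a b h => Subtype.ext (ι.injective h))
    (fun a b h => φ.symm.injective (Subtype.ext h))
  refine ⟨σ, ?_⟩
  ext e
  rw [mem_es, Finset.mem_image]
  constructor
  · intro he
    obtain ⟨x, hx⟩ := e
    induction x using Sym2.ind with
    | _ a b =>
      have hab : S.Adj a b := he
      have ha : a ∈ S.verts := S.edge_vert hab
      have hb : b ∈ S.verts := S.edge_vert (S.symm.symm _ _ hab)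
      have h1 : S.coe.Adj ⟨a, ha⟩ ⟨b, hb⟩ := hab
      have h2 : (fK H ι K hK).coe.Adj (φ ⟨a, ha⟩) (φ ⟨b, hb⟩) := φ.map_rel_iff.mpr h1
      obtain ⟨e', he', hee⟩ := (h2 : ∃ e ∈ K, e.1 = s(ι (φ ⟨a, ha⟩).1, ι (φ ⟨b, hb⟩).1))
      refine ⟨e', he', EE.ext' ?_⟩
      rw [smul_val, hee, Sym2.map_mk]
      have e1 := hσ (φ ⟨a, ha⟩)
      have e2 := hσ (φ ⟨b, hb⟩)
      simp only [RelIso.symm_apply_apply] at e1 e2
      show s(σ (ι (φ ⟨a, ha⟩).1), σ (ι (φ ⟨b, hb⟩).1)) = s(a, b)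
      rw [e1, e2]
  · rintro ⟨e', he', rfl⟩
    obtain ⟨a, b, hab, hee⟩ := mem_eK.mp (hK he')
    have hF : (fK H ι K hK).Adj a b := ⟨e', he', hee⟩
    have ha : a ∈ (fK H ι K hK).verts := (fK H ι K hK).edge_vert hF
    have hb : b ∈ (fK H ι K hK).verts :=
      (fK H ι K hK).edge_vert ((fK H ι K hK).symm.symm _ _ hF)
    have h1 : (fK H ι K hK).coe.Adj ⟨a, ha⟩ ⟨b, hb⟩ := hF
    have h2 : S.coe.Adj (φ.symm ⟨a, ha⟩) (φ.symm ⟨b, hb⟩) := φ.symm.map_rel_iff.mpr h1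
    have h3 : S.Adj (φ.symm ⟨a, ha⟩).1 (φ.symm ⟨b, hb⟩).1 := h2
    rw [smul_val, hee, Sym2.map_mk]
    have e1 := hσ ⟨a, ha⟩
    have e2 := hσ ⟨b, hb⟩
    simp only at e1 e2
    show s(σ (ι a), σ (ι b)) ∈ S.edgeSet
    rw [e1, e2]
    exact h3

lemma verts_eq {H : SimpleGraph V} {ι : V ↪ Fin n} {K : Finset (EE n)} (hK : K ⊆ eK H ι)
    {G : SimpleGraph (Fin n)} (S : G.Subgraph) (φ : S.coe ≃g (fK H ι K hK).coe) :
    S.verts = {a | ∃ b, S.Adj a b} := by
  ext a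
  constructor
  · intro ha
    obtain ⟨w, hw⟩ := (φ ⟨a, ha⟩).2
    have hF : (fK H ι K hK).Adj (φ ⟨a, ha⟩).1 w := hw
    have hwv : w ∈ (fK H ι K hK).verts :=
      (fK H ι K hK).edge_vert ((fK H ι K hK).symm.symm _ _ hF)
    have h1 : (fK H ι K hK).coe.Adj (φ ⟨a, ha⟩) ⟨w, hwv⟩ := hF
    have h2 := φ.symm.map_rel_iff.mpr h1
    rw [show φ.symm (φ ⟨a, ha⟩) = ⟨a, ha⟩ from φ.symm_apply_apply _] at h2
    exact ⟨_, h2⟩
  · rintro ⟨b, hb⟩
    exact S.edge_vert hb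

lemma es_inj {H : SimpleGraph V} {ι : V ↪ Fin n} {K : Finset (EE n)} (hK : K ⊆ eK H ι)
    {G : SimpleGraph (Fin n)} {S S' : G.Subgraph} (φ : S.coe ≃g (fK H ι K hK).coe)
    (φ' : S'.coe ≃g (fK H ι K hK).coe) (h : es S = es S') : S = S' := by
  have hadj : ∀ a b, S.Adj a b ↔ S'.Adj a b := by
    intro a b
    by_cases hab : a = b
    · subst hab
      exact ⟨fun h => absurd rfl (S.adj_sub h).ne, fun h => absurd rfl (S'.adj_sub h).ne⟩
    · have hd : ¬ (s(a, b) : Sym2 (Fin n)).IsDiag := by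
        rw [Sym2.mk_isDiag_iff]; exact hab
      have h1 : (⟨s(a, b), hd⟩ : EE n) ∈ es S ↔ (⟨s(a, b), hd⟩ : EE n) ∈ es S' := by rw [h]
      rw [mem_es, mem_es] at h1
      exact h1
  have hA : S.Adj = S'.Adj := by
    funext a b
    exact propext (hadj a b)
  refine SimpleGraph.Subgraph.ext ?_ hA
  rw [verts_eq hK S φ, verts_eq hK S' φ', hA]

open Classical in
lemma copies_le {H : SimpleGraph V} {ι : V ↪ Fin n} {K : Finset (EE n)} (hK : K ⊆ eK H ι)
    [Finite V] (G : SimpleGraph (Fin n)) :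
    copies G (fK H ι K hK).coe
      ≤ ((univ.image (fun g : Equiv.Perm (Fin n) => K.image (fun e => g • e))).filter
        (fun K' => K' ⊆ tW G)).card := by
  unfold copies
  set T := (univ.image (fun g : Equiv.Perm (Fin n) => K.image (fun e => g • e))).filter
        (fun K' => K' ⊆ tW G) with hT
  have hmem : ∀ S : {S : G.Subgraph // Nonempty (S.coe ≃g (fK H ι K hK).coe)}, es S.1 ∈ T := by
    rintro ⟨S, ⟨φ⟩⟩
    obtain ⟨σ, hσ⟩ := es_orbit hK S φ
    rw [hT, Finset.mem_filter]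
    exact ⟨Finset.mem_image.mpr ⟨σ, Finset.mem_univ _, hσ.symm⟩, es_sub S⟩
  have h := Nat.card_le_card_of_injective
    (fun S : {S : G.Subgraph // Nonempty (S.coe ≃g (fK H ι K hK).coe)} =>
      (⟨es S.1, hmem S⟩ : {K' // K' ∈ T})) (by
      rintro ⟨S, ⟨φ⟩⟩ ⟨S', ⟨φ'⟩⟩ h
      have h2 : es S = es S' := by
        have := congrArg Subtype.val h
        exact this
      exact Subtype.ext (es_inj hK φ φ' h2))
  rw [Nat.card_eq_fintype_card (α := {K' // K' ∈ T}), Fintype.card_coe] at h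
  exact h

/-- first moment bound -/
lemma gnpE_copies_le {H : SimpleGraph V} {ι : V ↪ Fin n} {K : Finset (EE n)} (hK : K ⊆ eK H ι)
    [Finite V] {p : ℝ} (hp0 : 0 ≤ p) (hp1 : p ≤ 1) :
    gnpE n p (fun G => (copies G (fK H ι K hK).coe : ℝ))
      ≤ ((univ.image (fun g : Equiv.Perm (Fin n) => K.image (fun e => g • e))).card : ℝ)
        * p ^ K.card := by
  classical
  rw [gnpE_eq]
  set O := univ.image (fun g : Equiv.Perm (Fin n) => K.image (fun e => g • e)) with hO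
  have hq : 0 ≤ 1 - p := by linarith
  have h1 : ∀ W : Finset (EE n), p ^ W.card * (1 - p) ^ (Fintype.card (EE n) - W.card)
      * (copies (gr W) (fK H ι K hK).coe : ℝ)
      ≤ ∑ K' ∈ O, if K' ⊆ W then p ^ W.card * (1 - p) ^ (Fintype.card (EE n) - W.card)
        else 0 := by
    intro W
    have h2 := copies_le hK (gr W)
    rw [tW_gr] at h2
    have h3 : ((copies (gr W) (fK H ι K hK).coe : ℕ) : ℝ)
        ≤ ((O.filter (fun K' => K' ⊆ W)).card : ℝ) := by exact_mod_cast h2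
    have h4 := mul_le_mul_of_nonneg_left h3
      (show 0 ≤ p ^ W.card * (1 - p) ^ (Fintype.card (EE n) - W.card) by positivity)
    refine h4.trans (le_of_eq ?_)
    rw [← Finset.sum_filter, Finset.sum_const, nsmul_eq_mul]
    ring
  refine (Finset.sum_le_sum (fun W _ => h1 W)).trans (le_of_eq ?_)
  rw [Finset.sum_comm]
  have h5 : ∀ K' ∈ O, ∑ W : Finset (EE n), (if K' ⊆ W then
      p ^ W.card * (1 - p) ^ (Fintype.card (EE n) - W.card) else 0) = p ^ K.card := by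
    intro K' hK'
    rw [sum_superset K' p]
    obtain ⟨g, _, rfl⟩ := Finset.mem_image.mp hK'
    rw [Finset.card_image_of_injective _ (MulAction.injective g)]
  rw [Finset.sum_congr rfl h5, Finset.sum_const, nsmul_eq_mul]

/-- containing an image of the edge set means containing a copy -/
lemma copies_pos {H : SimpleGraph V} {ι : V ↪ Fin n} {W : Finset (EE n)}
    {g : Equiv.Perm (Fin n)} (h : (eK H ι).image (fun e => g • e) ⊆ W) :
    0 < copies (gr W) H := by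
  have hc : H.IsContained (gr W) := by
    refine ⟨⟨⟨fun v => g (ι v), ?_⟩, fun a b hab => ι.injective (g.injective hab)⟩⟩
    intro a b hab
    rw [gr_adj]
    have hd : ¬ (s(ι a, ι b) : Sym2 (Fin n)).IsDiag := by
      rw [Sym2.mk_isDiag_iff]
      exact fun h => hab.ne (ι.injective h)
    have hm : (⟨s(ι a, ι b), hd⟩ : EE n) ∈ eK H ι := mem_eK.mpr ⟨a, b, hab, rfl⟩
    refine ⟨g • ⟨s(ι a, ι b), hd⟩, h (Finset.mem_image_of_mem _ hm), ?_⟩
    rw [smul_val, Sym2.map_mk]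
  obtain ⟨S, ⟨φ⟩⟩ := SimpleGraph.isContained_iff_exists_iso_subgraph.mp hc
  unfold copies
  have : Nonempty {S : (gr W).Subgraph // Nonempty (S.coe ≃g H)} := ⟨⟨S, ⟨φ.symm⟩⟩⟩
  exact Nat.card_pos

lemma copies_top_pos {W' : Type} (F : SimpleGraph W') (ι : W' ↪ Fin n) :
    0 < copies (⊤ : SimpleGraph (Fin n)) F := by
  have hc : F.IsContained (⊤ : SimpleGraph (Fin n)) := by
    refine ⟨⟨⟨fun v => ι v, ?_⟩, fun a b hab => ι.injective hab⟩⟩
    intro a b hab
    rw [SimpleGraph.top_adj]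
    exact fun h => hab.ne (ι.injective h)
  obtain ⟨S, ⟨φ⟩⟩ := SimpleGraph.isContained_iff_exists_iso_subgraph.mp hc
  unfold copies
  have : Nonempty {S : (⊤ : SimpleGraph (Fin n)).Subgraph // Nonempty (S.coe ≃g F)} :=
    ⟨⟨S, ⟨φ.symm⟩⟩⟩
  exact Nat.card_pos

end Emb

end Vale.Agent.P064
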