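import Vale.Agent.P064.Wsum

namespace Vale.Agent.P064

open Finset Real
open scoped Pointwise

set_option linter.unusedSectionVars false

section Step

variable {Ω : Type*} [Fintype Ω] {σ : Type*} [Fintype σ] [DecidableEq σ] {X : Type*} [Fintype X]
  [DecidableEq X]

/-- the part of the weight on which `e ∈ Z` -/
noncomputable def rst (w : Ω → ℝ) (Z : Ω → Finset X) (e : X) (ω : Ω) : ℝ :=
  if e ∈ Z ω then w ω else 0

lemma rst_nonneg {w : Ω → ℝ} (hw : ∀ ω, 0 ≤ w ω) (Z : Ω → Finset X) (e : X) (ω : Ω) :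
    0 ≤ rst w Z e ω := by
  unfold rst; split_ifs; exacts [hw ω, le_rfl]

lemma rst_le {w : Ω → ℝ} (hw : ∀ ω, 0 ≤ w ω) (Z : Ω → Finset X) (e : X) (ω : Ω) :
    rst w Z e ω ≤ w ω := by
  unfold rst; split_ifs; exacts [le_rfl, hw ω]

lemma mass_le_of_le {α : Type*} [DecidableEq α] {w w' : Ω → ℝ} (h : ∀ ω, w ω ≤ w' ω)
    (S : Ω → α) (s : α) : mass w S s ≤ mass w' S s := by
  unfold mass
  refine Finset.sum_le_sum (fun ω _ => ?_)
  split_ifs
  exacts [h ω, le_rfl]

lemma pin_mass (w : Ω → ℝ) (S : Ω → σ) (Z : Ω → Finset X) (s : σ) (e : X) :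
    pin (mass w (fun ω => (S ω, Z ω))) s e = mass (rst w Z e) S s := by
  have h := sum_mass_mul w (fun ω => (S ω, Z ω))
    (fun y : σ × Finset X => if y.1 = s ∧ e ∈ y.2 then (1:ℝ) else 0)
  have h2 : ∑ ω, w ω * (if S ω = s ∧ e ∈ Z ω then (1:ℝ) else 0) = mass (rst w Z e) S s := by
    unfold mass rst
    refine Finset.sum_congr rfl (fun ω _ => ?_)
    by_cases h1 : S ω = s <;> by_cases h2 : e ∈ Z ω <;> simp [h1, h2]
  rw [← h2, ← h, Fintype.sum_prod_type, Finset.sum_eq_single s]
  · unfold pin
    refine Finset.sum_congr rfl (fun z _ => ?_)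
    by_cases h : e ∈ z <;> simp [h]
  · intro s' _ hs'
    refine Finset.sum_eq_zero (fun z _ => ?_)
    simp [hs']
  · intro h; exact absurd (Finset.mem_univ _) h

/-- Step 1: upper bound on the conditional entropy of one coordinate. -/
theorem stepA {w : Ω → ℝ} (hw : ∀ ω, 0 ≤ w ω) (S : Ω → σ) (Z J : Ω → Finset X)
    (hJZ : ∀ ω, w ω ≠ 0 → J ω ⊆ Z ω) (e : X) {α : ℝ} (hα : 0 < α) (ψ : σ → ℝ)
    (hψ : ∀ s, 0 < ψ s) :
    cent w (fun ω => decide (e ∈ J ω)) (fun ω => (S ω, Z ω))
      ≤ ∑ s, mass (rst w J e) S s * (log (1 / α) - log (ψ s))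
        + α * ∑ s, mass (rst w Z e) S s * ψ s := by
  set t : σ × Finset X → ℝ := fun y => if e ∈ y.2 then α * ψ y.1 else 0 with ht
  have ht0 : ∀ y, 0 ≤ t y := by
    intro y
    simp only [ht]
    split_ifs
    · exact (mul_pos hα (hψ _)).le
    · exact le_rfl
  have h := gibbsC hw (fun ω => decide (e ∈ J ω)) (fun ω => (S ω, Z ω))
    (fun y b => if b then t y / (1 + t y) else 1 / (1 + t y)) ?_ ?_ ?_
  · refine h.trans ?_
    have e1 := sum_mass_mul (rst w J e) S (fun s => log (1 / α) - log (ψ s))
    have e2 := sum_mass_mul (rst w Z e) S (fun s => ψ s)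
    rw [e1, e2, Finset.mul_sum, ← Finset.sum_add_distrib, ← Finset.sum_neg_distrib]
    refine Finset.sum_le_sum (fun ω _ => ?_)
    by_cases h0 : w ω = 0
    · simp [rst, h0]
    have hwp : 0 < w ω := lt_of_le_of_ne (hw ω) (Ne.symm h0)
    have hlog : ∀ x : ℝ, 0 ≤ x → log (1 + x) ≤ x := by
      intro x hx
      have := Real.log_le_sub_one_of_pos (show 0 < 1 + x by linarith)
      linarith
    by_cases hJ : e ∈ J ω
    · have hZ : e ∈ Z ω := hJZ ω h0 hJ
      have htv : t (S ω, Z ω) = α * ψ (S ω) := by simp [ht, hZ]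
      have hp := hψ (S ω)
      simp only [rst, hJ, hZ, if_true, decide_true, htv]
      rw [Real.log_div (by positivity) (by positivity), Real.log_mul hα.ne' hp.ne', one_div,
        Real.log_inv]
      have := mul_le_mul_of_nonneg_left (hlog (α * ψ (S ω)) (by positivity)) hwp.le
      nlinarith
    · simp only [rst, hJ, if_false, decide_false, zero_mul, zero_add, Bool.false_eq_true]
      have hp := hψ (S ω)
      by_cases hZ : e ∈ Z ω
      · have htv : t (S ω, Z ω) = α * ψ (S ω) := by simp [ht, hZ]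
        simp only [hZ, if_true, htv]
        rw [one_div, Real.log_inv]
        have := mul_le_mul_of_nonneg_left (hlog (α * ψ (S ω)) (by positivity)) hwp.le
        nlinarith
      · have htv : t (S ω, Z ω) = 0 := by simp [ht, hZ]
        simp only [hZ, if_false, htv]
        simp
  · intro y b
    have := ht0 y
    show (0:ℝ) ≤ if b then t y / (1 + t y) else 1 / (1 + t y)
    split_ifs <;> positivity
  · intro y
    have := ht0 y
    show ∑ b : Bool, (if b then t y / (1 + t y) else 1 / (1 + t y)) ≤ 1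
    rw [Fintype.sum_bool]
    simp only [if_true, Bool.false_eq_true, if_false]
    rw [← add_div, div_le_one (by positivity)]
    linarith
  · intro ω h0
    have hz := ht0 (S ω, Z ω)
    by_cases hJ : e ∈ J ω
    · have hZ : e ∈ Z ω := hJZ ω h0 hJ
      have htv : t (S ω, Z ω) = α * ψ (S ω) := by simp [ht, hZ]
      have hp := hψ (S ω)
      simp only [hJ, decide_true, if_true, htv]
      positivity
    · simp only [hJ, decide_false, if_false, Bool.false_eq_true]
      positivity

/-- Step 2: lower bound on the gain of information. -/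
theorem stepB {w : Ω → ℝ} (hw : ∀ ω, 0 ≤ w ω) (S : Ω → σ) (Z J : Ω → Finset X)
    (hJZ : ∀ ω, w ω ≠ 0 → J ω ⊆ Z ω) (e : X) :
    ∑ s, mass (rst w J e) S s * (-log (mass (rst w Z e) S s / mass w S s))
      ≤ cent w (fun ω => decide (e ∈ J ω)) S
        - cent w (fun ω => decide (e ∈ J ω)) (fun ω => (S ω, Z ω)) := by
  set ρ := mass w S with hρ
  set P1 := mass (rst w Z e) S with hP1
  set Q1 := mass (rst w J e) S with hQ1
  have hρ0 : ∀ s, 0 ≤ ρ s := mass_nonneg hw _
  have hP0 : ∀ s, 0 ≤ P1 s := mass_nonneg (rst_nonneg hw Z e) _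
  have hQ0 : ∀ s, 0 ≤ Q1 s := mass_nonneg (rst_nonneg hw J e) _
  have hPρ : ∀ s, P1 s ≤ ρ s := mass_le_of_le (rst_le hw Z e) S
  have hQP : ∀ s, Q1 s ≤ P1 s := by
    refine mass_le_of_le (fun ω => ?_) S
    by_cases h0 : w ω = 0
    · simp [rst, h0]
    · unfold rst
      by_cases hJ : e ∈ J ω
      · simp [hJ, hJZ ω h0 hJ]
      · simp only [hJ, if_false]
        split_ifs
        exacts [hw ω, le_rfl]
  -- conditional densities
  set qb : σ → ℝ := fun s => Q1 s / ρ s with hqb
  set D : σ → ℝ := fun s => 1 - qb s + Q1 s / P1 s with hD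
  have hqb0 : ∀ s, 0 ≤ qb s := fun s => div_nonneg (hQ0 s) (hρ0 s)
  have hqb1 : ∀ s, qb s ≤ 1 := fun s => div_le_one_of_le₀ ((hQP s).trans (hPρ s)) (hρ0 s)
  have hQP0 : ∀ s, 0 ≤ Q1 s / P1 s := fun s => div_nonneg (hQ0 s) (hP0 s)
  have hD0 : ∀ s, 0 ≤ D s := fun s => by
    simp only [hD]
    linarith [hqb1 s, hQP0 s]
  have hg := gibbsC hw (fun ω => decide (e ∈ J ω)) (fun ω => (S ω, Z ω))
    (fun y b => if e ∈ y.2 then (if b then (Q1 y.1 / P1 y.1) / D y.1 else (1 - qb y.1) / D y.1)
      else (if b then 0 else 1)) ?_ ?_ ?_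
  · have hmt : ∀ s, mass w (fun ω => (decide (e ∈ J ω), S ω)) (true, s) = Q1 s := by
      intro s
      simp only [hQ1]
      unfold mass rst
      refine Finset.sum_congr rfl (fun ω _ => ?_)
      by_cases h1 : S ω = s <;> by_cases h2 : e ∈ J ω <;> simp [h1, h2]
    have hmf : ∀ s, mass w (fun ω => (decide (e ∈ J ω), S ω)) (false, s) = ρ s - Q1 s := by
      intro s
      simp only [hQ1, hρ]
      unfold mass rst
      rw [← Finset.sum_sub_distrib]
      refine Finset.sum_congr rfl (fun ω _ => ?_)
      by_cases h1 : S ω = s <;> by_cases h2 : e ∈ J ω <;> simp [h1, h2]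
    have hc := cent_eq hw (fun ω => decide (e ∈ J ω)) S
    -- pointwise lower bound
    have hpt : ∀ ω, rst w J e ω * (-log (P1 (S ω) / ρ (S ω)))
        - rst w Z e ω * (Q1 (S ω) / P1 (S ω) - qb (S ω))
        + (w ω - rst w Z e ω) * qb (S ω)
        ≤ w ω * log (if e ∈ Z ω then (if decide (e ∈ J ω) then (Q1 (S ω) / P1 (S ω)) / D (S ω)
            else (1 - qb (S ω)) / D (S ω)) else (if decide (e ∈ J ω) then 0 else 1))
          - w ω * log (mass w (fun ω => (decide (e ∈ J ω), S ω)) (decide (e ∈ J ω), S ω)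
              / ρ (S ω)) := by
      intro ω
      by_cases h0 : w ω = 0
      · simp [rst, h0]
      have hwp : 0 < w ω := lt_of_le_of_ne (hw ω) (Ne.symm h0)
      have hρp : 0 < ρ (S ω) := mass_pos hw S h0
      by_cases hJ : e ∈ J ω
      · have hZ : e ∈ Z ω := hJZ ω h0 hJ
        have hQp : 0 < Q1 (S ω) := mass_pos (rst_nonneg hw J e) S (by simp [rst, hJ, h0])
        have hPp : 0 < P1 (S ω) := lt_of_lt_of_le hQp (hQP _)
        have hDp : 0 < D (S ω) := by
          simp only [hD]
          have : 0 < Q1 (S ω) / P1 (S ω) := div_pos hQp hPp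
          linarith [hqb1 (S ω)]
        have hlD := Real.log_le_sub_one_of_pos hDp
        simp only [rst, hJ, hZ, if_true, decide_true, hmt]
        rw [Real.log_div (div_pos hQp hPp).ne' hDp.ne', Real.log_div hQp.ne' hPp.ne',
          Real.log_div hQp.ne' hρp.ne', Real.log_div hPp.ne' hρp.ne']
        have hd : D (S ω) - 1 = Q1 (S ω) / P1 (S ω) - qb (S ω) := by simp only [hD]; ring
        rw [hd] at hlD
        have := mul_le_mul_of_nonneg_left hlD hwp.le
        nlinarith
      · have h1q : 0 < 1 - qb (S ω) := by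
          have : Q1 (S ω) < ρ (S ω) := by
            have h2 : 0 < mass w (fun ω => (decide (e ∈ J ω), S ω)) (decide (e ∈ J ω), S ω) :=
              mass_pos hw (fun ω => (decide (e ∈ J ω), S ω)) h0
            simp only [hJ, decide_false] at h2
            rw [hmf] at h2
            linarith
          have h3 : qb (S ω) < 1 := by
            simp only [hqb]
            rw [div_lt_one hρp]; exact this
          linarith
        have hml : (ρ (S ω) - Q1 (S ω)) / ρ (S ω) = 1 - qb (S ω) := by
          simp only [hqb]; field_simp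
        by_cases hZ : e ∈ Z ω
        · have hDp : 0 < D (S ω) := by
            simp only [hD]
            linarith [hQP0 (S ω)]
          have hlD := Real.log_le_sub_one_of_pos hDp
          simp only [rst, hJ, hZ, if_true, if_false, decide_false, hmf, Bool.false_eq_true, hml]
          rw [Real.log_div h1q.ne' hDp.ne']
          have hd : D (S ω) - 1 = Q1 (S ω) / P1 (S ω) - qb (S ω) := by simp only [hD]; ring
          rw [hd] at hlD
          have := mul_le_mul_of_nonneg_left hlD hwp.le
          nlinarith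
        · simp only [rst, hJ, hZ, if_false, decide_false, hmf, Bool.false_eq_true, hml,
            Real.log_one]
          have hlD := Real.log_le_sub_one_of_pos h1q
          have := mul_le_mul_of_nonneg_left hlD hwp.le
          nlinarith
    have hsum := Finset.sum_le_sum (s := univ) (fun ω _ => hpt ω)
    rw [Finset.sum_sub_distrib, Finset.sum_add_distrib, Finset.sum_sub_distrib] at hsum
    have e1 := sum_mass_mul (rst w J e) S (fun s => -log (P1 s / ρ s))
    have e2 := sum_mass_mul (rst w Z e) S (fun s => Q1 s / P1 s - qb s)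
    have e3 : ∑ ω, (w ω - rst w Z e ω) * qb (S ω) = ∑ s, (ρ s - P1 s) * qb s := by
      have a1 := sum_mass_mul w S qb
      have a2 := sum_mass_mul (rst w Z e) S qb
      simp_rw [sub_mul]
      rw [Finset.sum_sub_distrib, Finset.sum_sub_distrib, ← a1, ← a2]
    rw [← e1, ← e2, e3] at hsum
    have e4 : ∑ s, (ρ s - P1 s) * qb s - ∑ s, P1 s * (Q1 s / P1 s - qb s) = 0 := by
      rw [← Finset.sum_sub_distrib]
      refine Finset.sum_eq_zero (fun s _ => ?_)
      simp only [hqb]
      by_cases hP : P1 s = 0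
      · have hQ : Q1 s = 0 := le_antisymm (by have := hQP s; rwa [hP] at this) (hQ0 s)
        rw [hP, hQ]; simp
      · have hPp : 0 < P1 s := lt_of_le_of_ne (hP0 s) (Ne.symm hP)
        have hρp : 0 < ρ s := lt_of_lt_of_le hPp (hPρ s)
        field_simp
        ring
    have hc' : cent w (fun ω => decide (e ∈ J ω)) S
        = -∑ ω, w ω * log (mass w (fun ω => (decide (e ∈ J ω), S ω)) (decide (e ∈ J ω), S ω)
              / ρ (S ω)) := hc
    rw [hc']
    have e5 : ∑ s, mass (rst w J e) S s * (-log (P1 s / ρ s))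
      = ∑ s, Q1 s * (-log (P1 s / ρ s)) := rfl
    rw [e5] at hsum
    linarith
  · intro y b
    show (0:ℝ) ≤ if e ∈ y.2 then (if b then (Q1 y.1 / P1 y.1) / D y.1 else (1 - qb y.1) / D y.1)
      else (if b then 0 else 1)
    have h1 := hQP0 y.1
    have h2 := hD0 y.1
    have h3 : 0 ≤ 1 - qb y.1 := by linarith [hqb1 y.1]
    split_ifs
    · exact div_nonneg h1 h2
    · exact div_nonneg h3 h2
    · exact le_rfl
    · exact zero_le_one
  · intro y
    show ∑ b : Bool, (if e ∈ y.2 then (if b then (Q1 y.1 / P1 y.1) / D y.1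
      else (1 - qb y.1) / D y.1) else (if b then 0 else 1)) ≤ 1
    rw [Fintype.sum_bool]
    by_cases hy : e ∈ y.2
    · simp only [hy, if_true, Bool.false_eq_true, if_false]
      rw [← add_div]
      have : Q1 y.1 / P1 y.1 + (1 - qb y.1) = D y.1 := by simp only [hD]; ring
      rw [this]
      exact div_self_le_one _
    · simp [hy]
  · intro ω h0
    show (0:ℝ) < if e ∈ Z ω then (if decide (e ∈ J ω) then (Q1 (S ω) / P1 (S ω)) / D (S ω)
            else (1 - qb (S ω)) / D (S ω)) else (if decide (e ∈ J ω) then 0 else 1)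
    have hwp : 0 < w ω := lt_of_le_of_ne (hw ω) (Ne.symm h0)
    have hρp : 0 < ρ (S ω) := mass_pos hw S h0
    by_cases hJ : e ∈ J ω
    · have hZ : e ∈ Z ω := hJZ ω h0 hJ
      have hQp : 0 < Q1 (S ω) := mass_pos (rst_nonneg hw J e) S (by simp [rst, hJ, h0])
      have hPp : 0 < P1 (S ω) := lt_of_lt_of_le hQp (hQP _)
      have hDp : 0 < D (S ω) := by
        simp only [hD]
        have : 0 < Q1 (S ω) / P1 (S ω) := div_pos hQp hPp
        linarith [hqb1 (S ω)]
      simp only [hJ, hZ, if_true, decide_true]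
      exact div_pos (div_pos hQp hPp) hDp
    · by_cases hZ : e ∈ Z ω
      · have h1q : 0 < 1 - qb (S ω) := by
          have : Q1 (S ω) < ρ (S ω) := by
            have h2 : 0 < mass w (fun ω => (decide (e ∈ J ω), S ω)) (decide (e ∈ J ω), S ω) :=
              mass_pos hw (fun ω => (decide (e ∈ J ω), S ω)) h0
            have hmf : mass w (fun ω => (decide (e ∈ J ω), S ω)) (false, S ω)
                = ρ (S ω) - Q1 (S ω) := by
              simp only [hQ1, hρ]
              unfold mass rst
              rw [← Finset.sum_sub_distrib]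
              refine Finset.sum_congr rfl (fun ω' _ => ?_)
              by_cases h1 : S ω' = S ω <;> by_cases h2 : e ∈ J ω' <;> simp [h1, h2]
            simp only [hJ, decide_false] at h2
            rw [hmf] at h2
            linarith
          have h3 : qb (S ω) < 1 := by
            simp only [hqb]
            rw [div_lt_one hρp]; exact this
          linarith
        have hDp : 0 < D (S ω) := by
          simp only [hD]
          linarith [hQP0 (S ω)]
        simp only [hJ, hZ, if_true, decide_false, Bool.false_eq_true, if_false]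
        exact div_pos h1q hDp
      · simp [hJ, hZ]

/-- The combined one-step inequality. -/
theorem stepC {w : Ω → ℝ} (hw : ∀ ω, 0 ≤ w ω) (S : Ω → σ) (Z J : Ω → Finset X)
    (hJZ : ∀ ω, w ω ≠ 0 → J ω ⊆ Z ω) (e : X) {α : ℝ} (hα : 0 < α) :
    cent w (fun ω => decide (e ∈ J ω)) (fun ω => (S ω, Z ω))
      ≤ (∑ ω, rst w J e ω) * log (1 / α)
        + (1 / 3) * (cent w (fun ω => decide (e ∈ J ω)) S
          - cent w (fun ω => decide (e ∈ J ω)) (fun ω => (S ω, Z ω)))
        + α * ∑ s, mass (rst w Z e) S s * psi (mass (rst w Z e) S s / mass w S s) := by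
  have hA := stepA hw S Z J hJZ e hα (fun s => psi (mass (rst w Z e) S s / mass w S s))
    (fun s => psi_pos _)
  have hB := stepB hw S Z J hJZ e
  have e1 : ∑ s, mass (rst w J e) S s * (log (1 / α)
        - log (psi (mass (rst w Z e) S s / mass w S s)))
      ≤ (∑ ω, rst w J e ω) * log (1 / α) + (1 / 3) *
        ∑ s, mass (rst w J e) S s * (-log (mass (rst w Z e) S s / mass w S s)) := by
    rw [← sum_mass (rst w J e) S, Finset.sum_mul, Finset.mul_sum, ← Finset.sum_add_distrib]
    refine Finset.sum_le_sum (fun s _ => ?_)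
    have hρ0 : 0 ≤ mass w S s := mass_nonneg hw _ _
    have hP0 : 0 ≤ mass (rst w Z e) S s := mass_nonneg (rst_nonneg hw Z e) _ _
    have hQ0 : 0 ≤ mass (rst w J e) S s := mass_nonneg (rst_nonneg hw J e) _ _
    have hPρ : mass (rst w Z e) S s ≤ mass w S s := mass_le_of_le (rst_le hw Z e) S s
    have hQP : mass (rst w J e) S s ≤ mass (rst w Z e) S s := by
      refine mass_le_of_le (fun ω => ?_) S s
      by_cases h0 : w ω = 0
      · simp [rst, h0]
      · unfold rst
        by_cases hJ : e ∈ J ω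
        · simp [hJ, hJZ ω h0 hJ]
        · simp only [hJ, if_false]
          split_ifs
          exacts [hw ω, le_rfl]
    by_cases hQ : mass (rst w J e) S s = 0
    · rw [hQ]; simp
    have hQp : 0 < mass (rst w J e) S s := lt_of_le_of_ne hQ0 (Ne.symm hQ)
    have hPp := lt_of_lt_of_le hQp hQP
    have hρp := lt_of_lt_of_le hPp hPρ
    have h3 := log_psi (div_pos hPp hρp) (div_le_one_of_le₀ hPρ hρ0)
    have := mul_le_mul_of_nonneg_left h3 hQ0
    nlinarith
  linarith

end Step

end Vale.Agent.P064
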