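import Vale.Agent.P064.Interface

namespace Vale.Agent.P064

open Finset

/-- edges of the complete graph on `Fin n` -/
structure EE (n : ℕ) where
  /-- the underlying pair -/
  val : Sym2 (Fin n)
  /-- it is not a loop -/
  nd : ¬ val.IsDiag

lemma EE.ext' {n : ℕ} {e f : EE n} (h : e.1 = f.1) : e = f := by
  cases e; cases f; cases h; rfl

instance (n : ℕ) : DecidableEq (EE n) := fun a b =>
  decidable_of_iff (a.val = b.val) ⟨EE.ext', fun h => by rw [h]⟩

/-- identification with the subtype -/
def eeEquiv (n : ℕ) : {e : Sym2 (Fin n) // ¬ e.IsDiag} ≃ EE n where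
  toFun e := ⟨e.1, e.2⟩
  invFun e := ⟨e.1, e.2⟩
  left_inv _ := rfl
  right_inv _ := rfl

instance (n : ℕ) : Fintype (EE n) := Fintype.ofEquiv _ (eeEquiv n)

lemma card_EE (n : ℕ) : Fintype.card (EE n) = n.choose 2 := by
  have := Sym2.card_subtype_not_diag (α := Fin n)
  rw [Fintype.card_fin] at this
  rw [← this]
  exact Fintype.card_congr (eeEquiv n).symm

/-- permutations of the vertices act on the edges -/
instance edgeAction (n : ℕ) : MulAction (Equiv.Perm (Fin n)) (EE n) where
  smul g e := ⟨e.1.map g, fun h => e.2 ((Sym2.isDiag_map g.injective).mp h)⟩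
  one_smul e := by
    apply EE.ext'
    show e.1.map (1 : Equiv.Perm (Fin n)) = e.1
    exact Sym2.map_id' ▸ rfl
  mul_smul g h e := by
    apply EE.ext'
    show e.1.map (g * h : Equiv.Perm (Fin n)) = (e.1.map h).map g
    rw [Sym2.map_map]
    rfl

lemma smul_val {n : ℕ} (g : Equiv.Perm (Fin n)) (e : EE n) : (g • e).1 = e.1.map g := rfl

/-- graph with a given edge set -/
def gr {n : ℕ} (W : Finset (EE n)) : SimpleGraph (Fin n) :=
  SimpleGraph.fromEdgeSet {x | ∃ e ∈ W, e.1 = x}

lemma gr_adj {n : ℕ} (W : Finset (EE n)) (a b : Fin n) :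
    (gr W).Adj a b ↔ ∃ e ∈ W, e.1 = s(a, b) := by
  unfold gr
  rw [SimpleGraph.fromEdgeSet_adj]
  constructor
  · rintro ⟨h, _⟩; exact h
  · rintro ⟨e, he, hab⟩
    refine ⟨⟨e, he, hab⟩, ?_⟩
    rintro rfl
    apply e.2
    rw [hab]
    exact Sym2.mk_isDiag_iff.mpr rfl

open Classical in
/-- edge set of a graph -/
noncomputable def tW {n : ℕ} (G : SimpleGraph (Fin n)) : Finset (EE n) :=
  univ.filter (fun e => e.1 ∈ G.edgeSet)

lemma mem_tW {n : ℕ} {G : SimpleGraph (Fin n)} {e : EE n} : e ∈ tW G ↔ e.1 ∈ G.edgeSet := by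
  classical
  unfold tW
  simp

lemma gr_tW {n : ℕ} (G : SimpleGraph (Fin n)) : gr (tW G) = G := by
  ext a b
  rw [gr_adj]
  constructor
  · rintro ⟨e, he, hab⟩
    rw [mem_tW, hab] at he
    exact he
  · intro h
    refine ⟨⟨s(a, b), ?_⟩, ?_, rfl⟩
    · rw [Sym2.mk_isDiag_iff]; exact h.ne
    · rw [mem_tW]; exact h

lemma tW_gr {n : ℕ} (W : Finset (EE n)) : tW (gr W) = W := by
  ext e
  rw [mem_tW]
  obtain ⟨x, hx⟩ := e
  induction x using Sym2.ind with
  | _ a b =>
    rw [SimpleGraph.mem_edgeSet, gr_adj]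
    constructor
    · rintro ⟨e, he, hab⟩
      have : (⟨s(a, b), hx⟩ : EE n) = e := EE.ext' hab.symm
      rw [this]; exact he
    · intro h
      exact ⟨_, h, rfl⟩

open Classical in
lemma card_tW {n : ℕ} (G : SimpleGraph (Fin n)) : (tW G).card = G.edgeFinset.card := by
  rw [← Finset.card_map (⟨EE.val, fun _ _ h => EE.ext' h⟩ : EE n ↪ Sym2 (Fin n)) (s := tW G)]
  congr 1
  ext x
  simp only [Finset.mem_map, SimpleGraph.mem_edgeFinset]
  constructor
  · rintro ⟨e, he, rfl⟩
    exact mem_tW.mp he
  · intro hx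
    exact ⟨⟨x, G.not_isDiag_of_mem_edgeSet hx⟩, mem_tW.mpr hx, rfl⟩

/-- the equivalence between graphs and edge sets -/
noncomputable def grEquiv (n : ℕ) : SimpleGraph (Fin n) ≃ Finset (EE n) where
  toFun := tW
  invFun := gr
  left_inv := gr_tW
  right_inv := tW_gr

lemma gnpE_eq (n : ℕ) (p : ℝ) (f : SimpleGraph (Fin n) → ℝ) :
    gnpE n p f = ∑ W : Finset (EE n),
      p ^ W.card * (1 - p) ^ (Fintype.card (EE n) - W.card) * f (gr W) := by
  classical
  unfold gnpE
  refine Fintype.sum_equiv (grEquiv n) _ _ (fun G => ?_)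
  show _ = p ^ (tW G).card * (1 - p) ^ (Fintype.card (EE n) - (tW G).card) * f (gr (tW G))
  rw [gr_tW, card_tW, card_EE]

/-- the probability that a random set contains a given set -/
lemma sum_superset {E : Type*} [Fintype E] [DecidableEq E] (K : Finset E) (p : ℝ) :
    ∑ W : Finset E, (if K ⊆ W then p ^ W.card * (1 - p) ^ (Fintype.card E - W.card) else 0)
      = p ^ K.card := by
  have h := Finset.sum_pow_mul_eq_add_pow p (1 - p) Kᶜ
  rw [add_sub_cancel, one_pow] at h
  rw [← Finset.sum_filter]
  have h2 : ∑ W ∈ univ.filter (fun W => K ⊆ W), p ^ W.card * (1 - p) ^ (Fintype.card E - W.card)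
      = ∑ t ∈ Kᶜ.powerset, p ^ K.card * (p ^ t.card * (1 - p) ^ (Kᶜ.card - t.card)) := by
    refine Finset.sum_bij' (fun W _ => W \ K) (fun t _ => t ∪ K) ?_ ?_ ?_ ?_ ?_
    · intro W hW
      simp only [Finset.mem_filter, Finset.mem_univ, true_and, Finset.mem_powerset] at hW ⊢
      intro x hx
      rw [Finset.mem_sdiff] at hx
      exact Finset.mem_compl.mpr hx.2
    · intro t ht
      simp only [Finset.mem_filter, Finset.mem_univ, true_and]
      exact Finset.subset_union_right
    · intro W hW
      simp only [Finset.mem_filter, Finset.mem_univ, true_and] at hW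
      exact Finset.sdiff_union_of_subset hW
    · intro t ht
      rw [Finset.mem_powerset] at ht
      have hd : Disjoint t K := by
        rw [Finset.disjoint_left]
        intro x hx hxK
        exact (Finset.mem_compl.mp (ht hx)) hxK
      rw [Finset.union_sdiff_right]
      exact Finset.sdiff_eq_self_of_disjoint hd
    · intro W hW
      simp only [Finset.mem_filter, Finset.mem_univ, true_and] at hW
      have h3 : W.card = K.card + (W \ K).card := by
        rw [Finset.card_sdiff_of_subset hW]
        have := Finset.card_le_card hW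
        omega
      have h4 : Fintype.card E - W.card = Kᶜ.card - (W \ K).card := by
        rw [Finset.card_compl]; omega
      rw [h4]
      rw [h3, pow_add]
      ring
  rw [h2, ← Finset.mul_sum, h, mul_one]

lemma gnpE_one (n : ℕ) (f : SimpleGraph (Fin n) → ℝ) : gnpE n 1 f = f ⊤ := by
  rw [gnpE_eq, Finset.sum_eq_single univ]
  · have : gr (univ : Finset (EE n)) = ⊤ := by
      ext a b
      rw [gr_adj, SimpleGraph.top_adj]
      constructor
      · rintro ⟨e, _, hab⟩ rfl
        apply e.2
        rw [hab]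
        exact Sym2.mk_isDiag_iff.mpr rfl
      · intro hab
        exact ⟨⟨s(a, b), by rw [Sym2.mk_isDiag_iff]; exact hab⟩, Finset.mem_univ _, rfl⟩
    rw [this, Finset.card_univ]
    simp
  · intro W _ hW
    have : 0 < Fintype.card (EE n) - W.card := by
      have := Finset.card_lt_univ_of_notMem (s := W) (x := (by
        have : ∃ x, x ∉ W := by
          by_contra hcon
          push Not at hcon
          exact hW (Finset.eq_univ_of_forall hcon)
        exact this.choose)) (by
        have : ∃ x, x ∉ W := by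
          by_contra hcon
          push Not at hcon
          exact hW (Finset.eq_univ_of_forall hcon)
        exact this.choose_spec)
      omega
    simp [this.ne']
  · intro h; exact absurd (Finset.mem_univ _) h

end Vale.Agent.P064
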