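import Vale.Agent.P064.Dbl

namespace Vale.Agent.P064

open Finset Real
open scoped Pointwise

set_option linter.unusedSectionVars false

/-- dyadic level of a number in `(0,1]` -/
noncomputable def lv (x : ℝ) : ℕ :=
  open Classical in
  if h : ∃ t : ℕ, (1 / 2 : ℝ) ^ (t + 1) < x ∧ x ≤ (1 / 2) ^ t then h.choose else 0

lemma lv_spec {x : ℝ} (h0 : 0 < x) (h1 : x ≤ 1) :
    (1 / 2 : ℝ) ^ (lv x + 1) < x ∧ x ≤ (1 / 2) ^ (lv x) := by
  have h := exists_nat_pow_near_of_lt_one h0 h1 (by norm_num : (0:ℝ) < 1 / 2) (by norm_num)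
  unfold lv
  rw [dif_pos h]
  exact h.choose_spec

/-- the weight -/
noncomputable def psi (x : ℝ) : ℝ := (4 / 5) ^ (lv x)

lemma psi_pos (x : ℝ) : 0 < psi x := by unfold psi; positivity

lemma psi_le_one (x : ℝ) : psi x ≤ 1 := by
  unfold psi
  exact pow_le_one₀ (by norm_num) (by norm_num)

lemma log_psi {x : ℝ} (h0 : 0 < x) (h1 : x ≤ 1) : -log (psi x) ≤ (1 / 3) * (-log x) := by
  unfold psi
  rw [Real.log_pow]
  have h2 := (lv_spec h0 h1).2
  have h3 : log x ≤ (lv x : ℝ) * log (1 / 2) := by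
    rw [← Real.log_pow]
    exact Real.log_le_log h0 h2
  have h4 : log (1 / 2 : ℝ) ≤ 3 * log (4 / 5) := by
    have : (3 : ℝ) * log (4 / 5) = log ((4 / 5) ^ 3) := by
      rw [Real.log_pow]; norm_num
    rw [this]
    exact Real.log_le_log (by norm_num) (by norm_num)
  have h5 : (lv x : ℝ) * log (1 / 2) ≤ (lv x : ℝ) * (3 * log (4 / 5)) :=
    mul_le_mul_of_nonneg_left h4 (Nat.cast_nonneg _)
  linarith

lemma level_sq {x : ℝ} (h0 : 0 < x) (h1 : x ≤ 1) :
    1 ≤ 9 * (1 - (1 - x) ^ (2 ^ (lv x))) ^ 2 := by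
  have h2 := (lv_spec h0 h1).1
  set t := lv x with ht
  have h3 : (1 : ℝ) / 2 ≤ ((2 ^ t : ℕ) : ℝ) * x := by
    have : (1 / 2 : ℝ) ^ (t + 1) * 2 ^ t = 1 / 2 := by
      rw [pow_succ, mul_assoc, mul_comm (1 / 2 : ℝ), ← mul_assoc, ← mul_pow]; norm_num
    have h4 := mul_le_mul_of_nonneg_right h2.le (show (0:ℝ) ≤ 2 ^ t by positivity)
    push_cast
    linarith
  have hb := one_add_mul_le_pow (show (-2 : ℝ) ≤ x by linarith) (2 ^ t)
  have h5 : (1 - x) ^ (2 ^ t) * (1 + x) ^ (2 ^ t) ≤ 1 := by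
    rw [← mul_pow]
    refine pow_le_one₀ ?_ ?_
    · nlinarith
    · nlinarith
  have h6 : 0 ≤ (1 - x) ^ (2 ^ t) := pow_nonneg (by linarith) _
  have h7 : (1 - x) ^ (2 ^ t) * (3 / 2) ≤ 1 := by
    refine le_trans (mul_le_mul_of_nonneg_left ?_ h6) h5
    linarith
  have h8 : 1 / 3 ≤ 1 - (1 - x) ^ (2 ^ t) := by linarith
  nlinarith

section W

variable (G : Type*) [Group G] [Fintype G] {X : Type*} [Fintype X] [DecidableEq X]
  [MulAction G X] {σ : Type*} [Fintype σ] [DecidableEq σ]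

theorem wsum {H : Finset X} {l A B Φ : ℝ} (hmax : MaxHyp G H l) (hA : 1 ≤ A) (hB : 0 ≤ B)
    (hΦ : 0 ≤ Φ) (hη : B * (log A + 1 / A) ≤ 1 / 10)
    (hpair : PairB G H l A B Φ) {u : σ × Finset X → ℝ} (hu : ∀ x, 0 ≤ u x)
    (h1 : ∑ x, u x = 1) (hs : ∀ x, u x ≠ 0 → x.2 ⊆ H) :
    ∑ s, ∑ e, pin u s e * psi (pin u s e / mass u Prod.fst s)
      ≤ 75 * (Φ + A * mi u + 2 * B * Dd G l (mass u Prod.snd)) := by
  set V := Φ + A * mi u + 2 * B * Dd G l (mass u Prod.snd) with hV
  have hV0 : 0 ≤ V := by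
    have a1 := mi_nonneg hu h1
    have a2 := Dd_nonneg G hmax (mass_nonneg hu _) (by rw [sum_mass, h1]) (mass_snd_supp hs)
    have a3 : 0 ≤ A * mi u := mul_nonneg (by linarith) a1
    have a4 : 0 ≤ 2 * B * Dd G l (mass u Prod.snd) := by positivity
    linarith
  have hng : ∀ t : ℕ, ∑ s, ∑ e, mass u Prod.fst s
      * (1 - (pout u s e / mass u Prod.fst s) ^ (2 ^ t)) ^ 2 ≤ (11 / 5) ^ t * V := by
    intro t
    have h := nogrowth G hmax hA hB hΦ hη (by norm_num) hpair hu h1 hs t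
    have e : (2 + 2 * (1 / 10) : ℝ) = 11 / 5 := by norm_num
    rw [e] at h
    exact h
  set T : ℕ := Finset.sup (univ : Finset (σ × X))
    (fun x => lv (pin u x.1 x.2 / mass u Prod.fst x.1)) with hT
  have hρ0 : ∀ s, 0 ≤ mass u Prod.fst s := mass_nonneg hu _
  have hpt : ∀ s e, pin u s e * psi (pin u s e / mass u Prod.fst s)
      ≤ 9 * ∑ t ∈ range (T + 1), (2 / 5) ^ t
        * (mass u Prod.fst s * (1 - (pout u s e / mass u Prod.fst s) ^ (2 ^ t)) ^ 2) := by
    intro s e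
    have hterm : ∀ t ∈ range (T + 1), (0:ℝ) ≤ (2 / 5) ^ t
        * (mass u Prod.fst s * (1 - (pout u s e / mass u Prod.fst s) ^ (2 ^ t)) ^ 2) := by
      intro t _
      exact mul_nonneg (by positivity) (mul_nonneg (hρ0 s) (sq_nonneg _))
    by_cases h0 : pin u s e = 0
    · rw [h0, zero_mul]
      exact mul_nonneg (by norm_num) (Finset.sum_nonneg hterm)
    have hpin : 0 < pin u s e := lt_of_le_of_ne (pin_nonneg hu s e) (Ne.symm h0)
    have hadd := pin_add_pout u s e
    have hpo := pout_nonneg hu s e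
    have hρ : 0 < mass u Prod.fst s := by linarith
    set x := pin u s e / mass u Prod.fst s with hx
    have hx0 : 0 < x := div_pos hpin hρ
    have hx1 : x ≤ 1 := by
      rw [hx, div_le_one hρ]; linarith
    have hpx : pin u s e = mass u Prod.fst s * x := by
      rw [hx]; field_simp
    have hpox : pout u s e / mass u Prod.fst s = 1 - x := by
      rw [hx]; field_simp; linarith
    have hlt : lv x ∈ range (T + 1) := by
      rw [Finset.mem_range, Nat.lt_succ_iff]
      exact Finset.le_sup (f := fun y : σ × X => lv (pin u y.1 y.2 / mass u Prod.fst y.1))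
        (Finset.mem_univ (s, e))
    have hsingle := Finset.single_le_sum hterm hlt
    have hlev := level_sq hx0 hx1
    have hle : x ≤ (1 / 2) ^ (lv x) := (lv_spec hx0 hx1).2
    rw [hpox] at hsingle
    have h2 : x * psi x ≤ (2 / 5) ^ (lv x) := by
      unfold psi
      have : (2 / 5 : ℝ) ^ (lv x) = (1 / 2) ^ (lv x) * (4 / 5) ^ (lv x) := by
        rw [← mul_pow]; norm_num
      rw [this]
      exact mul_le_mul_of_nonneg_right hle (by positivity)
    calc pin u s e * psi x = mass u Prod.fst s * (x * psi x) := by rw [hpx]; ring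
      _ ≤ mass u Prod.fst s * (2 / 5) ^ (lv x) := mul_le_mul_of_nonneg_left h2 hρ.le
      _ ≤ mass u Prod.fst s * (2 / 5) ^ (lv x) * (9 * (1 - (1 - x) ^ (2 ^ (lv x))) ^ 2) := by
          have : (0:ℝ) ≤ mass u Prod.fst s * (2 / 5) ^ (lv x) := by positivity
          exact le_mul_of_one_le_right this hlev
      _ = 9 * ((2 / 5) ^ (lv x)
        * (mass u Prod.fst s * (1 - (1 - x) ^ (2 ^ (lv x))) ^ 2)) := by ring
      _ ≤ _ := by
          have := mul_le_mul_of_nonneg_left hsingle (show (0:ℝ) ≤ 9 by norm_num)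
          simpa [hpox] using this
  calc ∑ s, ∑ e, pin u s e * psi (pin u s e / mass u Prod.fst s)
      ≤ ∑ s, ∑ e, 9 * ∑ t ∈ range (T + 1), (2 / 5) ^ t
        * (mass u Prod.fst s * (1 - (pout u s e / mass u Prod.fst s) ^ (2 ^ t)) ^ 2) :=
        Finset.sum_le_sum (fun s _ => Finset.sum_le_sum (fun e _ => hpt s e))
    _ = 9 * ∑ t ∈ range (T + 1), (2 / 5) ^ t * (∑ s, ∑ e,
        mass u Prod.fst s * (1 - (pout u s e / mass u Prod.fst s) ^ (2 ^ t)) ^ 2) := by
        simp_rw [← Finset.mul_sum]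
        congr 1
        simp_rw [Finset.mul_sum]
        rw [Finset.sum_comm]
        rw [Finset.sum_comm]
        have e1 : ∀ s : σ, ∑ e : X, ∑ t ∈ range (T + 1), (2 / 5 : ℝ) ^ t
            * (mass u Prod.fst s * (1 - (pout u s e / mass u Prod.fst s) ^ (2 ^ t)) ^ 2)
            = ∑ t ∈ range (T + 1), ∑ e : X, (2 / 5 : ℝ) ^ t
            * (mass u Prod.fst s * (1 - (pout u s e / mass u Prod.fst s) ^ (2 ^ t)) ^ 2) := by
          intro s
          rw [Finset.sum_comm]
        simp_rw [e1]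
        rw [Finset.sum_comm]
    _ ≤ 9 * ∑ t ∈ range (T + 1), (2 / 5) ^ t * ((11 / 5) ^ t * V) := by
        refine mul_le_mul_of_nonneg_left (Finset.sum_le_sum (fun t _ => ?_)) (by norm_num)
        exact mul_le_mul_of_nonneg_left (hng t) (by positivity)
    _ = 9 * ((∑ t ∈ range (T + 1), (22 / 25 : ℝ) ^ t) * V) := by
        congr 1
        rw [Finset.sum_mul]
        refine Finset.sum_congr rfl (fun t _ => ?_)
        rw [← mul_assoc, ← mul_pow]
        norm_num
    _ ≤ 9 * ((25 / 3) * V) := by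
        refine mul_le_mul_of_nonneg_left (mul_le_mul_of_nonneg_right ?_ hV0) (by norm_num)
        rw [geom_sum_eq (by norm_num)]
        have : (0:ℝ) ≤ (22 / 25) ^ (T + 1) := by positivity
        rw [div_le_iff_of_neg (by norm_num)]
        linarith
    _ = 75 * V := by ring

end W

end Vale.Agent.P064
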